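import Vale.Agent.P205.Family

/-!
# The development at the base point of the family, and bounds
-/

namespace Vale.Agent.P205

open scoped ContDiff
open Alg

set_option linter.unusedSectionVars false

/-- The development of the Euclidean metric is the identity. -/
lemma dev_euclid {E F H θ Ψ₁ Ψ₂ : ℝ × ℝ → ℝ} (hE : ∀ p, E p = 1) (hF : ∀ p, F p = 0)
    (hH : ∀ p, H p = 1) (hD : Dev E F H θ Ψ₁ Ψ₂) (q : ℝ × ℝ) : Ψ₁ q = q.1 ∧ Ψ₂ q = q.2 := by
  have eE : E = fun _ => 1 := funext hE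
  have eF : F = fun _ => 0 := funext hF
  have eH : H = fun _ => 1 := funext hH
  subst eE eF eH
  have hθ : ∀ p, θ p = 0 := fun p => by
    have h1 : ∀ p, HasPD (fun _ : ℝ × ℝ => (0:ℝ))
        (om1 (fun _ => 1) (fun _ => 0) (fun _ => 1) p) (om2 (fun _ => 1) (fun _ => 0) (fun _ => 1) p) p := fun p => by
      refine (hasPD_const 0 p).congr ?_ ?_
      · have a1 := (hasPD_const (0:ℝ) p).dx
        have a2 := (hasPD_const (1:ℝ) p).dx
        have a3 := (hasPD_const (1:ℝ) p).dy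
        simp [om1, a1, a2, a3]
      · have a2 := (hasPD_const (1:ℝ) p).dx
        have a3 := (hasPD_const (1:ℝ) p).dy
        simp [om2, a2, a3]
    have h := eq_of_same_pd hD.dθ h1 p 0
    rw [hD.θ0] at h
    linarith
  have eP : ∀ p, Pf (fun _ : ℝ × ℝ => (1:ℝ)) p = 1 := fun p => by simp [Pf]
  have eR : ∀ p, Rf (fun _ : ℝ × ℝ => (1:ℝ)) (fun _ => 0) (fun _ => 1) p = 1 := fun p => by
    simp [Rf, Wf]
  have d1 : ∀ p, HasPD Ψ₁ 1 0 p := fun p => by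
    refine (hD.d1 p).congr ?_ ?_
    · simp [A1, eP, hθ]
    · simp [B1, eP, eR, hθ]
  have d2 : ∀ p, HasPD Ψ₂ 0 1 p := fun p => by
    refine (hD.d2 p).congr ?_ ?_
    · simp [A2, eP, hθ]
    · simp [B2, eP, eR, hθ]
  have h1 := eq_of_same_pd (A := fun _ => 1) (B := fun _ => 0) d1 hasPD_fst q 0
  have h2 := eq_of_same_pd (A := fun _ => 0) (B := fun _ => 1) d2 hasPD_snd q 0
  rw [hD.z1] at h1
  rw [hD.z2] at h2
  simp only [Prod.fst_zero, Prod.snd_zero] at h1 h2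
  exact ⟨by linarith, by linarith⟩

namespace Lat

variable {L : Lat} {W : Wt} {U : UData W}

lemma norm_mtp_le (M : Mtp) (y : Herm W) : ‖mtp M y‖ ≤ M.C * ‖y‖ :=
  norm_mtpA_le M y.1

lemma sr_mtp_le (M : Mtp) (y : Herm W) (p : ℝ × ℝ) : |L.sr (mtp M y) p| ≤ M.C * ‖y‖ :=
  le_trans (L.abs_sr_le _ _) (norm_mtp_le M y)

lemma sr_mtp_zero (M : Mtp) (p : ℝ × ℝ) : L.sr (mtp M (0 : Herm W)) p = 0 := by
  rw [map_zero, sr_zero]

/-- Base-point values of the metric. -/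
lemma base_values (U : UData W) (p : ℝ × ℝ) :
    GE (L.phi (0 : Herm W)) (L.T1 U 0 0) p = 1 ∧ GF (L.T1 U 0 0) (L.T2 U 0 0) p = 0 ∧
    GH (L.phi (0 : Herm W)) (L.T2 U 0 0) p = 1 := by
  have h1 : L.phi (0 : Herm W) p = 1 := by simp [phi, sr_zero]
  have h2 : L.T1 U 0 (0 : Herm W) p = 0 := by simp [T1]
  have h3 : L.T2 U 0 (0 : Herm W) p = 0 := by simp [T2]
  simp [GE, GF, GH, h1, h2, h3]

/-- Positivity of the correction for small `y`. -/
lemma phi_lower {y : Herm W} (hy : L.mZ.C * ‖y‖ ≤ 1 / 2) (p : ℝ × ℝ) : 1 / 2 ≤ L.phi y p := by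
  have h := sr_mtp_le (L := L) L.mZ y p
  have h2 := (abs_le.1 (le_trans h hy)).1
  unfold phi
  linarith

/-- Bound for the first derivatives of `τ`. -/
lemma T1_sq_le {y : Herm W} {e : ℝ} (hy : L.mZ.C * ‖y‖ ≤ 1 / 2) (hy1 : L.m1.C * ‖y‖ ≤ 1 / 2)
    (p : ℝ × ℝ) : L.T1 U e y p ^ 2 ≤ e ^ 2 * (‖U.U1‖ + 1) ^ 2 := by
  have h0 := phi_lower hy p
  have h1 := le_trans (sr_mtp_le (L := L) L.m1 y p) hy1
  have h2 := L.abs_sr_le U.U1 p
  unfold T1
  rw [mul_pow]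
  refine mul_le_mul_of_nonneg_left ?_ (sq_nonneg _)
  apply sq_le_sq'
  · have h3 : |L.sr (mtp L.m1 y) p / L.phi y p| ≤ 1 := by
      rw [abs_div, abs_of_pos (by linarith : 0 < L.phi y p), div_le_one (by linarith)]
      linarith
    have h4 := (abs_le.1 h3).2
    have h5 := (abs_le.1 h2).1
    linarith
  · have h3 : |L.sr (mtp L.m1 y) p / L.phi y p| ≤ 1 := by
      rw [abs_div, abs_of_pos (by linarith : 0 < L.phi y p), div_le_one (by linarith)]
      linarith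
    have h4 := (abs_le.1 h3).1
    have h5 := (abs_le.1 h2).2
    linarith

lemma T2_sq_le {y : Herm W} {e : ℝ} (hy : L.mZ.C * ‖y‖ ≤ 1 / 2) (hy1 : L.m2.C * ‖y‖ ≤ 1 / 2)
    (p : ℝ × ℝ) : L.T2 U e y p ^ 2 ≤ e ^ 2 * (‖U.U2‖ + 1) ^ 2 := by
  have h0 := phi_lower hy p
  have h1 := le_trans (sr_mtp_le (L := L) L.m2 y p) hy1
  have h2 := L.abs_sr_le U.U2 p
  unfold T2
  rw [mul_pow]
  refine mul_le_mul_of_nonneg_left ?_ (sq_nonneg _)
  apply sq_le_sq'
  · have h3 : |L.sr (mtp L.m2 y) p / L.phi y p| ≤ 1 := by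
      rw [abs_div, abs_of_pos (by linarith : 0 < L.phi y p), div_le_one (by linarith)]
      linarith
    have h4 := (abs_le.1 h3).2
    have h5 := (abs_le.1 h2).1
    linarith
  · have h3 : |L.sr (mtp L.m2 y) p / L.phi y p| ≤ 1 := by
      rw [abs_div, abs_of_pos (by linarith : 0 < L.phi y p), div_le_one (by linarith)]
      linarith
    have h4 := (abs_le.1 h3).1
    have h5 := (abs_le.1 h2).2
    linarith

/-- The inequality defining positivity of the metric. -/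
lemma hlt_of_small {y : Herm W} {e : ℝ} (hy : L.mZ.C * ‖y‖ ≤ 1 / 2) (hy1 : L.m1.C * ‖y‖ ≤ 1 / 2)
    (hy2 : L.m2.C * ‖y‖ ≤ 1 / 2) (he : e ^ 2 * ((‖U.U1‖ + 1) ^ 2 + (‖U.U2‖ + 1) ^ 2) < 1 / 4)
    (p : ℝ × ℝ) : L.T1 U e y p ^ 2 + L.T2 U e y p ^ 2 < L.phi y p ^ 2 := by
  have h0 := phi_lower hy p
  have h1 := T1_sq_le (U := U) (e := e) hy hy1 p
  have h2 := T2_sq_le (U := U) (e := e) hy hy2 p
  nlinarith

end Lat

end Vale.Agent.P205
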