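import Mathlib

open Set

namespace Vale.Agent.P205

/-- Two-parameter intermediate value argument along a monotone solution curve. -/
theorem ivt_curve (A B : ℝ → ℝ → ℝ) {s₀ s₁ e₁ a b : ℝ} (hs : s₀ ≤ s₁) (he : 0 ≤ e₁)
    (hA : ContinuousOn (fun p : ℝ × ℝ => A p.1 p.2) (Icc s₀ s₁ ×ˢ Icc 0 e₁))
    (hB : ContinuousOn (fun p : ℝ × ℝ => B p.1 p.2) (Icc s₀ s₁ ×ˢ Icc 0 e₁))
    (hmono : ∀ e ∈ Icc 0 e₁, StrictMonoOn (fun s => A s e) (Icc s₀ s₁))
    (hlo : ∀ e ∈ Icc 0 e₁, A s₀ e ≤ a) (hhi : ∀ e ∈ Icc 0 e₁, a ≤ A s₁ e)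
    (h0 : ∀ s ∈ Icc s₀ s₁, A s 0 = a → B s 0 ≤ b)
    (h1 : ∀ s ∈ Icc s₀ s₁, A s e₁ = a → b ≤ B s e₁) :
    ∃ s ∈ Icc s₀ s₁, ∃ e ∈ Icc 0 e₁, A s e = a ∧ B s e = b := by
  have hs₀mem : s₀ ∈ Icc s₀ s₁ := ⟨le_rfl, hs⟩
  have hs₁mem : s₁ ∈ Icc s₀ s₁ := ⟨hs, le_rfl⟩
  -- continuity in the first variable
  have hcont1 : ∀ e ∈ Icc 0 e₁, ContinuousOn (fun s => A s e) (Icc s₀ s₁) := by
    intro e he'
    have : ContinuousOn (fun s : ℝ => ((s, e) : ℝ × ℝ)) (Icc s₀ s₁) := by fun_prop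
    exact hA.comp this (fun s hs' => ⟨hs', he'⟩)
  have hcont2 : ∀ s ∈ Icc s₀ s₁, ContinuousOn (fun e => A s e) (Icc 0 e₁) := by
    intro s hs'
    have : ContinuousOn (fun e : ℝ => ((s, e) : ℝ × ℝ)) (Icc 0 e₁) := by fun_prop
    exact hA.comp this (fun e he' => ⟨hs', he'⟩)
  -- existence of the solution curve
  have hex : ∀ e ∈ Icc 0 e₁, ∃ s ∈ Icc s₀ s₁, A s e = a := by
    intro e he'
    have := intermediate_value_Icc hs (hcont1 e he') ⟨hlo e he', hhi e he'⟩
    obtain ⟨s, hs', hse⟩ := this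
    exact ⟨s, hs', hse⟩
  choose! σ hσmem hσ using hex
  -- continuity of the curve
  have hσc : ContinuousOn σ (Icc 0 e₁) := by
    intro e₀ he₀
    rw [Metric.continuousWithinAt_iff]
    intro δ hδ
    set st := σ e₀ with hst
    have hstmem := hσmem e₀ he₀
    -- upper barrier
    have hup : ∀ᶠ e in nhdsWithin e₀ (Icc 0 e₁), σ e < st + δ := by
      by_cases hc : st + δ / 2 ≤ s₁
      · have hmem : st + δ / 2 ∈ Icc s₀ s₁ := ⟨by linarith [hstmem.1], hc⟩
        have hgt : a < A (st + δ / 2) e₀ := by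
          have := hmono e₀ he₀ hstmem hmem (by linarith)
          simpa [hσ e₀ he₀, hst] using this
        have hcw := (hcont2 _ hmem) e₀ he₀
        have hev : ∀ᶠ e in nhdsWithin e₀ (Icc 0 e₁), a < A (st + δ / 2) e :=
          hcw.eventually (lt_mem_nhds hgt)
        filter_upwards [hev, self_mem_nhdsWithin] with e he1 he2
        by_contra hcon
        push Not at hcon
        have h3 : st + δ / 2 < σ e := by linarith
        have := hmono e he2 hmem (hσmem e he2) h3
        simp only at this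
        rw [hσ e he2] at this
        linarith
      · filter_upwards [self_mem_nhdsWithin] with e he2
        have := (hσmem e he2).2
        push Not at hc
        linarith
    have hdn : ∀ᶠ e in nhdsWithin e₀ (Icc 0 e₁), st - δ < σ e := by
      by_cases hc : s₀ ≤ st - δ / 2
      · have hmem : st - δ / 2 ∈ Icc s₀ s₁ := ⟨hc, by linarith [hstmem.2]⟩
        have hgt : A (st - δ / 2) e₀ < a := by
          have := hmono e₀ he₀ hmem hstmem (by linarith)
          simpa [hσ e₀ he₀, hst] using this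
        have hcw := (hcont2 _ hmem) e₀ he₀
        have hev : ∀ᶠ e in nhdsWithin e₀ (Icc 0 e₁), A (st - δ / 2) e < a :=
          hcw.eventually (gt_mem_nhds hgt)
        filter_upwards [hev, self_mem_nhdsWithin] with e he1 he2
        by_contra hcon
        push Not at hcon
        have h3 : σ e < st - δ / 2 := by linarith
        have := hmono e he2 (hσmem e he2) hmem h3
        simp only at this
        rw [hσ e he2] at this
        linarith
      · filter_upwards [self_mem_nhdsWithin] with e he2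
        have := (hσmem e he2).1
        push Not at hc
        linarith
    have hmp := hup.and hdn
    rw [Filter.Eventually, Metric.mem_nhdsWithin_iff] at hmp
    obtain ⟨η, hη, hsub⟩ := hmp
    refine ⟨η, hη, ?_⟩
    intro e he' hd
    have h := hsub ⟨Metric.mem_ball.2 hd, he'⟩
    simp only [mem_setOf_eq] at h
    rw [Real.dist_eq, abs_lt]
    constructor <;> linarith [h.1, h.2]
  -- the composite
  have hh : ContinuousOn (fun e => B (σ e) e) (Icc 0 e₁) := by
    have : ContinuousOn (fun e : ℝ => ((σ e, e) : ℝ × ℝ)) (Icc 0 e₁) :=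
      hσc.prodMk continuousOn_id
    exact hB.comp this (fun e he' => ⟨hσmem e he', he'⟩)
  have h00 : (0 : ℝ) ∈ Icc 0 e₁ := ⟨le_rfl, he⟩
  have h11 : e₁ ∈ Icc 0 e₁ := ⟨he, le_rfl⟩
  have hb0 := h0 _ (hσmem 0 h00) (hσ 0 h00)
  have hb1 := h1 _ (hσmem e₁ h11) (hσ e₁ h11)
  obtain ⟨e, he', hee⟩ := intermediate_value_Icc he hh ⟨hb0, hb1⟩
  exact ⟨σ e, hσmem e he', e, he', hσ e he', hee⟩

end Vale.Agent.P205
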