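import Mathlib
import Vale.Agent.P205.Ivt

open Set MeasureTheory intervalIntegral Real

namespace Vale.Agent.P205

lemma grid_point (x y T : ℝ) (h : x + 2 * π < y) :
    ∃ i : ℤ, x < T + 2 * π * i ∧ T + 2 * π * i < y := by
  have hpi : 0 < 2 * π := by positivity
  refine ⟨⌊(x - T) / (2 * π)⌋ + 1, ?_, ?_⟩
  · have h1 := Int.lt_floor_add_one ((x - T) / (2 * π))
    rw [div_lt_iff₀ hpi] at h1
    push_cast
    nlinarith
  · have h1 := Int.floor_le ((x - T) / (2 * π))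
    rw [le_div_iff₀ hpi] at h1
    push_cast
    nlinarith

lemma tan_gap {x y : ℝ} (hx : 0 ≤ x) (hxy : x ≤ y) (hy : y < π / 2) :
    y - x ≤ tan y - tan x := by
  have hmono : MonotoneOn (fun t => tan t - t) (Ico 0 (π / 2)) := by
    apply monotoneOn_of_deriv_nonneg (convex_Ico _ _)
    · apply ContinuousOn.sub _ continuousOn_id
      apply continuousOn_tan.mono
      intro t ht
      have h1 : 0 < cos t := cos_pos_of_mem_Ioo ⟨by linarith [ht.1, pi_pos], ht.2⟩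
      exact h1.ne'
    · intro t ht
      rw [interior_Ico] at ht
      have h1 : cos t ≠ 0 := (cos_pos_of_mem_Ioo ⟨by linarith [ht.1, pi_pos], ht.2⟩).ne'
      exact ((differentiableAt_tan.2 h1).sub differentiableAt_id).differentiableWithinAt
    · intro t ht
      rw [interior_Ico] at ht
      have h1 : 0 < cos t := cos_pos_of_mem_Ioo ⟨by linarith [ht.1, pi_pos], ht.2⟩
      have hd : HasDerivAt (fun t => tan t - t) (1 / cos t ^ 2 - 1) t :=
        (hasDerivAt_tan h1.ne').sub (hasDerivAt_id t)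
      rw [hd.deriv]
      have h2 : cos t ^ 2 ≤ 1 := by nlinarith [sin_sq_add_cos_sq t, sq_nonneg (sin t)]
      have h3 : 1 ≤ 1 / cos t ^ 2 := by
        rw [le_div_iff₀ (by positivity)]
        linarith
      linarith
  have := hmono (⟨hx, by linarith⟩ : x ∈ Ico 0 (π / 2)) (⟨by linarith, hy⟩ : y ∈ Ico 0 (π / 2)) hxy
  simp only at this
  linarith

/-- The Cauchy-Schwarz defect estimate used for the closing lemma. -/
lemma defect_int {P : ℝ} (hP : 0 < P) {V u : ℝ → ℝ} (hV : Continuous V) (hVpos : ∀ y, 0 < V y)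
    {Vm : ℝ} (hVm : ∀ y, Vm ≤ V y) (hVmpos : 0 < Vm) (hu : Continuous u) (hupos : ∀ y, 0 < u y)
    (hule : ∀ y, u y ≤ 1) {c d : ℝ} (hd : 0 < d)
    (hu1 : ∀ y ∈ Icc 0 (P / 6), u y ≤ c) (hu2 : ∀ y ∈ Icc (P / 3) (2 * P / 3), c + 2 * d ≤ u y) :
    (∫ y in (0 : ℝ)..P, V y) ^ 2 / (∫ y in (0 : ℝ)..P, V y * u y) + Vm * P * d ^ 2 / 6
      ≤ ∫ y in (0 : ℝ)..P, V y * (u y)⁻¹ := by
  set W := ∫ y in (0 : ℝ)..P, V y with hW
  set a := ∫ y in (0 : ℝ)..P, V y * u y with ha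
  have hint : IntervalIntegrable V volume 0 P := hV.intervalIntegrable _ _
  have hVu : IntervalIntegrable (fun y => V y * u y) volume 0 P :=
    (hV.mul hu).intervalIntegrable _ _
  have hWpos : 0 < W := intervalIntegral.intervalIntegral_pos_of_pos hint hVpos hP
  have haposs : 0 < a := intervalIntegral.intervalIntegral_pos_of_pos hVu
    (fun y => mul_pos (hVpos y) (hupos y)) hP
  have hale : a ≤ W := by
    apply intervalIntegral.integral_mono_on hP.le hVu hint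
    intro y _
    have := hule y
    have h2 := hVpos y
    nlinarith
  set u₀ : ℝ := a / W with hu₀
  have hu₀pos : 0 < u₀ := div_pos haposs hWpos
  have hu₀le : u₀ ≤ 1 := by
    rw [hu₀, div_le_one hWpos]; exact hale
  have hucinv : Continuous fun y => (u y)⁻¹ := hu.inv₀ (fun y => (hupos y).ne')
  -- pointwise inequality
  have hpt : ∀ y, V y * (2 / u₀ - u y / u₀ ^ 2 + (u y - u₀) ^ 2) ≤ V y * (u y)⁻¹ := by
    intro y
    apply mul_le_mul_of_nonneg_left _ (hVpos y).le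
    have h1 := hupos y
    have h2 := hule y
    have key : (u y)⁻¹ - (2 / u₀ - u y / u₀ ^ 2) = (u y - u₀) ^ 2 / (u y * u₀ ^ 2) := by
      field_simp
      ring
    have h3 : u y * u₀ ^ 2 ≤ 1 := by
      have : u₀ ^ 2 ≤ 1 := by nlinarith
      nlinarith [sq_nonneg u₀]
    have h4 : (u y - u₀) ^ 2 ≤ (u y - u₀) ^ 2 / (u y * u₀ ^ 2) := by
      rw [le_div_iff₀ (by positivity)]
      nlinarith [sq_nonneg (u y - u₀)]
    linarith
  have hgc : Continuous fun y => V y * (u y - u₀) ^ 2 := by fun_prop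
  have hlincomb : (∫ y in (0 : ℝ)..P, V y * (2 / u₀ - u y / u₀ ^ 2 + (u y - u₀) ^ 2))
      = W ^ 2 / a + ∫ y in (0 : ℝ)..P, V y * (u y - u₀) ^ 2 := by
    have h1 : ∀ y, V y * (2 / u₀ - u y / u₀ ^ 2 + (u y - u₀) ^ 2)
        = (2 / u₀) * V y - (1 / u₀ ^ 2) * (V y * u y) + V y * (u y - u₀) ^ 2 := by
      intro y; ring
    simp_rw [h1]
    rw [intervalIntegral.integral_add, intervalIntegral.integral_sub,
      intervalIntegral.integral_const_mul, intervalIntegral.integral_const_mul]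
    · have : (2 / u₀) * W - (1 / u₀ ^ 2) * a = W ^ 2 / a := by
        rw [hu₀]
        field_simp
        ring
      linarith
    · exact hint.const_mul _
    · exact hVu.const_mul _
    · exact (hint.const_mul _).sub (hVu.const_mul _)
    · exact hgc.intervalIntegrable _ _
  -- lower bound for the defect
  have hdf : Vm * P * d ^ 2 / 6 ≤ ∫ y in (0 : ℝ)..P, V y * (u y - u₀) ^ 2 := by
    have hgnn : ∀ y, 0 ≤ V y * (u y - u₀) ^ 2 := fun y =>
      mul_nonneg (hVpos y).le (sq_nonneg _)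
    have hge : ∀ e e' : ℝ, 0 ≤ e → e ≤ e' → e' ≤ P → P / 6 ≤ e' - e →
        (∀ y ∈ Icc e e', d ≤ |u y - u₀|) →
        Vm * P * d ^ 2 / 6 ≤ ∫ y in (0 : ℝ)..P, V y * (u y - u₀) ^ 2 := by
      intro e e' he hee' he' hlen hy
      have h1 : (∫ y in e..e', V y * (u y - u₀) ^ 2)
          ≤ ∫ y in (0 : ℝ)..P, V y * (u y - u₀) ^ 2 := by
        apply intervalIntegral.integral_mono_interval he hee' he'
        · exact Filter.Eventually.of_forall hgnn
        · exact hgc.intervalIntegrable _ _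
      have h2 : (∫ y in e..e', Vm * d ^ 2) ≤ ∫ y in e..e', V y * (u y - u₀) ^ 2 := by
        apply intervalIntegral.integral_mono_on hee' (by simp) (hgc.intervalIntegrable _ _)
        intro y hy'
        have h3 := hy y hy'
        have h4 : d ^ 2 ≤ (u y - u₀) ^ 2 := by
          rw [← sq_abs (u y - u₀)]
          exact pow_le_pow_left₀ hd.le h3 2
        exact mul_le_mul (hVm y) h4 (by positivity) (hVpos y).le
      rw [intervalIntegral.integral_const] at h2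
      simp only [smul_eq_mul] at h2
      have h5 : Vm * P * d ^ 2 / 6 ≤ (e' - e) * (Vm * d ^ 2) := by
        have h6 : Vm * P * d ^ 2 / 6 = (P / 6) * (Vm * d ^ 2) := by ring
        rw [h6]
        exact mul_le_mul_of_nonneg_right hlen (by positivity)
      linarith
    by_cases hcase : c + d ≤ u₀
    · refine hge 0 (P / 6) le_rfl (by positivity) (by linarith) (by linarith) ?_
      intro y hy
      have h2 := hu1 y hy
      rw [abs_sub_comm]
      exact le_trans (by linarith) (le_abs_self _)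
    · push Not at hcase
      refine hge (P / 3) (2 * P / 3) (by positivity) (by linarith) (by linarith) (by linarith) ?_
      intro y hy
      have h2 := hu2 y hy
      have : d ≤ u y - u₀ := by linarith
      exact le_trans this (le_abs_self _)
  have hIne : (∫ y in (0 : ℝ)..P, V y * (2 / u₀ - u y / u₀ ^ 2 + (u y - u₀) ^ 2))
      ≤ ∫ y in (0 : ℝ)..P, V y * (u y)⁻¹ := by
    apply intervalIntegral.integral_mono_on hP.le
    · apply Continuous.intervalIntegrable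
      fun_prop
    · exact (hV.mul hucinv).intervalIntegrable _ _
    · intro y _
      exact hpt y
  rw [hlincomb] at hIne
  linarith

/-- The rectangle of parameters. -/
def rect : Set (ℝ × ℝ) := Icc (π / 16) (3 * π / 16) ×ˢ Icc 0 (π / 16)

lemma phi_range {ψ : ℝ → ℝ} (hψ0 : ∀ y, 0 ≤ ψ y) (hψ1 : ∀ y, ψ y ≤ 1) {s e : ℝ}
    (hs : s ∈ Icc (π / 16) (3 * π / 16)) (he : e ∈ Icc (0 : ℝ) (π / 16)) (y : ℝ) :
    π / 16 ≤ s + e * ψ y ∧ s + e * ψ y ≤ π / 4 := by
  have hpi := pi_pos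
  have h1 : 0 ≤ e * ψ y := mul_nonneg he.1 (hψ0 y)
  have h2 : e * ψ y ≤ (π / 16) * 1 := mul_le_mul he.2 (hψ1 y) (hψ0 y) (by positivity)
  constructor
  · linarith [hs.1]
  · linarith [hs.2]

lemma param_cont {ψ : ℝ → ℝ} (hψc : Continuous ψ) (hψ0 : ∀ y, 0 ≤ ψ y) (hψ1 : ∀ y, ψ y ≤ 1)
    {V : ℝ → ℝ → ℝ} (hVc : Continuous (Function.uncurry V)) {G : ℝ → ℝ}
    (hG : ContinuousOn G (Icc (π / 16) (π / 4))) (P : ℝ) :
    ContinuousOn (fun p : ℝ × ℝ => ∫ y in (0 : ℝ)..P, V p.2 y * G (p.1 + p.2 * ψ y)) rect := by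
  rw [continuousOn_iff_continuous_domRestrict]
  have := intervalIntegral.continuous_parametric_intervalIntegral_of_continuous'
    (μ := volume)
    (f := fun (x : ↥rect) (y : ℝ) => V x.1.2 y * G (x.1.1 + x.1.2 * ψ y)) ?_ 0 P
  · exact this
  · have h2 : Continuous fun q : ↥rect × ℝ => V q.1.1.2 q.2 :=
      hVc.comp (by fun_prop : Continuous fun q : ↥rect × ℝ => (q.1.1.2, q.2))
    have h1 : Continuous fun q : ↥rect × ℝ => q.1.1.1 + q.1.1.2 * ψ q.2 := by fun_prop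
    have h3 : Continuous fun q : ↥rect × ℝ => G (q.1.1.1 + q.1.1.2 * ψ q.2) :=
      hG.comp_continuous h1 (fun q => by
        have hq := q.1.2
        exact phi_range hψ0 hψ1 hq.1 hq.2 q.2)
    exact h2.mul h3

lemma tan_contOn : ContinuousOn tan (Icc (π / 16) (π / 4)) := by
  apply continuousOn_tan.mono
  intro x hx
  have hpi := pi_pos
  exact (cos_pos_of_mem_Ioo ⟨by linarith [hx.1], by linarith [hx.2]⟩).ne'

lemma tan_pos_range {x : ℝ} (hx : x ∈ Icc (π / 16) (π / 4)) : 0 < tan x := by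
  have hpi := pi_pos
  exact tan_pos_of_pos_of_lt_pi_div_two (by linarith [hx.1]) (by linarith [hx.2])

lemma inv_tan_contOn : ContinuousOn (fun x => (tan x)⁻¹) (Icc (π / 16) (π / 4)) :=
  tan_contOn.inv₀ (fun _ hx => (tan_pos_range hx).ne')

lemma tan_le_one_range {x : ℝ} (hx : x ∈ Icc (π / 16) (π / 4)) : tan x ≤ 1 := by
  have hpi := pi_pos
  rcases hx.2.eq_or_lt with h | h
  · rw [h, tan_pi_div_four]
  · have := tan_lt_tan_of_lt_of_lt_pi_div_two (by linarith [hx.1]) (by linarith) h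
    rw [tan_pi_div_four] at this
    exact this.le

/-- The defect bound at the end of the curve, specialised. -/
lemma defect_end {P : ℝ} (hP : 0 < P) {ψ : ℝ → ℝ} (hψc : Continuous ψ) (hψ0 : ∀ y, 0 ≤ ψ y)
    (hψ1 : ∀ y, ψ y ≤ 1) (hψa : ∀ y ∈ Icc 0 (P / 6), ψ y ≤ 1 / 4)
    (hψb : ∀ y ∈ Icc (P / 3) (2 * P / 3), 3 / 4 ≤ ψ y)
    {V : ℝ → ℝ} (hV : Continuous V) (hVpos : ∀ y, 0 < V y) {Vm : ℝ} (hVm : ∀ y, Vm ≤ V y)
    (hVmpos : 0 < Vm) {s : ℝ} (hs : s ∈ Icc (π / 16) (3 * π / 16)) :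
    (∫ y in (0 : ℝ)..P, V y) ^ 2 / (∫ y in (0 : ℝ)..P, V y * tan (s + π / 16 * ψ y))
        + Vm * P * (π / 16) ^ 2 / 96
      ≤ ∫ y in (0 : ℝ)..P, V y * (tan (s + π / 16 * ψ y))⁻¹ := by
  have hpi := pi_pos
  have he : π / 16 ∈ Icc (0 : ℝ) (π / 16) := ⟨by positivity, le_rfl⟩
  have hr := fun y => phi_range hψ0 hψ1 hs he y
  have hφc : Continuous fun y => s + π / 16 * ψ y := by fun_prop
  have huc : Continuous fun y => tan (s + π / 16 * ψ y) :=
    tan_contOn.comp_continuous hφc hr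
  have hd : 0 < π / 64 := by positivity
  have hmono : ∀ x y, x ≤ y → -(π / 2) < x → y < π / 2 → tan x ≤ tan y := by
    intro x y hxy h1 h2
    rcases hxy.eq_or_lt with h | h
    · rw [h]
    · exact (tan_lt_tan_of_lt_of_lt_pi_div_two h1 h2 h).le
  have h := defect_int (P := P) (V := V) (u := fun y => tan (s + π / 16 * ψ y)) hP hV hVpos hVm
    hVmpos huc (fun y => tan_pos_range (hr y)) (fun y => tan_le_one_range (hr y))
    (c := tan (s + π / 64)) (d := π / 64) hd ?_ ?_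
  · have e1 : Vm * P * (π / 64) ^ 2 / 6 = Vm * P * (π / 16) ^ 2 / 96 := by ring
    rw [e1] at h
    exact h
  · intro y hy
    have h1 := hψa y hy
    have h0 := hψ0 y
    apply hmono
    · nlinarith
    · linarith [(hr y).1]
    · linarith [hs.2]
  · intro y hy
    have h1 := hψb y hy
    have hgap := tan_gap (x := s + π / 64) (y := s + 3 * π / 64)
      (by linarith [hs.1]) (by linarith) (by linarith [hs.2])
    have h2 : tan (s + 3 * π / 64) ≤ tan (s + π / 16 * ψ y) := by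
      apply hmono
      · nlinarith
      · linarith [hs.1]
      · linarith [(hr y).2]
    linarith

/-- Strict monotonicity of the tangent integral. -/
lemma tan_integral_strictMono {P : ℝ} (hP : 0 < P) {ψ : ℝ → ℝ} (hψc : Continuous ψ)
    (hψ0 : ∀ y, 0 ≤ ψ y) (hψ1 : ∀ y, ψ y ≤ 1) {V : ℝ → ℝ} (hV : Continuous V)
    (hVpos : ∀ y, 0 < V y) {e : ℝ} (he : e ∈ Icc (0 : ℝ) (π / 16)) :
    StrictMonoOn (fun s => ∫ y in (0 : ℝ)..P, V y * tan (s + e * ψ y))
      (Icc (π / 16) (3 * π / 16)) := by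
  have hpi := pi_pos
  intro s hs s' hs' hss'
  simp only
  have hc : ∀ s ∈ Icc (π / 16) (3 * π / 16), Continuous fun y => V y * tan (s + e * ψ y) := by
    intro s hs
    exact hV.mul (tan_contOn.comp_continuous (by fun_prop) (phi_range hψ0 hψ1 hs he))
  have hlt : ∀ y, V y * tan (s + e * ψ y) < V y * tan (s' + e * ψ y) := by
    intro y
    apply mul_lt_mul_of_pos_left _ (hVpos y)
    have h1 := phi_range hψ0 hψ1 hs he y
    have h2 := phi_range hψ0 hψ1 hs' he y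
    exact tan_lt_tan_of_lt_of_lt_pi_div_two (by linarith) (by linarith) (by linarith)
  apply intervalIntegral.integral_lt_integral_of_continuousOn_of_le_of_exists_lt hP
  · exact (hc s hs).continuousOn
  · exact (hc s' hs').continuousOn
  · intro y _
    exact (hlt y).le
  · exact ⟨0, ⟨le_rfl, hP.le⟩, hlt 0⟩

/-- The lower barrier. -/
lemma barrier_lo {P : ℝ} (hP : 0 < P) {ψ : ℝ → ℝ} (hψc : Continuous ψ)
    (hψ0 : ∀ y, 0 ≤ ψ y) (hψ1 : ∀ y, ψ y ≤ 1) {V : ℝ → ℝ} (hV : Continuous V)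
    (hVpos : ∀ y, 0 < V y) {e : ℝ} (he : e ∈ Icc (0 : ℝ) (π / 16)) :
    (∫ y in (0 : ℝ)..P, V y * tan (π / 16 + e * ψ y)) ≤ tan (π / 8) * ∫ y in (0 : ℝ)..P, V y := by
  have hpi := pi_pos
  have hs : π / 16 ∈ Icc (π / 16) (3 * π / 16) := ⟨le_rfl, by linarith⟩
  rw [← intervalIntegral.integral_const_mul]
  have hm : Continuous fun y => tan (π / 16 + e * ψ y) :=
    tan_contOn.comp_continuous (by fun_prop) (phi_range hψ0 hψ1 hs he)
  apply intervalIntegral.integral_mono_on hP.le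
  · exact (hV.mul hm).intervalIntegrable _ _
  · exact (hV.const_mul _).intervalIntegrable _ _
  · intro y _
    have h2 : π / 16 + e * ψ y ≤ π / 8 := by
      have h3 : e * ψ y ≤ (π / 16) * 1 := mul_le_mul he.2 (hψ1 y) (hψ0 y) (by positivity)
      linarith
    have h5 : tan (π / 16 + e * ψ y) ≤ tan (π / 8) := by
      rcases h2.eq_or_lt with h | h
      · rw [h]
      · have h0 : 0 ≤ e * ψ y := mul_nonneg he.1 (hψ0 y)
        exact (tan_lt_tan_of_lt_of_lt_pi_div_two (by linarith) (by linarith) h).le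
    have h6 := hVpos y
    nlinarith

/-- The upper barrier. -/
lemma barrier_hi {P : ℝ} (hP : 0 < P) {ψ : ℝ → ℝ} (hψc : Continuous ψ)
    (hψ0 : ∀ y, 0 ≤ ψ y) (hψ1 : ∀ y, ψ y ≤ 1) {V : ℝ → ℝ} (hV : Continuous V)
    (hVpos : ∀ y, 0 < V y) {e : ℝ} (he : e ∈ Icc (0 : ℝ) (π / 16)) :
    tan (3 * π / 16) * (∫ y in (0 : ℝ)..P, V y) ≤ ∫ y in (0 : ℝ)..P, V y * tan (3 * π / 16 + e * ψ y) := by
  have hpi := pi_pos
  have hs : 3 * π / 16 ∈ Icc (π / 16) (3 * π / 16) := ⟨by linarith, le_rfl⟩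
  rw [← intervalIntegral.integral_const_mul]
  have hm : Continuous fun y => tan (3 * π / 16 + e * ψ y) :=
    tan_contOn.comp_continuous (by fun_prop) (phi_range hψ0 hψ1 hs he)
  apply intervalIntegral.integral_mono_on hP.le
  · exact (hV.const_mul _).intervalIntegrable _ _
  · exact (hV.mul hm).intervalIntegrable _ _
  · intro y _
    have h0 : 0 ≤ e * ψ y := mul_nonneg he.1 (hψ0 y)
    have hr := phi_range hψ0 hψ1 hs he y
    have h5 : tan (3 * π / 16) ≤ tan (3 * π / 16 + e * ψ y) := by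
      rcases h0.eq_or_lt with h | h
      · rw [← h, add_zero]
      · exact (tan_lt_tan_of_lt_of_lt_pi_div_two (by linarith) (by linarith [hr.2]) (by linarith)).le
    have h6 := hVpos y
    nlinarith

/-- The closing lemma: two integrals of tangent and cotangent type can be
prescribed modulo `2π` by tuning two parameters. -/
theorem closing {P : ℝ} (hP : 0 < P) {ψ : ℝ → ℝ} (hψc : Continuous ψ) (hψ0 : ∀ y, 0 ≤ ψ y)
    (hψ1 : ∀ y, ψ y ≤ 1) (hψa : ∀ y ∈ Icc 0 (P / 6), ψ y ≤ 1 / 4)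
    (hψb : ∀ y ∈ Icc (P / 3) (2 * P / 3), 3 / 4 ≤ ψ y)
    {V : ℝ → ℝ → ℝ} (hVc : Continuous (Function.uncurry V))
    (hVpos : ∀ e ∈ Icc (0 : ℝ) (π / 16), ∀ y, 0 < V e y)
    (hVle : ∀ e ∈ Icc (0 : ℝ) (π / 16), ∀ y, V e y ≤ V 0 y)
    (hVge : ∀ e ∈ Icc (0 : ℝ) (π / 16), ∀ y, V (π / 16) y ≤ V e y)
    {Vm : ℝ} (hVm : ∀ y, Vm ≤ V (π / 16) y)
    (H1 : 2 * π + tan (π / 8) * (∫ y in (0 : ℝ)..P, V 0 y)
      < tan (3 * π / 16) * (∫ y in (0 : ℝ)..P, V (π / 16) y))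
    (H2 : 2 * π + 2 * ((∫ y in (0 : ℝ)..P, V 0 y) - (∫ y in (0 : ℝ)..P, V (π / 16) y)) / tan (π / 8)
      < Vm * P * (π / 16) ^ 2 / 96) (T : ℝ) :
    ∃ s ∈ Icc (π / 16) (3 * π / 16), ∃ e ∈ Icc (0 : ℝ) (π / 16), ∃ i j : ℤ,
      (∫ y in (0 : ℝ)..P, V e y * tan (s + e * ψ y)) = T + 2 * π * i ∧
      (∫ y in (0 : ℝ)..P, V e y * (tan (s + e * ψ y))⁻¹) = -T + 2 * π * j := by
  have hpi := pi_pos
  have he₁pos : 0 < π / 16 := by positivity
  have he₁mem : π / 16 ∈ Icc (0 : ℝ) (π / 16) := ⟨he₁pos.le, le_rfl⟩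
  have h0mem : (0 : ℝ) ∈ Icc (0 : ℝ) (π / 16) := ⟨le_rfl, he₁pos.le⟩
  have hVy : ∀ e, Continuous (V e) := fun e => hVc.comp (by fun_prop : Continuous fun y => (e, y))
  have hint : ∀ e, IntervalIntegrable (V e) volume 0 P :=
    fun e => (hVy e).intervalIntegrable _ _
  set W₀ := ∫ y in (0 : ℝ)..P, V 0 y with hW₀
  set W₁ := ∫ y in (0 : ℝ)..P, V (π / 16) y with hW₁
  have hWpos : ∀ e ∈ Icc (0 : ℝ) (π / 16), 0 < ∫ y in (0 : ℝ)..P, V e y := fun e he =>
    intervalIntegral.intervalIntegral_pos_of_pos (hint e) (fun y => hVpos e he y) hP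
  have hWle : ∀ e ∈ Icc (0 : ℝ) (π / 16), (∫ y in (0 : ℝ)..P, V e y) ≤ W₀ := fun e he =>
    intervalIntegral.integral_mono_on hP.le (hint e) (hint 0) (fun y _ => hVle e he y)
  have hWge : ∀ e ∈ Icc (0 : ℝ) (π / 16), W₁ ≤ ∫ y in (0 : ℝ)..P, V e y := fun e he =>
    intervalIntegral.integral_mono_on hP.le (hint _) (hint e) (fun y _ => hVge e he y)
  have hW₀pos : 0 < W₀ := hWpos 0 h0mem
  have hW₁pos : 0 < W₁ := hWpos _ he₁mem
  have hW₁₀ : W₁ ≤ W₀ := hWle _ he₁mem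
  set t₁ := tan (π / 8) with ht₁
  set t₂ := tan (3 * π / 16) with ht₂
  have ht₁pos : 0 < t₁ := tan_pos_of_pos_of_lt_pi_div_two (by positivity) (by linarith)
  have ht₁₂ : t₁ < t₂ := tan_lt_tan_of_lt_of_lt_pi_div_two (by linarith) (by linarith) (by linarith)
  obtain ⟨i, hi1, hi2⟩ := grid_point (t₁ * W₀) (t₂ * W₁) T (by linarith)
  set a : ℝ := T + 2 * π * i with ha
  have haposs : 0 < a := lt_trans (mul_pos ht₁pos hW₀pos) hi1
  set η : ℝ := Vm * P * (π / 16) ^ 2 / 96 with hη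
  have hVmpos : 0 < Vm := by
    have h3 : 0 ≤ (W₀ - W₁) / t₁ := div_nonneg (by linarith) ht₁pos.le
    have h4 : 2 * (W₀ - W₁) / t₁ = 2 * ((W₀ - W₁) / t₁) := by ring
    have h5 : 0 < η := by
      have : 0 < 2 * π + 2 * (W₀ - W₁) / t₁ := by rw [h4]; positivity
      exact lt_trans this H2
    by_contra hcon
    push Not at hcon
    have : η ≤ 0 := by
      rw [hη]
      apply div_nonpos_of_nonpos_of_nonneg _ (by norm_num)
      exact mul_nonpos_of_nonpos_of_nonneg (mul_nonpos_of_nonpos_of_nonneg hcon hP.le) (by positivity)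
    linarith
  have hgap2 : W₀ ^ 2 / a + 2 * π < W₁ ^ 2 / a + η := by
    have h1 : (W₀ ^ 2 - W₁ ^ 2) / a ≤ 2 * (W₀ - W₁) / t₁ := by
      rw [div_le_div_iff₀ haposs ht₁pos]
      have h2 : t₁ * W₀ < a := hi1
      have h3 : 0 ≤ W₀ - W₁ := by linarith
      have h4 : W₀ ^ 2 - W₁ ^ 2 = (W₀ - W₁) * (W₀ + W₁) := by ring
      rw [h4]
      have h5 : (W₀ + W₁) * t₁ ≤ 2 * a := by nlinarith
      nlinarith
    have h2 : W₀ ^ 2 / a + 2 * π - W₁ ^ 2 / a = (W₀ ^ 2 - W₁ ^ 2) / a + 2 * π := by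
      field_simp
      ring
    have h3 : 2 * π + 2 * (W₀ - W₁) / t₁ < η := H2
    linarith
  obtain ⟨j, hj1, hj2⟩ := grid_point (W₀ ^ 2 / a) (W₁ ^ 2 / a + η) (-T) hgap2
  set b : ℝ := -T + 2 * π * j with hb
  let A : ℝ → ℝ → ℝ := fun s e => ∫ y in (0 : ℝ)..P, V e y * tan (s + e * ψ y)
  let B : ℝ → ℝ → ℝ := fun s e => ∫ y in (0 : ℝ)..P, V e y * (tan (s + e * ψ y))⁻¹
  have hA0 : ∀ s, A s 0 = W₀ * tan s := by
    intro s
    simp only [A, zero_mul, add_zero, hW₀]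
    rw [intervalIntegral.integral_mul_const]
  have hB0 : ∀ s, B s 0 = W₀ * (tan s)⁻¹ := by
    intro s
    simp only [B, zero_mul, add_zero, hW₀]
    rw [intervalIntegral.integral_mul_const]
  have hAc : ContinuousOn (fun p : ℝ × ℝ => A p.1 p.2) rect :=
    param_cont hψc hψ0 hψ1 hVc tan_contOn P
  have hBc : ContinuousOn (fun p : ℝ × ℝ => B p.1 p.2) rect :=
    param_cont hψc hψ0 hψ1 hVc inv_tan_contOn P
  have hmono : ∀ e ∈ Icc 0 (π / 16), StrictMonoOn (fun s => A s e) (Icc (π / 16) (3 * π / 16)) :=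
    fun e he => tan_integral_strictMono hP hψc hψ0 hψ1 (hVy e) (hVpos e he) he
  have hlo : ∀ e ∈ Icc 0 (π / 16), A (π / 16) e ≤ a := by
    intro e he
    have h1 := barrier_lo hP hψc hψ0 hψ1 (hVy e) (hVpos e he) he
    have h2 : t₁ * (∫ y in (0 : ℝ)..P, V e y) ≤ t₁ * W₀ :=
      mul_le_mul_of_nonneg_left (hWle e he) ht₁pos.le
    have h3 : A (π / 16) e ≤ t₁ * (∫ y in (0 : ℝ)..P, V e y) := h1
    linarith
  have hhi : ∀ e ∈ Icc 0 (π / 16), a ≤ A (3 * π / 16) e := by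
    intro e he
    have h1 := barrier_hi hP hψc hψ0 hψ1 (hVy e) (hVpos e he) he
    have h2 : t₂ * W₁ ≤ t₂ * (∫ y in (0 : ℝ)..P, V e y) :=
      mul_le_mul_of_nonneg_left (hWge e he) (by linarith)
    have h3 : t₂ * (∫ y in (0 : ℝ)..P, V e y) ≤ A (3 * π / 16) e := h1
    linarith
  have h0 : ∀ s ∈ Icc (π / 16) (3 * π / 16), A s 0 = a → B s 0 ≤ b := by
    intro s hs hAs
    rw [hB0]
    rw [hA0] at hAs
    have htp : 0 < tan s := tan_pos_of_pos_of_lt_pi_div_two (by linarith [hs.1]) (by linarith [hs.2])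
    have : W₀ * (tan s)⁻¹ = W₀ ^ 2 / a := by
      rw [← hAs]
      field_simp
    rw [this]
    exact hj1.le
  have h1 : ∀ s ∈ Icc (π / 16) (3 * π / 16), A s (π / 16) = a → b ≤ B s (π / 16) := by
    intro s hs hAs
    have := defect_end hP hψc hψ0 hψ1 hψa hψb (hVy (π / 16)) (hVpos _ he₁mem) hVm hVmpos hs
    have h2 : (∫ y in (0 : ℝ)..P, V (π / 16) y * tan (s + π / 16 * ψ y)) = a := hAs
    rw [h2] at this
    have h3 : B s (π / 16) = ∫ y in (0 : ℝ)..P, V (π / 16) y * (tan (s + π / 16 * ψ y))⁻¹ := rfl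
    rw [h3]
    linarith
  obtain ⟨s, hs, e, he, hAe, hBe⟩ :=
    ivt_curve A B (by linarith) he₁pos.le hAc hBc hmono hlo hhi h0 h1
  exact ⟨s, hs, e, he, i, j, hAe, hBe⟩

end Vale.Agent.P205
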