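import Mathlib
import Vale.Agent.P205.Closing

open Set MeasureTheory intervalIntegral Real
open scoped ContDiff

namespace Vale.Agent.P205

/-- The profile function `sin² (π y / P)`. -/
noncomputable def psi (P y : ℝ) : ℝ := sin (π * y / P) ^ 2

/-- Its derivative. -/
noncomputable def dpsi (P y : ℝ) : ℝ := 2 * sin (π * y / P) * cos (π * y / P) * (π / P)

lemma hasDerivAt_psi (P y : ℝ) : HasDerivAt (psi P) (dpsi P y) y := by
  have h1 : HasDerivAt (fun y => π * y / P) (π / P) y := by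
    simpa using ((hasDerivAt_id y).const_mul π).div_const P
  have h2 : HasDerivAt (fun y => sin (π * y / P) ^ 2)
      (2 * sin (π * y / P) ^ (2 - 1) * (cos (π * y / P) * (π / P))) y := by
    simpa using (h1.sin).fun_pow 2
  have h3 : dpsi P y = 2 * sin (π * y / P) ^ (2 - 1) * (cos (π * y / P) * (π / P)) := by
    simp only [dpsi]
    norm_num
    ring
  rw [h3]
  exact h2

lemma psi_contDiff (P : ℝ) : ContDiff ℝ ∞ (psi P) := by
  unfold psi
  fun_prop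

lemma dpsi_contDiff (P : ℝ) : ContDiff ℝ ∞ (dpsi P) := by
  unfold dpsi
  fun_prop

lemma psi_nonneg (P y : ℝ) : 0 ≤ psi P y := sq_nonneg _

lemma psi_le_one (P y : ℝ) : psi P y ≤ 1 := by
  unfold psi
  nlinarith [sin_sq_add_cos_sq (π * y / P), sq_nonneg (cos (π * y / P))]

lemma psi_periodic {P : ℝ} (hP : P ≠ 0) (y : ℝ) : psi P (y + P) = psi P y := by
  unfold psi
  have : π * (y + P) / P = π * y / P + π := by field_simp
  rw [this, sin_add_pi]
  ring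

lemma dpsi_periodic {P : ℝ} (hP : P ≠ 0) (y : ℝ) : dpsi P (y + P) = dpsi P y := by
  unfold dpsi
  have : π * (y + P) / P = π * y / P + π := by field_simp
  rw [this, sin_add_pi, cos_add_pi]
  ring

lemma psi_small {P : ℝ} (hP : 0 < P) : ∀ y ∈ Icc 0 (P / 6), psi P y ≤ 1 / 4 := by
  intro y hy
  have hpi := pi_pos
  have h0 : 0 ≤ π * y / P := div_nonneg (mul_nonneg hpi.le hy.1) hP.le
  have h1 : π * y / P ≤ π / 6 := by
    rw [div_le_iff₀ hP]
    have := hy.2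
    have h3 : y * 6 ≤ P := by linarith
    nlinarith
  have h2 : sin (π * y / P) ≤ sin (π / 6) :=
    sin_le_sin_of_le_of_le_pi_div_two (by linarith) (by linarith) h1
  rw [sin_pi_div_six] at h2
  have h3 : 0 ≤ sin (π * y / P) := sin_nonneg_of_nonneg_of_le_pi h0 (by linarith)
  unfold psi
  nlinarith

lemma psi_large {P : ℝ} (hP : 0 < P) : ∀ y ∈ Icc (P / 3) (2 * P / 3), 3 / 4 ≤ psi P y := by
  intro y hy
  have hpi := pi_pos
  have h1 : π / 3 ≤ π * y / P := by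
    rw [le_div_iff₀ hP]
    have := hy.1
    nlinarith
  have h2 : π * y / P ≤ 2 * π / 3 := by
    rw [div_le_iff₀ hP]
    have := hy.2
    nlinarith
  have h3 : sin (π / 3) ≤ sin (π * y / P) := by
    by_cases hc : π * y / P ≤ π / 2
    · exact sin_le_sin_of_le_of_le_pi_div_two (by linarith) hc h1
    · push Not at hc
      rw [← sin_pi_sub (π * y / P)]
      exact sin_le_sin_of_le_of_le_pi_div_two (by linarith) (by linarith) (by linarith)
  rw [sin_pi_div_three] at h3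
  have h4 : (√3 / 2) ^ 2 = 3 / 4 := by
    rw [div_pow, sq_sqrt (by norm_num)]
    norm_num
  have h5 : 0 ≤ √3 / 2 := by positivity
  unfold psi
  nlinarith

/-- The weight function of the cone construction. -/
noncomputable def coneV (P : ℝ) (r : ℝ → ℝ) (e y : ℝ) : ℝ :=
  √(1 - deriv r y ^ 2 - r y ^ 2 * (e * dpsi P y) ^ 2) / r y

section polar

variable {R Θ : ℝ → ℝ} {R' Θ' : ℝ} {y : ℝ}

lemma polar_cos (x : ℝ) (hR : HasDerivAt R R' y) (hΘ : HasDerivAt Θ Θ' y) :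
    HasFDerivAt (fun p : ℝ × ℝ => R p.2 * cos (p.1 + Θ p.2))
      (cos (x + Θ y) • (R' • ContinuousLinearMap.snd ℝ ℝ ℝ)
        + R y • (-sin (x + Θ y) • (ContinuousLinearMap.fst ℝ ℝ ℝ + Θ' • ContinuousLinearMap.snd ℝ ℝ ℝ)))
      (x, y) := by
  have h1 : HasFDerivAt (fun p : ℝ × ℝ => p.2) (ContinuousLinearMap.snd ℝ ℝ ℝ) (x, y) :=
    hasFDerivAt_snd
  have h2 : HasFDerivAt (fun p : ℝ × ℝ => R p.2) (R' • ContinuousLinearMap.snd ℝ ℝ ℝ) (x, y) :=
    hR.comp_hasFDerivAt (x, y) h1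
  have h3 : HasFDerivAt (fun p : ℝ × ℝ => Θ p.2) (Θ' • ContinuousLinearMap.snd ℝ ℝ ℝ) (x, y) :=
    hΘ.comp_hasFDerivAt (x, y) h1
  have h4 : HasFDerivAt (fun p : ℝ × ℝ => p.1 + Θ p.2)
      (ContinuousLinearMap.fst ℝ ℝ ℝ + Θ' • ContinuousLinearMap.snd ℝ ℝ ℝ) (x, y) :=
    hasFDerivAt_fst.add h3
  have h5 := h4.cos
  have h6 : HasFDerivAt (fun p : ℝ × ℝ => R p.2 * cos (p.1 + Θ p.2))
      (R y • (-sin (x + Θ y) • (ContinuousLinearMap.fst ℝ ℝ ℝ + Θ' • ContinuousLinearMap.snd ℝ ℝ ℝ))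
        + cos (x + Θ y) • (R' • ContinuousLinearMap.snd ℝ ℝ ℝ)) (x, y) := h2.mul h5
  exact h6.congr_fderiv (add_comm _ _)

lemma polar_sin (x : ℝ) (hR : HasDerivAt R R' y) (hΘ : HasDerivAt Θ Θ' y) :
    HasFDerivAt (fun p : ℝ × ℝ => R p.2 * sin (p.1 + Θ p.2))
      (sin (x + Θ y) • (R' • ContinuousLinearMap.snd ℝ ℝ ℝ)
        + R y • (cos (x + Θ y) • (ContinuousLinearMap.fst ℝ ℝ ℝ + Θ' • ContinuousLinearMap.snd ℝ ℝ ℝ)))
      (x, y) := by
  have h1 : HasFDerivAt (fun p : ℝ × ℝ => p.2) (ContinuousLinearMap.snd ℝ ℝ ℝ) (x, y) :=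
    hasFDerivAt_snd
  have h2 : HasFDerivAt (fun p : ℝ × ℝ => R p.2) (R' • ContinuousLinearMap.snd ℝ ℝ ℝ) (x, y) :=
    hR.comp_hasFDerivAt (x, y) h1
  have h3 : HasFDerivAt (fun p : ℝ × ℝ => Θ p.2) (Θ' • ContinuousLinearMap.snd ℝ ℝ ℝ) (x, y) :=
    hΘ.comp_hasFDerivAt (x, y) h1
  have h4 : HasFDerivAt (fun p : ℝ × ℝ => p.1 + Θ p.2)
      (ContinuousLinearMap.fst ℝ ℝ ℝ + Θ' • ContinuousLinearMap.snd ℝ ℝ ℝ) (x, y) :=
    hasFDerivAt_fst.add h3
  have h5 := h4.sin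
  have h6 : HasFDerivAt (fun p : ℝ × ℝ => R p.2 * sin (p.1 + Θ p.2))
      (R y • (cos (x + Θ y) • (ContinuousLinearMap.fst ℝ ℝ ℝ + Θ' • ContinuousLinearMap.snd ℝ ℝ ℝ))
        + sin (x + Θ y) • (R' • ContinuousLinearMap.snd ℝ ℝ ℝ)) (x, y) := h2.mul h5
  exact h6.congr_fderiv (add_comm _ _)

/-- Value of the derivative on a vector (cosine component). -/
lemma polar_cos_apply (x : ℝ) (hR : HasDerivAt R R' y) (hΘ : HasDerivAt Θ Θ' y) (v : ℝ × ℝ) :
    fderiv ℝ (fun p : ℝ × ℝ => R p.2 * cos (p.1 + Θ p.2)) (x, y) v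
      = R' * v.2 * cos (x + Θ y) - R y * sin (x + Θ y) * (v.1 + Θ' * v.2) := by
  rw [(polar_cos x hR hΘ).fderiv]
  simp only [add_apply, smul_apply,
    ContinuousLinearMap.coe_snd', ContinuousLinearMap.coe_fst', smul_eq_mul]
  ring

lemma polar_sin_apply (x : ℝ) (hR : HasDerivAt R R' y) (hΘ : HasDerivAt Θ Θ' y) (v : ℝ × ℝ) :
    fderiv ℝ (fun p : ℝ × ℝ => R p.2 * sin (p.1 + Θ p.2)) (x, y) v
      = R' * v.2 * sin (x + Θ y) + R y * cos (x + Θ y) * (v.1 + Θ' * v.2) := by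
  rw [(polar_sin x hR hΘ).fderiv]
  simp only [add_apply, smul_apply,
    ContinuousLinearMap.coe_snd', ContinuousLinearMap.coe_fst', smul_eq_mul]
  ring

end polar

lemma circle_pair (ca sa R a a' b b' : ℝ) (h : sa ^ 2 + ca ^ 2 = 1) :
    (a * ca - R * sa * b) * (a' * ca - R * sa * b') + (a * sa + R * ca * b) * (a' * sa + R * ca * b')
      = a * a' + R ^ 2 * b * b' := by
  linear_combination (a * a' + R ^ 2 * b * b') * h

lemma cone_algebra (r d dp c C S g1 g2 v1 v2 w1 w2 ca sa cb sb : ℝ) (hCS : S ^ 2 + C ^ 2 = 1)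
    (hc2 : c ^ 2 = 1 - d ^ 2 - r ^ 2 * dp ^ 2) (h3 : sa ^ 2 + ca ^ 2 = 1) (h4 : sb ^ 2 + cb ^ 2 = 1)
    (hg1 : r * C * g1 = c * S) (hg2 : r * S * g2 = c * C) :
    ((d * C + r * (-S * dp)) * v2 * ca - (r * C) * sa * (v1 + (-g1) * v2))
        * ((d * C + r * (-S * dp)) * w2 * ca - (r * C) * sa * (w1 + (-g1) * w2))
      + ((d * C + r * (-S * dp)) * v2 * sa + (r * C) * ca * (v1 + (-g1) * v2))
        * ((d * C + r * (-S * dp)) * w2 * sa + (r * C) * ca * (w1 + (-g1) * w2))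
      + ((d * S + r * (C * dp)) * v2 * cb - (r * S) * sb * (v1 + g2 * v2))
        * ((d * S + r * (C * dp)) * w2 * cb - (r * S) * sb * (w1 + g2 * w2))
      + ((d * S + r * (C * dp)) * v2 * sb + (r * S) * cb * (v1 + g2 * v2))
        * ((d * S + r * (C * dp)) * w2 * sb + (r * S) * cb * (w1 + g2 * w2))
      = r ^ 2 * v1 * w1 + v2 * w2 := by
  have e1 := circle_pair ca sa (r * C) ((d * C + r * (-S * dp)) * v2) ((d * C + r * (-S * dp)) * w2)
    (v1 + (-g1) * v2) (w1 + (-g1) * w2) h3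
  have e2 := circle_pair cb sb (r * S) ((d * S + r * (C * dp)) * v2) ((d * S + r * (C * dp)) * w2)
    (v1 + g2 * v2) (w1 + g2 * w2) h4
  have e3 : (r * C) ^ 2 * (v1 + (-g1) * v2) * (w1 + (-g1) * w2)
      = (r * C * v1 - c * S * v2) * (r * C * w1 - c * S * w2) := by
    rw [← hg1]; ring
  have e4 : (r * S) ^ 2 * (v1 + g2 * v2) * (w1 + g2 * w2)
      = (r * S * v1 + c * C * v2) * (r * S * w1 + c * C * w2) := by
    rw [← hg2]; ring
  linear_combination e1 + e2 + e3 + e4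
    + (r ^ 2 * v1 * w1 + v2 * w2 * (d ^ 2 + r ^ 2 * dp ^ 2 + c ^ 2)) * hCS + v2 * w2 * hc2

/-- Smoothness of a primitive. -/
lemma contDiff_primitive {g : ℝ → ℝ} (hg : ContDiff ℝ ∞ g) :
    ContDiff ℝ ∞ (fun y => ∫ t in (0 : ℝ)..y, g t) := by
  have hc : Continuous g := hg.continuous
  have hd : ∀ y, HasDerivAt (fun y => ∫ t in (0 : ℝ)..y, g t) (g y) y := fun y =>
    intervalIntegral.integral_hasDerivAt_right (hc.intervalIntegrable _ _)
      (hc.stronglyMeasurableAtFilter _ _) hc.continuousAt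
  rw [contDiff_infty_iff_deriv]
  refine ⟨fun y => (hd y).differentiableAt, ?_⟩
  have : deriv (fun y => ∫ t in (0 : ℝ)..y, g t) = g := funext fun y => (hd y).deriv
  rw [this]
  exact hg

/-- Periodicity of the increments of a primitive. -/
lemma primitive_add_period {g : ℝ → ℝ} (hc : Continuous g) {P : ℝ} (hper : ∀ y, g (y + P) = g y)
    (y : ℝ) : (∫ t in (0 : ℝ)..(y + P), g t) = (∫ t in (0 : ℝ)..y, g t) + ∫ t in (0 : ℝ)..P, g t := by
  have hp : Function.Periodic g P := hper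
  have h1 := hp.intervalIntegral_add_eq y 0
  have h2 : (∫ t in (0 : ℝ)..(y + P), g t) =
      (∫ t in (0 : ℝ)..y, g t) + ∫ t in y..(y + P), g t :=
    (intervalIntegral.integral_add_adjacent_intervals (hc.intervalIntegrable _ _)
      (hc.intervalIntegrable _ _)).symm
  rw [h2, h1, zero_add]

/-- The cone map over a Hopf type torus: all closing conditions assumed. -/
theorem cone_map {P : ℝ} (hP : 0 < P) {r : ℝ → ℝ} (hr : ContDiff ℝ ∞ r) (hrpos : ∀ y, 0 < r y)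
    (hrper : ∀ y, r (y + P) = r y) {T s e : ℝ} (hs : s ∈ Icc (π / 16) (3 * π / 16))
    (he : e ∈ Icc (0 : ℝ) (π / 16))
    (hq : ∀ y, 0 < 1 - deriv r y ^ 2 - r y ^ 2 * (e * dpsi P y) ^ 2) {i j : ℤ}
    (h1 : (∫ y in (0 : ℝ)..P, coneV P r e y * tan (s + e * psi P y)) = T + 2 * π * i)
    (h2 : (∫ y in (0 : ℝ)..P, coneV P r e y * (tan (s + e * psi P y))⁻¹) = -T + 2 * π * j) :
    ∃ F : Fin 4 → ℝ × ℝ → ℝ, (∀ k, ContDiff ℝ ∞ (F k)) ∧
      (∀ p, ∑ k, (F k p) ^ 2 = r p.2 ^ 2) ∧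
      (∀ k x y, F k (x + 2 * π, y) = F k (x, y)) ∧
      (∀ k x y, F k (x + T, y + P) = F k (x, y)) ∧
      (∀ p v w, ∑ k, fderiv ℝ (F k) p v * fderiv ℝ (F k) p w = r p.2 ^ 2 * v.1 * w.1 + v.2 * w.2) := by
  have hpi := pi_pos
  have hP0 := hP.ne'
  -- the angle function
  set φ : ℝ → ℝ := fun y => s + e * psi P y with hφ
  set dφ : ℝ → ℝ := fun y => e * dpsi P y with hdφ
  have hφd : ∀ y, HasDerivAt φ (dφ y) y := fun y => ((hasDerivAt_psi P y).const_mul e).const_add s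
  have hφc : ContDiff ℝ ∞ φ := contDiff_const.add (contDiff_const.mul (psi_contDiff P))
  have hφr : ∀ y, φ y ∈ Icc (π / 16) (π / 4) := fun y =>
    phi_range (psi_nonneg P) (psi_le_one P) hs he y
  have hcos : ∀ y, 0 < cos (φ y) := fun y =>
    cos_pos_of_mem_Ioo ⟨by linarith [(hφr y).1], by linarith [(hφr y).2]⟩
  have hsin : ∀ y, 0 < sin (φ y) := fun y =>
    sin_pos_of_pos_of_lt_pi (by linarith [(hφr y).1]) (by linarith [(hφr y).2])
  have hφper : ∀ y, φ (y + P) = φ y := fun y => by simp only [hφ, psi_periodic hP0]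
  have hdφper : ∀ y, dφ (y + P) = dφ y := fun y => by simp only [hdφ, dpsi_periodic hP0]
  -- derivative of r
  have hrd : ∀ y, HasDerivAt r (deriv r y) y := fun y =>
    (hr.differentiable (by simp) y).hasDerivAt
  have hdrc : ContDiff ℝ ∞ (deriv r) := (contDiff_infty_iff_deriv.1 hr).2
  have hdrper : ∀ y, deriv r (y + P) = deriv r y := by
    intro y
    have h3 : r = fun y => r (y + P) := funext fun y => (hrper y).symm
    conv_rhs => rw [h3]
    rw [deriv_comp_add_const]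
  -- the speed
  set c : ℝ → ℝ := fun y => √(1 - deriv r y ^ 2 - r y ^ 2 * (dφ y) ^ 2) with hc
  have hcarg : ContDiff ℝ ∞ (fun y => 1 - deriv r y ^ 2 - r y ^ 2 * (dφ y) ^ 2) := by
    have : ContDiff ℝ ∞ dφ := contDiff_const.mul (dpsi_contDiff P)
    fun_prop
  have hcc : ContDiff ℝ ∞ c := hcarg.sqrt (fun y => (hq y).ne')
  have hcsq : ∀ y, c y ^ 2 = 1 - deriv r y ^ 2 - r y ^ 2 * (dφ y) ^ 2 := fun y =>
    sq_sqrt (hq y).le
  have hcper : ∀ y, c (y + P) = c y := fun y => by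
    simp only [hc, hdrper, hrper, hdφper]
  -- the integrands
  set g₁ : ℝ → ℝ := fun y => c y / r y * (sin (φ y) / cos (φ y)) with hg₁
  set g₂ : ℝ → ℝ := fun y => c y / r y * (cos (φ y) / sin (φ y)) with hg₂
  have hg₁c : ContDiff ℝ ∞ g₁ := by
    apply ContDiff.mul (hcc.div hr (fun y => (hrpos y).ne'))
    exact (hφc.sin).div (hφc.cos) (fun y => (hcos y).ne')
  have hg₂c : ContDiff ℝ ∞ g₂ := by
    apply ContDiff.mul (hcc.div hr (fun y => (hrpos y).ne'))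
    exact (hφc.cos).div (hφc.sin) (fun y => (hsin y).ne')
  have hg₁per : ∀ y, g₁ (y + P) = g₁ y := fun y => by simp only [hg₁, hcper, hrper, hφper]
  have hg₂per : ∀ y, g₂ (y + P) = g₂ y := fun y => by simp only [hg₂, hcper, hrper, hφper]
  have hg₁e : ∀ y, coneV P r e y * tan (s + e * psi P y) = g₁ y := fun y => by
    simp only [coneV, hg₁, hc, hdφ, hφ, tan_eq_sin_div_cos]
  have hg₂e : ∀ y, coneV P r e y * (tan (s + e * psi P y))⁻¹ = g₂ y := fun y => by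
    simp only [coneV, hg₂, hc, hdφ, hφ, tan_eq_sin_div_cos, inv_div]
  simp_rw [hg₁e] at h1
  simp_rw [hg₂e] at h2
  -- primitives
  set H₁ : ℝ → ℝ := fun y => -∫ t in (0 : ℝ)..y, g₁ t with hH₁
  set H₂ : ℝ → ℝ := fun y => ∫ t in (0 : ℝ)..y, g₂ t with hH₂
  have hH₁c : ContDiff ℝ ∞ H₁ := (contDiff_primitive hg₁c).neg
  have hH₂c : ContDiff ℝ ∞ H₂ := contDiff_primitive hg₂c
  have hH₁d : ∀ y, HasDerivAt H₁ (-g₁ y) y := fun y =>
    (intervalIntegral.integral_hasDerivAt_right (hg₁c.continuous.intervalIntegrable _ _)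
      (hg₁c.continuous.stronglyMeasurableAtFilter _ _) hg₁c.continuous.continuousAt).neg
  have hH₂d : ∀ y, HasDerivAt H₂ (g₂ y) y := fun y =>
    intervalIntegral.integral_hasDerivAt_right (hg₂c.continuous.intervalIntegrable _ _)
      (hg₂c.continuous.stronglyMeasurableAtFilter _ _) hg₂c.continuous.continuousAt
  have hH₁per : ∀ y, H₁ (y + P) = H₁ y - (T + 2 * π * i) := fun y => by
    simp only [hH₁]
    rw [primitive_add_period hg₁c.continuous hg₁per, h1]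
    ring
  have hH₂per : ∀ y, H₂ (y + P) = H₂ y + (-T + 2 * π * j) := fun y => by
    simp only [hH₂]
    rw [primitive_add_period hg₂c.continuous hg₂per, h2]
  -- radial parts
  set R₁ : ℝ → ℝ := fun y => r y * cos (φ y) with hR₁
  set R₂ : ℝ → ℝ := fun y => r y * sin (φ y) with hR₂
  have hR₁d : ∀ y, HasDerivAt R₁ (deriv r y * cos (φ y) + r y * (-sin (φ y) * dφ y)) y := fun y =>
    (hrd y).mul ((hφd y).cos)
  have hR₂d : ∀ y, HasDerivAt R₂ (deriv r y * sin (φ y) + r y * (cos (φ y) * dφ y)) y := fun y =>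
    (hrd y).mul ((hφd y).sin)
  have hR₁c : ContDiff ℝ ∞ R₁ := hr.mul hφc.cos
  have hR₂c : ContDiff ℝ ∞ R₂ := hr.mul hφc.sin
  have hR₁per : ∀ y, R₁ (y + P) = R₁ y := fun y => by simp only [hR₁, hrper, hφper]
  have hR₂per : ∀ y, R₂ (y + P) = R₂ y := fun y => by simp only [hR₂, hrper, hφper]
  -- the map
  let F : Fin 4 → ℝ × ℝ → ℝ := ![
    fun p => R₁ p.2 * cos (p.1 + H₁ p.2),
    fun p => R₁ p.2 * sin (p.1 + H₁ p.2),
    fun p => R₂ p.2 * cos (p.1 + H₂ p.2),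
    fun p => R₂ p.2 * sin (p.1 + H₂ p.2)]
  have hs1 : ContDiff ℝ ∞ (fun p : ℝ × ℝ => p.2) := contDiff_snd
  have hf1 : ContDiff ℝ ∞ (fun p : ℝ × ℝ => p.1) := contDiff_fst
  refine ⟨F, ?_, ?_, ?_, ?_, ?_⟩
  · intro k
    fin_cases k
    · exact (hR₁c.comp hs1).mul ((hf1.add (hH₁c.comp hs1)).cos)
    · exact (hR₁c.comp hs1).mul ((hf1.add (hH₁c.comp hs1)).sin)
    · exact (hR₂c.comp hs1).mul ((hf1.add (hH₂c.comp hs1)).cos)
    · exact (hR₂c.comp hs1).mul ((hf1.add (hH₂c.comp hs1)).sin)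
  · rintro ⟨x, y⟩
    simp only [F, Fin.sum_univ_four]
    simp only [Matrix.cons_val]
    simp only [hR₁, hR₂]
    have h3 := sin_sq_add_cos_sq (x + H₁ y)
    have h4 := sin_sq_add_cos_sq (x + H₂ y)
    have h5 := sin_sq_add_cos_sq (φ y)
    linear_combination (r y * cos (φ y)) ^ 2 * h3 + (r y * sin (φ y)) ^ 2 * h4 + r y ^ 2 * h5
  · intro k x y
    have h3 : ∀ z : ℝ, cos (x + 2 * π + z) = cos (x + z) := fun z => by
      rw [show x + 2 * π + z = x + z + 2 * π by ring, cos_add_two_pi]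
    have h4 : ∀ z : ℝ, sin (x + 2 * π + z) = sin (x + z) := fun z => by
      rw [show x + 2 * π + z = x + z + 2 * π by ring, sin_add_two_pi]
    fin_cases k <;> simp [F, h3, h4]
  · intro k x y
    have h3 : x + T + H₁ (y + P) = x + H₁ y + (i : ℝ) * (-(2 * π)) := by
      rw [hH₁per]; ring
    have h4 : x + T + H₂ (y + P) = x + H₂ y + (j : ℝ) * (2 * π) := by
      rw [hH₂per]; ring
    have c1 : cos (x + T + H₁ (y + P)) = cos (x + H₁ y) := by
      rw [h3, show x + H₁ y + (i : ℝ) * (-(2 * π)) = x + H₁ y + ((-i : ℤ) : ℝ) * (2 * π) by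
        push_cast; ring]
      exact cos_add_int_mul_two_pi _ _
    have s1 : sin (x + T + H₁ (y + P)) = sin (x + H₁ y) := by
      rw [h3, show x + H₁ y + (i : ℝ) * (-(2 * π)) = x + H₁ y + ((-i : ℤ) : ℝ) * (2 * π) by
        push_cast; ring]
      exact sin_add_int_mul_two_pi _ _
    have c2 : cos (x + T + H₂ (y + P)) = cos (x + H₂ y) := by
      rw [h4]; exact cos_add_int_mul_two_pi _ _
    have s2 : sin (x + T + H₂ (y + P)) = sin (x + H₂ y) := by
      rw [h4]; exact sin_add_int_mul_two_pi _ _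
    fin_cases k <;> simp [F, hR₁per, hR₂per, c1, s1, c2, s2]
  · rintro ⟨x, y⟩ v w
    have e0 : fderiv ℝ (F 0) (x, y) = fderiv ℝ (fun p : ℝ × ℝ => R₁ p.2 * cos (p.1 + H₁ p.2)) (x, y) := rfl
    have e1 : fderiv ℝ (F 1) (x, y) = fderiv ℝ (fun p : ℝ × ℝ => R₁ p.2 * sin (p.1 + H₁ p.2)) (x, y) := rfl
    have e2 : fderiv ℝ (F 2) (x, y) = fderiv ℝ (fun p : ℝ × ℝ => R₂ p.2 * cos (p.1 + H₂ p.2)) (x, y) := rfl
    have e3 : fderiv ℝ (F 3) (x, y) = fderiv ℝ (fun p : ℝ × ℝ => R₂ p.2 * sin (p.1 + H₂ p.2)) (x, y) := rfl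
    rw [Fin.sum_univ_four, e0, e1, e2, e3]
    simp only [polar_cos_apply x (hR₁d y) (hH₁d y), polar_sin_apply x (hR₁d y) (hH₁d y),
      polar_cos_apply x (hR₂d y) (hH₂d y), polar_sin_apply x (hR₂d y) (hH₂d y)]
    have hCS : sin (φ y) ^ 2 + cos (φ y) ^ 2 = 1 := sin_sq_add_cos_sq _
    have hCpos := hcos y
    have hSpos := hsin y
    have hrp := hrpos y
    have hg1 : r y * cos (φ y) * g₁ y = c y * sin (φ y) := by
      simp only [hg₁]
      field_simp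
    have hg2 : r y * sin (φ y) * g₂ y = c y * cos (φ y) := by
      simp only [hg₂]
      field_simp
    exact cone_algebra (r y) (deriv r y) (dφ y) (c y) (cos (φ y)) (sin (φ y)) (g₁ y) (g₂ y)
      v.1 v.2 w.1 w.2 (cos (x + H₁ y)) (sin (x + H₁ y)) (cos (x + H₂ y)) (sin (x + H₂ y))
      hCS (hcsq y) (sin_sq_add_cos_sq _) (sin_sq_add_cos_sq _) hg1 hg2

end Vale.Agent.P205
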