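import Mathlib
import Vale.Agent.P205.Cone

open Set MeasureTheory intervalIntegral Real
open scoped ContDiff

namespace Vale.Agent.P205

/-- Auxiliary constant. -/
noncomputable def kap : ℝ := (π / 16) ^ 2 * (4 * π ^ 2)

/-- The absolute threshold for the ratio of the period to the radius. -/
noncomputable def lam0 : ℝ :=
  1 + 4 * kap + (2 * π + tan (π / 8) * kap) * 2 / (tan (3 * π / 16) - tan (π / 8))
    + (2 * π + 2 * kap / tan (π / 8)) * 192 / (π / 16) ^ 2

lemma tan_constants : 0 < tan (π / 8) ∧ tan (π / 8) < tan (3 * π / 16) := by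
  have hpi := pi_pos
  exact ⟨tan_pos_of_pos_of_lt_pi_div_two (by positivity) (by linarith),
    tan_lt_tan_of_lt_of_lt_pi_div_two (by linarith) (by linarith) (by linarith)⟩

lemma kap_pos : 0 < kap := by unfold kap; positivity

lemma lam0_facts {l : ℝ} (hl : lam0 ≤ l) :
    1 ≤ l ∧ kap / l ^ 2 ≤ 1 / 4 ∧
    2 * π + tan (π / 8) * (kap / l) < (tan (3 * π / 16) - tan (π / 8)) * (l / 2) ∧
    2 * π + 2 * (kap / l) / tan (π / 8) < l * (π / 16) ^ 2 / 192 := by
  have hpi := pi_pos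
  obtain ⟨ht1, ht2⟩ := tan_constants
  have hk := kap_pos
  set t₁ := tan (π / 8) with ht₁
  set t₂ := tan (3 * π / 16) with ht₂
  have hd : 0 < t₂ - t₁ := by linarith
  have a1 : 0 < (2 * π + t₁ * kap) * 2 / (t₂ - t₁) := by positivity
  have a2 : 0 < (2 * π + 2 * kap / t₁) * 192 / (π / 16) ^ 2 := by positivity
  have hl' : 1 + 4 * kap + (2 * π + t₁ * kap) * 2 / (t₂ - t₁)
    + (2 * π + 2 * kap / t₁) * 192 / (π / 16) ^ 2 ≤ l := hl
  have hl1 : 1 ≤ l := by linarith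
  have hl0 : 0 < l := by linarith
  have hkl : kap / l ≤ kap := div_le_self hk.le hl1
  refine ⟨hl1, ?_, ?_, ?_⟩
  · rw [div_le_iff₀ (by positivity)]
    nlinarith
  · have h1 : (2 * π + t₁ * kap) * 2 / (t₂ - t₁) < l := by linarith
    rw [div_lt_iff₀ hd] at h1
    have h2 : t₁ * (kap / l) ≤ t₁ * kap := mul_le_mul_of_nonneg_left hkl ht1.le
    nlinarith
  · have h1 : (2 * π + 2 * kap / t₁) * 192 / (π / 16) ^ 2 < l := by linarith
    rw [div_lt_iff₀ (by positivity)] at h1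
    have h2 : 2 * (kap / l) / t₁ ≤ 2 * kap / t₁ := by
      apply div_le_div_of_nonneg_right _ ht1.le
      linarith
    have h3 : (2 * π + 2 * (kap / l) / t₁) * 192 ≤ (2 * π + 2 * kap / t₁) * 192 := by
      apply mul_le_mul_of_nonneg_right _ (by norm_num)
      linarith
    rw [lt_div_iff₀ (by norm_num : (0 : ℝ) < 192)]
    linarith

lemma dpsi_sq_le {P : ℝ} (hP : 0 < P) (y : ℝ) : dpsi P y ^ 2 ≤ 4 * π ^ 2 / P ^ 2 := by
  have h1 : sin (π * y / P) ^ 2 ≤ 1 := sin_sq_le_one _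
  have h2 : cos (π * y / P) ^ 2 ≤ 1 := cos_sq_le_one _
  have h3 : dpsi P y ^ 2 = 4 * π ^ 2 / P ^ 2 * (sin (π * y / P) ^ 2 * cos (π * y / P) ^ 2) := by
    unfold dpsi
    field_simp
    ring
  rw [h3]
  have h4 : sin (π * y / P) ^ 2 * cos (π * y / P) ^ 2 ≤ 1 := by
    have := sq_nonneg (sin (π * y / P))
    have := sq_nonneg (cos (π * y / P))
    nlinarith
  have h5 : 0 ≤ 4 * π ^ 2 / P ^ 2 := by positivity
  nlinarith

lemma sqrt_diff_le {A B : ℝ} (hB : 1 / 4 ≤ B) (hAB : B ≤ A) : √A - √B ≤ A - B := by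
  have h1 : 1 / 2 ≤ √B := by
    apply Real.le_sqrt_of_sq_le
    norm_num
    linarith
  have h2 : √B ≤ √A := Real.sqrt_le_sqrt hAB
  have h3 : √A ^ 2 = A := Real.sq_sqrt (by linarith)
  have h4 : √B ^ 2 = B := Real.sq_sqrt (by linarith)
  nlinarith

lemma coneV_continuous {P : ℝ} {r : ℝ → ℝ} (hr : ContDiff ℝ ∞ r) (hrpos : ∀ y, 0 < r y) :
    Continuous (Function.uncurry (coneV P r)) := by
  have h1 : Continuous r := hr.continuous
  have h2 : Continuous (deriv r) := (contDiff_infty_iff_deriv.1 hr).2.continuous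
  have h3 : Continuous (dpsi P) := (dpsi_contDiff P).continuous
  unfold coneV
  have h4 : Continuous fun q : ℝ × ℝ => √(1 - deriv r q.2 ^ 2 - r q.2 ^ 2 * (q.1 * dpsi P q.2) ^ 2) := by
    fun_prop
  have h5 : Continuous fun q : ℝ × ℝ => r q.2 := by fun_prop
  exact h4.div h5 (fun q => (hrpos q.2).ne')

/-- Everything needed from a large ratio of period to radius. -/
theorem cone_large {P : ℝ} (hP : 0 < P) {r : ℝ → ℝ} (hr : ContDiff ℝ ∞ r) (hrpos : ∀ y, 0 < r y)
    (hrper : ∀ y, r (y + P) = r y) {rmax : ℝ} (hmax : ∀ y, r y ≤ rmax)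
    (hd : ∀ y, deriv r y ^ 2 ≤ 1 / 4) (hl : lam0 ≤ P / rmax) (T : ℝ) :
    ∃ F : Fin 4 → ℝ × ℝ → ℝ, (∀ k, ContDiff ℝ ∞ (F k)) ∧
      (∀ p, ∑ k, (F k p) ^ 2 = r p.2 ^ 2) ∧
      (∀ k x y, F k (x + 2 * π, y) = F k (x, y)) ∧
      (∀ k x y, F k (x + T, y + P) = F k (x, y)) ∧
      (∀ p v w, ∑ k, fderiv ℝ (F k) p v * fderiv ℝ (F k) p w
        = r p.2 ^ 2 * v.1 * w.1 + v.2 * w.2) := by
  have hpi := pi_pos
  have hrmaxpos : 0 < rmax := lt_of_lt_of_le (hrpos 0) (hmax 0)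
  obtain ⟨hl1, hl2, hl3, hl4⟩ := lam0_facts hl
  set l := P / rmax with hldef
  have hl0 : 0 < l := by linarith
  have hPeq : P = l * rmax := by rw [hldef]; field_simp
  -- pointwise smallness
  have hsmall : ∀ e ∈ Icc (0 : ℝ) (π / 16), ∀ y, r y ^ 2 * (e * dpsi P y) ^ 2 ≤ kap / l ^ 2 := by
    intro e he y
    have h1 : (e * dpsi P y) ^ 2 ≤ (π / 16) ^ 2 * (4 * π ^ 2 / P ^ 2) := by
      rw [mul_pow]
      apply mul_le_mul (pow_le_pow_left₀ he.1 he.2 2) (dpsi_sq_le hP y) (sq_nonneg _) (by positivity)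
    have h2 : r y ^ 2 ≤ rmax ^ 2 := pow_le_pow_left₀ (hrpos y).le (hmax y) 2
    have h3 : kap / l ^ 2 = rmax ^ 2 * ((π / 16) ^ 2 * (4 * π ^ 2 / P ^ 2)) := by
      rw [hPeq]
      unfold kap
      field_simp
    rw [h3]
    exact mul_le_mul h2 h1 (sq_nonneg _) (sq_nonneg _)
  have hgood : ∀ e ∈ Icc (0 : ℝ) (π / 16), ∀ y,
      1 / 2 ≤ 1 - deriv r y ^ 2 - r y ^ 2 * (e * dpsi P y) ^ 2 := by
    intro e he y
    have h1 := hsmall e he y
    have h2 := hd y
    linarith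
  have he1mem : π / 16 ∈ Icc (0 : ℝ) (π / 16) := ⟨by positivity, le_rfl⟩
  have he0mem : (0 : ℝ) ∈ Icc (0 : ℝ) (π / 16) := ⟨le_rfl, by positivity⟩
  have hVc := coneV_continuous (P := P) hr hrpos
  have hVy : ∀ e, Continuous (coneV P r e) := fun e =>
    hVc.comp (by fun_prop : Continuous fun y => (e, y))
  have hint : ∀ e, IntervalIntegrable (coneV P r e) volume 0 P :=
    fun e => (hVy e).intervalIntegrable _ _
  have hVpos : ∀ e ∈ Icc (0 : ℝ) (π / 16), ∀ y, 0 < coneV P r e y := by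
    intro e he y
    unfold coneV
    apply div_pos _ (hrpos y)
    apply Real.sqrt_pos.2
    linarith [hgood e he y]
  -- monotonicity in e
  have hmonoe : ∀ e ∈ Icc (0 : ℝ) (π / 16), ∀ e' ∈ Icc (0 : ℝ) (π / 16), e ≤ e' → ∀ y,
      coneV P r e' y ≤ coneV P r e y := by
    intro e he e' he' hee' y
    unfold coneV
    apply div_le_div_of_nonneg_right _ (hrpos y).le
    apply Real.sqrt_le_sqrt
    have h1 : (e * dpsi P y) ^ 2 ≤ (e' * dpsi P y) ^ 2 := by
      rw [mul_pow, mul_pow]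
      exact mul_le_mul_of_nonneg_right (pow_le_pow_left₀ he.1 hee' 2) (sq_nonneg _)
    have h2 : r y ^ 2 * (e * dpsi P y) ^ 2 ≤ r y ^ 2 * (e' * dpsi P y) ^ 2 :=
      mul_le_mul_of_nonneg_left h1 (sq_nonneg _)
    linarith
  have hVle : ∀ e ∈ Icc (0 : ℝ) (π / 16), ∀ y, coneV P r e y ≤ coneV P r 0 y :=
    fun e he y => hmonoe 0 he0mem e he he.1 y
  have hVge : ∀ e ∈ Icc (0 : ℝ) (π / 16), ∀ y, coneV P r (π / 16) y ≤ coneV P r e y :=
    fun e he y => hmonoe e he _ he1mem he.2 y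
  -- lower bound
  have hVm : ∀ y, 1 / (2 * rmax) ≤ coneV P r (π / 16) y := by
    intro y
    unfold coneV
    have h1 : 1 / 2 ≤ √(1 - deriv r y ^ 2 - r y ^ 2 * (π / 16 * dpsi P y) ^ 2) := by
      apply Real.le_sqrt_of_sq_le
      have := hgood _ he1mem y
      norm_num at this ⊢
      linarith
    rw [div_le_div_iff₀ (by positivity) (hrpos y)]
    have h2 := hmax y
    have h3 := hrpos y
    nlinarith
  -- difference bound
  have hdiff : ∀ y, coneV P r 0 y - coneV P r (π / 16) y ≤ kap / (P * l) := by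
    intro y
    unfold coneV
    have h1 := hgood _ he1mem y
    have h0 := hgood 0 he0mem y
    have h2 := sqrt_diff_le (A := 1 - deriv r y ^ 2 - r y ^ 2 * (0 * dpsi P y) ^ 2)
      (B := 1 - deriv r y ^ 2 - r y ^ 2 * (π / 16 * dpsi P y) ^ 2) (by linarith)
      (by
        have : 0 ≤ r y ^ 2 * (π / 16 * dpsi P y) ^ 2 := by positivity
        simp only [zero_mul, ne_eq, OfNat.ofNat_ne_zero, not_false_eq_true, zero_pow, mul_zero,
          sub_zero]
        linarith)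
    rw [← sub_div, div_le_iff₀ (hrpos y)]
    refine le_trans h2 ?_
    have h3 : (π / 16 * dpsi P y) ^ 2 ≤ (π / 16) ^ 2 * (4 * π ^ 2 / P ^ 2) := by
      rw [mul_pow]
      exact mul_le_mul_of_nonneg_left (dpsi_sq_le hP y) (by positivity)
    have h4 : r y ^ 2 * (π / 16 * dpsi P y) ^ 2 ≤ kap / (P * l) * r y := by
      have h5 : kap / (P * l) = rmax * ((π / 16) ^ 2 * (4 * π ^ 2 / P ^ 2)) := by
        rw [hldef]
        unfold kap
        field_simp
      rw [h5]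
      have h6 := hmax y
      have h7 := hrpos y
      have h8 : r y ^ 2 ≤ rmax * r y := by nlinarith
      calc r y ^ 2 * (π / 16 * dpsi P y) ^ 2 ≤ (rmax * r y) * ((π / 16) ^ 2 * (4 * π ^ 2 / P ^ 2)) :=
            mul_le_mul h8 h3 (by positivity) (by positivity)
        _ = rmax * ((π / 16) ^ 2 * (4 * π ^ 2 / P ^ 2)) * r y := by ring
    simp only [zero_mul, ne_eq, OfNat.ofNat_ne_zero, not_false_eq_true, zero_pow, mul_zero, sub_zero]
    linarith
  set W₀ := ∫ y in (0 : ℝ)..P, coneV P r 0 y with hW₀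
  set W₁ := ∫ y in (0 : ℝ)..P, coneV P r (π / 16) y with hW₁
  have hW₁lo : l / 2 ≤ W₁ := by
    have h1 : (∫ y in (0 : ℝ)..P, 1 / (2 * rmax)) ≤ W₁ :=
      intervalIntegral.integral_mono_on hP.le (by simp) (hint _) (fun y _ => hVm y)
    rw [intervalIntegral.integral_const, smul_eq_mul] at h1
    have h2 : (P - 0) * (1 / (2 * rmax)) = l / 2 := by
      rw [sub_zero, hldef]; field_simp
    linarith
  have hW₀₁ : W₀ - W₁ ≤ kap / l := by
    rw [hW₀, hW₁, ← intervalIntegral.integral_sub (hint _) (hint _)]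
    have h1 : (∫ y in (0 : ℝ)..P, (coneV P r 0 y - coneV P r (π / 16) y))
        ≤ ∫ y in (0 : ℝ)..P, kap / (P * l) :=
      intervalIntegral.integral_mono_on hP.le ((hint _).sub (hint _)) (by simp) (fun y _ => hdiff y)
    rw [intervalIntegral.integral_const, smul_eq_mul] at h1
    have h2 : (P - 0) * (kap / (P * l)) = kap / l := by
      rw [sub_zero]; field_simp
    linarith
  obtain ⟨ht1, ht2⟩ := tan_constants
  have H1 : 2 * π + tan (π / 8) * W₀ < tan (3 * π / 16) * W₁ := by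
    have h1 : (tan (3 * π / 16) - tan (π / 8)) * (l / 2) ≤ (tan (3 * π / 16) - tan (π / 8)) * W₁ :=
      mul_le_mul_of_nonneg_left hW₁lo (by linarith)
    have h2 : tan (π / 8) * (W₀ - W₁) ≤ tan (π / 8) * (kap / l) :=
      mul_le_mul_of_nonneg_left hW₀₁ ht1.le
    nlinarith
  have H2 : 2 * π + 2 * (W₀ - W₁) / tan (π / 8) < 1 / (2 * rmax) * P * (π / 16) ^ 2 / 96 := by
    have h1 : 1 / (2 * rmax) * P * (π / 16) ^ 2 / 96 = l * (π / 16) ^ 2 / 192 := by
      rw [hldef]; field_simp; norm_num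
    rw [h1]
    have h2 : 2 * (W₀ - W₁) / tan (π / 8) ≤ 2 * (kap / l) / tan (π / 8) := by
      apply div_le_div_of_nonneg_right _ ht1.le
      linarith
    linarith
  obtain ⟨s, hs, e, he, i, j, hA, hB⟩ := closing hP (continuous_iff_continuousAt.2 fun y =>
      ((psi_contDiff P).continuous).continuousAt) (psi_nonneg P) (psi_le_one P) (psi_small hP)
    (psi_large hP) hVc hVpos hVle hVge hVm H1 H2 T
  exact cone_map hP hr hrpos hrper hs he (fun y => by linarith [hgood e he y]) hA hB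

end Vale.Agent.P205
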