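import Mathlib

open scoped ContDiff

namespace Vale.Agent.P205

variable {E : Type*} [NormedAddCommGroup E] [NormedSpace ℝ E]

/-- Packing four real functions into a map to Euclidean four-space. -/
noncomputable def pack (F : Fin 4 → E → ℝ) (q : E) : EuclideanSpace ℝ (Fin 4) :=
  WithLp.toLp 2 (fun i => F i q)

lemma pack_apply (F : Fin 4 → E → ℝ) (q : E) (i : Fin 4) : pack F q i = F i q := rfl

lemma pack_contDiff {F : Fin 4 → E → ℝ} (hF : ∀ k, ContDiff ℝ ∞ (F k)) : ContDiff ℝ ∞ (pack F) := by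
  rw [contDiff_euclidean]
  intro i
  exact hF i

lemma pack_fderiv_apply {F : Fin 4 → E → ℝ} (hF : ∀ k, ContDiff ℝ ∞ (F k)) (p v : E) (k : Fin 4) :
    (fderiv ℝ (pack F) p v) k = fderiv ℝ (F k) p v := by
  have hd : DifferentiableAt ℝ (pack F) p :=
    ((pack_contDiff hF).differentiable (by simp)) p
  have h1 := (PiLp.hasFDerivAt_apply (𝕜 := ℝ) 2 (pack F p) k).comp p hd.hasFDerivAt
  have h2 : (fun f : EuclideanSpace ℝ (Fin 4) => f k) ∘ pack F = F k := rfl
  rw [h2] at h1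
  rw [h1.fderiv]
  rfl

lemma pack_inner {F : Fin 4 → E → ℝ} (hF : ∀ k, ContDiff ℝ ∞ (F k)) (p v w : E) :
    inner ℝ (fderiv ℝ (pack F) p v) (fderiv ℝ (pack F) p w)
      = ∑ k, fderiv ℝ (F k) p v * fderiv ℝ (F k) p w := by
  rw [PiLp.inner_apply]
  apply Finset.sum_congr rfl
  intro k _
  rw [pack_fderiv_apply hF, pack_fderiv_apply hF, real_inner_eq_re_inner]
  simp [mul_comm]

end Vale.Agent.P205
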