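import Vale.Agent.P205.Base
import Vale.Agent.P205.ConeLarge
import Vale.Agent.P205.Pack

/-!
# Composition of a cone over the flat torus with a developing map
-/

namespace Vale.Agent.P205

open scoped ContDiff
open Real

set_option linter.unusedSectionVars false

section compose
variable {G : Fin 4 → ℝ × ℝ → ℝ} (hG : ∀ k, ContDiff ℝ ∞ (G k))
  (hS : ∀ p, ∑ k, (G k p) ^ 2 = 1)
  (hM : ∀ p v w, ∑ k, fderiv ℝ (G k) p v * fderiv ℝ (G k) p w = v.1 * w.1 + v.2 * w.2)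
include hG hS hM

lemma sum_orth (p v : ℝ × ℝ) : ∑ k, G k p * fderiv ℝ (G k) p v = 0 := by
  have hd : ∀ k, HasFDerivAt (G k) (fderiv ℝ (G k) p) p := fun k =>
    ((hG k).differentiable (by simp) p).hasFDerivAt
  have h1 : HasFDerivAt (fun q => ∑ k, (G k q) ^ 2)
      (∑ k, ((2:ℕ) * G k p ^ (2 - 1)) • fderiv ℝ (G k) p) p := by
    refine HasFDerivAt.fun_sum (fun k _ => ?_)
    have := (hd k).pow 2
    simpa using this
  have e : (fun q => ∑ k, (G k q) ^ 2) = fun _ => 1 := funext hS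
  rw [e] at h1
  have h2 := h1.unique (hasFDerivAt_const (1:ℝ) p)
  have h3 := DFunLike.congr_fun h2 v
  simp only [sum_apply, smul_apply, smul_eq_mul, zero_apply] at h3
  have h4 : ∑ k, G k p * fderiv ℝ (G k) p v = (1 / 2) * ∑ k, ((2:ℕ) * G k p ^ (2 - 1)) *
      fderiv ℝ (G k) p v := by
    rw [Finset.mul_sum]
    refine Finset.sum_congr rfl (fun k _ => ?_)
    simp
    ring
  rw [h4, h3]
  simp

/-- The metric of the cone composition. -/
theorem cone_compose_metric {A X1 X2 : ℝ × ℝ → ℝ} (hA : Sm A) (hX1 : Sm X1) (hX2 : Sm X2)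
    (p v w : ℝ × ℝ) :
    ∑ k, fderiv ℝ (fun q => A q * G k (X1 q, X2 q)) p v * fderiv ℝ (fun q => A q * G k (X1 q, X2 q)) p w
    = fderiv ℝ A p v * fderiv ℝ A p w + A p ^ 2 *
      (fderiv ℝ X1 p v * fderiv ℝ X1 p w + fderiv ℝ X2 p v * fderiv ℝ X2 p w) := by
  have hX : HasFDerivAt (fun q => (X1 q, X2 q)) ((fderiv ℝ X1 p).prod (fderiv ℝ X2 p)) p :=
    (hX1.differentiable p).hasFDerivAt.prodMk (hX2.differentiable p).hasFDerivAt
  have hGk : ∀ k, HasFDerivAt (fun q => G k (X1 q, X2 q))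
      ((fderiv ℝ (G k) (X1 p, X2 p)).comp ((fderiv ℝ X1 p).prod (fderiv ℝ X2 p))) p := fun k =>
    ((hG k).differentiable (by simp) (X1 p, X2 p)).hasFDerivAt.comp p hX
  have hk : ∀ k (z : ℝ × ℝ), fderiv ℝ (fun q => A q * G k (X1 q, X2 q)) p z =
      fderiv ℝ A p z * G k (X1 p, X2 p) + A p *
        fderiv ℝ (G k) (X1 p, X2 p) (fderiv ℝ X1 p z, fderiv ℝ X2 p z) := fun k z => by
    have h : HasFDerivAt (fun q => A q * G k (X1 q, X2 q))
        (A p • ((fderiv ℝ (G k) (X1 p, X2 p)).comp ((fderiv ℝ X1 p).prod (fderiv ℝ X2 p)))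
          + G k (X1 p, X2 p) • fderiv ℝ A p) p :=
      (hA.differentiable p).hasFDerivAt.mul (hGk k)
    rw [h.fderiv]
    simp
    ring
  simp_rw [hk]
  have o1 := sum_orth hG hS hM (X1 p, X2 p) (fderiv ℝ X1 p v, fderiv ℝ X2 p v)
  have o2 := sum_orth hG hS hM (X1 p, X2 p) (fderiv ℝ X1 p w, fderiv ℝ X2 p w)
  have s1 := hS (X1 p, X2 p)
  have m1 := hM (X1 p, X2 p) (fderiv ℝ X1 p v, fderiv ℝ X2 p v) (fderiv ℝ X1 p w, fderiv ℝ X2 p w)
  simp only [Fin.sum_univ_four] at o1 o2 s1 m1 ⊢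
  linear_combination (fderiv ℝ A p v * A p) * o2 + (fderiv ℝ A p w * A p) * o1
    + (fderiv ℝ A p v * fderiv ℝ A p w) * s1 + (A p ^ 2) * m1

end compose

/-- Iterating the periodicity. -/
lemma iter_period {G : ℝ × ℝ → ℝ} (h : ∀ x y, G (x + 2 * π, y) = G (x, y)) (n : ℕ) (x y : ℝ) :
    G (x + n * (2 * π), y) = G (x, y) := by
  induction n with
  | zero => simp
  | succ n ih =>
    have : x + ((n + 1 : ℕ) : ℝ) * (2 * π) = (x + n * (2 * π)) + 2 * π := by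
      push_cast; ring
    rw [this, h, ih]

lemma HasPD.div_const' {f : ℝ × ℝ → ℝ} {a b k : ℝ} {p : ℝ × ℝ} (hf : HasPD f a b p) :
    HasPD (fun q => f q / k) (a / k) (b / k) p := by
  have h := hf.const_mul k⁻¹
  have e : (fun q => f q / k) = fun q => k⁻¹ * f q := funext fun q => div_eq_inv_mul _ _
  rw [e, div_eq_inv_mul a, div_eq_inv_mul b]
  exact h

/-- The algebra behind the final metric. -/
lemma final_alg (A f e t1 t2 v1 v2 w1 w2 c s A1' B1' A2' B2' Eu : ℝ) (hf : f ≠ 0) (he : e ≠ 0)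
    (hA : A = e * Eu / f) (hcs : c ^ 2 + s ^ 2 = 1)
    (mE : A1' ^ 2 + A2' ^ 2 = f ^ 2 - t1 ^ 2) (mF : A1' * B1' + A2' * B2' = -(t1 * t2))
    (mH : B1' ^ 2 + B2' ^ 2 = f ^ 2 - t2 ^ 2) :
    (A * t1 / e * v1 + A * t2 / e * v2) * (A * t1 / e * w1 + A * t2 / e * w2) + A ^ 2 *
      (((c * A1' + s * A2') / e * v1 + (c * B1' + s * B2') / e * v2) *
        ((c * A1' + s * A2') / e * w1 + (c * B1' + s * B2') / e * w2) +
       ((-s * A1' + c * A2') / e * v1 + (-s * B1' + c * B2') / e * v2) *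
        ((-s * A1' + c * A2') / e * w1 + (-s * B1' + c * B2') / e * w2)) =
    Eu ^ 2 * (v1 * w1 + v2 * w2) := by
  have hP : ((c * A1' + s * A2') / e * v1 + (c * B1' + s * B2') / e * v2) *
        ((c * A1' + s * A2') / e * w1 + (c * B1' + s * B2') / e * w2) +
       ((-s * A1' + c * A2') / e * v1 + (-s * B1' + c * B2') / e * v2) *
        ((-s * A1' + c * A2') / e * w1 + (-s * B1' + c * B2') / e * w2) =
      ((f ^ 2 - t1 ^ 2) * v1 * w1 - t1 * t2 * (v1 * w2 + v2 * w1) + (f ^ 2 - t2 ^ 2) * v2 * w2) / e ^ 2 := by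
    field_simp
    linear_combination ((A1' * v1 + B1' * v2) * (A1' * w1 + B1' * w2) +
      (A2' * v1 + B2' * v2) * (A2' * w1 + B2' * w2)) * hcs + v1 * w1 * mE +
      (v1 * w2 + v2 * w1) * mF + v2 * w2 * mH
  rw [hP, hA]
  field_simp
  ring

/-- Assembly for fixed data. -/
theorem assemble {L : Lat} {u φ t1 t2 u1 u2 z1 z2 θ Ψ₁ Ψ₂ : ℝ × ℝ → ℝ} {e : ℝ} {k : ℕ}
    (he : 0 < e) (hu : Sm u) (hφ : Sm φ) (ht1 : Sm t1) (ht2 : Sm t2)
    (hsym : ∀ p, dy t1 p = dx t2 p) (pu : L.Per u) (pφ : L.Per φ)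
    (hφpos : ∀ p, 0 < φ p) (hlt : ∀ p, t1 p ^ 2 + t2 p ^ 2 < φ p ^ 2)
    (hDev : Dev (GE φ t1) (GF t1 t2) (GH φ t2) θ Ψ₁ Ψ₂)
    (h1a : ∀ p, Ψ₁ (p + L.a) = Ψ₁ p + Ψ₁ L.a) (h2a : ∀ p, Ψ₂ (p + L.a) = Ψ₂ p + Ψ₂ L.a)
    (h1b : ∀ p, Ψ₁ (p + L.b) = Ψ₁ p + Ψ₁ L.b) (h2b : ∀ p, Ψ₂ (p + L.b) = Ψ₂ p + Ψ₂ L.b)
    (hdu : ∀ p, HasPD u (u1 p) (u2 p) p) (hdφ : ∀ p, HasPD φ (z1 p) (z2 p) p)
    (ht1e : ∀ p, t1 p = e * (u1 p - z1 p / φ p)) (ht2e : ∀ p, t2 p = e * (u2 p - z2 p / φ p))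
    (hn : Real.sqrt (Ψ₁ L.a ^ 2 + Ψ₂ L.a ^ 2) = 2 * π * k * e) (hk : 1 ≤ k)
    (hQ : lam0 ≤ (Ψ₁ L.a * Ψ₂ L.b - Ψ₂ L.a * Ψ₁ L.b) / (Real.sqrt (Ψ₁ L.a ^ 2 + Ψ₂ L.a ^ 2) * e)) :
    ∃ Φ : Fin 4 → ℝ × ℝ → ℝ, (∀ j, Sm (Φ j)) ∧ (∀ j p, Φ j (p + L.a) = Φ j p) ∧
      (∀ j p, Φ j (p + L.b) = Φ j p) ∧
      ∀ p v w, ∑ j, fderiv ℝ (Φ j) p v * fderiv ℝ (Φ j) p w =
        Real.exp (2 * u p) * (v.1 * w.1 + v.2 * w.2) := by
  have hpi := Real.pi_pos
  have hk0 : (0:ℝ) < k := by exact_mod_cast hk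
  set b11 := Ψ₁ L.a with hb11
  set b12 := Ψ₂ L.a with hb12
  set b21 := Ψ₁ L.b with hb21
  set b22 := Ψ₂ L.b with hb22
  set n := Real.sqrt (b11 ^ 2 + b12 ^ 2) with hnd
  have hnpos : 0 < n := by rw [hn]; positivity
  have hn2 : n ^ 2 = b11 ^ 2 + b12 ^ 2 := Real.sq_sqrt (by positivity)
  set c := b11 / n with hc
  set s := b12 / n with hs
  have hcs : c ^ 2 + s ^ 2 = 1 := by
    rw [hc, hs]
    field_simp
    linarith
  set Q := (b11 * b22 - b12 * b21) / (n * e) with hQd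
  set T := (c * b21 + s * b22) / e with hT
  have hlam : 0 < lam0 := by
    have h1 := (lam0_facts (l := lam0) le_rfl).1
    linarith
  have hQpos : 0 < Q := lt_of_lt_of_le hlam hQ
  obtain ⟨G, hGc, hG0, hG1, hG2, hG3⟩ := cone_large (P := Q) (r := fun _ => 1) (rmax := 1) hQpos
    contDiff_const (fun _ => one_pos) (fun _ => rfl) (fun _ => le_rfl)
    (fun y => by simp) (by simpa using hQ) T
  have hS : ∀ p, ∑ j, (G j p) ^ 2 = 1 := fun p => by simpa using hG0 p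
  have hM : ∀ p v w, ∑ j, fderiv ℝ (G j) p v * fderiv ℝ (G j) p w = v.1 * w.1 + v.2 * w.2 :=
    fun p v w => by simpa using hG3 p v w
  set A : ℝ × ℝ → ℝ := fun q => e * Real.exp (u q) / φ q with hAd
  set X1 : ℝ × ℝ → ℝ := fun q => (c * Ψ₁ q + s * Ψ₂ q) / e with hX1d
  set X2 : ℝ × ℝ → ℝ := fun q => (-s * Ψ₁ q + c * Ψ₂ q) / e with hX2d
  have hA : Sm A := (contDiff_const.mul hu.exp).div hφ (fun p => (hφpos p).ne')
  have hX1 : Sm X1 := ((contDiff_const.mul hDev.s1).add (contDiff_const.mul hDev.s2)).div_const e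
  have hX2 : Sm X2 := ((contDiff_const.mul hDev.s1).add (contDiff_const.mul hDev.s2)).div_const e
  have hAa : ∀ p, A (p + L.a) = A p := fun p => by simp only [hAd, pu.pa, pφ.pa]
  have hAb : ∀ p, A (p + L.b) = A p := fun p => by simp only [hAd, pu.pb, pφ.pb]
  have hX1a : ∀ p, X1 (p + L.a) = X1 p + k * (2 * π) := fun p => by
    simp only [hX1d, h1a, h2a]
    have h1 : c * b11 + s * b12 = n := by
      rw [hc, hs]; field_simp; linarith
    have h2 : c * (Ψ₁ p + b11) + s * (Ψ₂ p + b12) = (c * Ψ₁ p + s * Ψ₂ p) + n := by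
      linear_combination h1
    rw [h2, hn]
    field_simp
  have hX2a : ∀ p, X2 (p + L.a) = X2 p := fun p => by
    simp only [hX2d, h1a, h2a]
    have h1 : -s * b11 + c * b12 = 0 := by
      rw [hc, hs]; field_simp; ring
    have h2 : -s * (Ψ₁ p + b11) + c * (Ψ₂ p + b12) = (-s * Ψ₁ p + c * Ψ₂ p) := by
      linear_combination h1
    rw [h2]
  have hX1b : ∀ p, X1 (p + L.b) = X1 p + T := fun p => by
    simp only [hX1d, h1b, h2b, hT]
    field_simp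
    ring
  have hX2b : ∀ p, X2 (p + L.b) = X2 p + Q := fun p => by
    simp only [hX2d, h1b, h2b, hQd]
    have h1 : -s * b21 + c * b22 = (b11 * b22 - b12 * b21) / n := by
      rw [hc, hs]; field_simp; ring
    have h2 : -s * (Ψ₁ p + b21) + c * (Ψ₂ p + b22) = (-s * Ψ₁ p + c * Ψ₂ p) +
        (b11 * b22 - b12 * b21) / n := by
      linear_combination h1
    rw [h2]
    field_simp
  refine ⟨fun j q => A q * G j (X1 q, X2 q), fun j => ?_, fun j p => ?_, fun j p => ?_,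
    fun p v w => ?_⟩
  · exact hA.mul ((hGc j).comp (hX1.prodMk hX2))
  · show A (p + L.a) * G j (X1 (p + L.a), X2 (p + L.a)) = _
    rw [hAa, hX1a, hX2a, iter_period (hG1 j)]
  · show A (p + L.b) * G j (X1 (p + L.b), X2 (p + L.b)) = _
    rw [hAb, hX1b, hX2b, hG2 j]
  · rw [cone_compose_metric hGc hS hM hA hX1 hX2]
    have hAp : HasPD A (A p * t1 p / e) (A p * t2 p / e) p := by
      have h := ((hasPD_const e p).mul (hdu p).exp).div (hdφ p) (hφpos p).ne'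
      have h0 := (hφpos p).ne'
      have h1 := he.ne'
      refine h.congr ?_ ?_
      · rw [ht1e, hAd]
        field_simp
        ring
      · rw [ht2e, hAd]
        field_simp
        ring
    have hX1p : HasPD X1 ((c * A1 (GE φ t1) θ p + s * A2 (GE φ t1) θ p) / e)
        ((c * B1 (GE φ t1) (GF t1 t2) (GH φ t2) θ p + s * B2 (GE φ t1) (GF t1 t2) (GH φ t2) θ p) / e) p :=
      (((hDev.d1 p).const_mul c).add ((hDev.d2 p).const_mul s)).div_const'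
    have hX2p : HasPD X2 ((-s * A1 (GE φ t1) θ p + c * A2 (GE φ t1) θ p) / e)
        ((-s * B1 (GE φ t1) (GF t1 t2) (GH φ t2) θ p + c * B2 (GE φ t1) (GF t1 t2) (GH φ t2) θ p) / e) p :=
      (((hDev.d1 p).const_mul (-s)).add ((hDev.d2 p).const_mul c)).div_const'
    have hE := Sm_GE hφ ht1 ht2 hsym
    have hF := Sm_GF hφ ht1 ht2 hsym
    have hH := Sm_GH hφ ht1 ht2 hsym
    have hEpos : ∀ p, 0 < GE φ t1 p := fun p => GE_pos (hlt p)
    have hWpos : ∀ p, 0 < GE φ t1 p * GH φ t2 p - GF t1 t2 p ^ 2 :=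
      fun p => W_G_pos (hφpos p) (hlt p)
    have mE := metric_A (θ := θ) hE hF hH hEpos hWpos p
    have mF := metric_AB (θ := θ) hE hF hH hEpos hWpos p
    have mH := metric_B (θ := θ) hE hF hH hEpos hWpos p
    rw [hAp.apply, hAp.apply, hX1p.apply, hX1p.apply, hX2p.apply, hX2p.apply]
    have e2 : Real.exp (2 * u p) = Real.exp (u p) ^ 2 := by
      rw [two_mul, Real.exp_add]; ring
    rw [e2]
    exact final_alg (A p) (φ p) e (t1 p) (t2 p) v.1 v.2 w.1 w.2 c s _ _ _ _ _ (hφpos p).ne' he.ne'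
      rfl hcs mE mF mH

end Vale.Agent.P205
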