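import Vale.Agent.P205.Partial

/-!
# The connection form of a Riemannian metric on the plane and its curvature
-/

namespace Vale.Agent.P205

open scoped ContDiff

set_option linter.unusedSectionVars false

/-- The Brioschi numerator of the Gauss curvature. -/
noncomputable def BrE (E F H Ex Ey Fx Fy Hx Hy Eyy Fxy Hxx : ℝ) : ℝ :=
  ((-Eyy / 2 + Fxy - Hxx / 2) * (E * H - F * F) - (Ex / 2) * ((Fy - Hx / 2) * H - F * (Hy / 2))
    + (Fx - Ey / 2) * ((Fy - Hx / 2) * F - E * (Hy / 2)))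
  - (-(Ey / 2) * ((Ey / 2) * H - F * (Hx / 2)) + (Hx / 2) * ((Ey / 2) * F - E * (Hx / 2)))

lemma curl_alg (E F H Ex Ey Fx Fy Hx Hy Exy Eyy Fxy Hxx g : ℝ) (hE : E ≠ 0)
    (hW : E * H - F ^ 2 ≠ 0) :
    ((((Ex * Hx + E * Hxx - (Fx * Ey + F * Exy)) * g
        + (E * Hx - F * Ey) * (-(Ex * H + E * Hx - 2 * F * Fx) * g / (2 * (E * H - F ^ 2)))) * (2 * E)
        - (E * Hx - F * Ey) * g * (0 * E + 2 * Ex)) / (2 * E) ^ 2)
    - (((2 * Ey * Fx + 2 * E * Fxy - (Fy * Ex + F * Exy) - (Ey * Ey + E * Eyy)) * g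
        + (2 * E * Fx - F * Ex - E * Ey) * (-(Ey * H + E * Hy - 2 * F * Fy) * g / (2 * (E * H - F ^ 2)))) * (2 * E)
        - (2 * E * Fx - F * Ex - E * Ey) * g * (0 * E + 2 * Ey)) / (2 * E) ^ 2
    = - BrE E F H Ex Ey Fx Fy Hx Hy Eyy Fxy Hxx * (g / (E * H - F ^ 2)) := by
  unfold BrE
  field_simp
  ring

section
variable (E F H : ℝ × ℝ → ℝ)

/-- The determinant of the metric. -/
noncomputable def Wf (p : ℝ × ℝ) : ℝ := E p * H p - F p ^ 2

/-- The area density. -/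
noncomputable def Rf (p : ℝ × ℝ) : ℝ := Real.sqrt (Wf E F H p)

/-- Inverse area density. -/
noncomputable def gf (p : ℝ × ℝ) : ℝ := (Rf E F H p)⁻¹

/-- Connection form, first component. -/
noncomputable def om1 (p : ℝ × ℝ) : ℝ :=
  (2 * E p * dx F p - F p * dx E p - E p * dy E p) * gf E F H p / (2 * E p)

/-- Connection form, second component. -/
noncomputable def om2 (p : ℝ × ℝ) : ℝ :=
  (E p * dx H p - F p * dy E p) * gf E F H p / (2 * E p)

/-- The Brioschi numerator of the metric. -/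
noncomputable def Brf (p : ℝ × ℝ) : ℝ :=
  BrE (E p) (F p) (H p) (dx E p) (dy E p) (dx F p) (dy F p) (dx H p) (dy H p)
    (dy (dy E) p) (dy (dx F) p) (dx (dx H) p)

end

section
variable {E F H : ℝ × ℝ → ℝ} (hE : Sm E) (hF : Sm F) (hH : Sm H)
  (hEpos : ∀ p, 0 < E p) (hWpos : ∀ p, 0 < E p * H p - F p ^ 2)
include hE hF hH hEpos hWpos

lemma Sm_Wf : Sm (Wf E F H) := by
  unfold Wf
  exact (hE.mul hH).sub (hF.pow 2)

lemma Sm_Rf : Sm (Rf E F H) := by
  have h := Sm_Wf hE hF hH hEpos hWpos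
  exact h.sqrt (fun p => (hWpos p).ne')

lemma Rf_pos (p : ℝ × ℝ) : 0 < Rf E F H p := Real.sqrt_pos.2 (hWpos p)

lemma Rf_sq (p : ℝ × ℝ) : Rf E F H p ^ 2 = E p * H p - F p ^ 2 :=
  Real.sq_sqrt (hWpos p).le

lemma Sm_gf : Sm (gf E F H) := by
  have h := Sm_Rf hE hF hH hEpos hWpos
  exact h.inv (fun p => (Rf_pos hE hF hH hEpos hWpos p).ne')

lemma gf_pos (p : ℝ × ℝ) : 0 < gf E F H p := inv_pos.2 (Rf_pos hE hF hH hEpos hWpos p)

lemma Sm_om1 : Sm (om1 E F H) := by
  unfold om1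
  have hg := Sm_gf hE hF hH hEpos hWpos
  refine ContDiff.div ?_ (contDiff_const.mul hE) (fun p => ?_)
  · exact (((contDiff_const.mul hE).mul hF.dx).sub (hF.mul hE.dx) |>.sub (hE.mul hE.dy)).mul hg
  · exact (mul_pos two_pos (hEpos p)).ne'

lemma Sm_om2 : Sm (om2 E F H) := by
  unfold om2
  have hg := Sm_gf hE hF hH hEpos hWpos
  refine ContDiff.div ?_ (contDiff_const.mul hE) (fun p => ?_)
  · exact ((hE.mul hH.dx).sub (hF.mul hE.dy)).mul hg
  · exact (mul_pos two_pos (hEpos p)).ne'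

lemma hasPD_Wf (p : ℝ × ℝ) : HasPD (Wf E F H)
    (dx E p * H p + E p * dx H p - 2 * F p * dx F p)
    (dy E p * H p + E p * dy H p - 2 * F p * dy F p) p :=
  ((hE.hasPD p).mul (hH.hasPD p)).sub (hF.hasPD p).sq

lemma hasPD_gf (p : ℝ × ℝ) : HasPD (gf E F H)
    (-(dx E p * H p + E p * dx H p - 2 * F p * dx F p) * gf E F H p / (2 * (E p * H p - F p ^ 2)))
    (-(dy E p * H p + E p * dy H p - 2 * F p * dy F p) * gf E F H p / (2 * (E p * H p - F p ^ 2))) p := by
  have hW := hasPD_Wf hE hF hH hEpos hWpos p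
  have hR : HasPD (Rf E F H) _ _ p := hW.sqrt (hWpos p)
  have hR0 := Rf_pos hE hF hH hEpos hWpos p
  have hg : HasPD (gf E F H) _ _ p := hR.inv hR0.ne'
  have hsq := Rf_sq hE hF hH hEpos hWpos p
  have hroot : Real.sqrt (Wf E F H p) = Rf E F H p := rfl
  rw [hroot] at hg
  have hW2 : E p * H p - F p ^ 2 ≠ 0 := (hWpos p).ne'
  refine hg.congr ?_ ?_
  · rw [← hsq]
    unfold gf
    field_simp
  · rw [← hsq]
    unfold gf
    field_simp

/-- The curvature identity: the curl of the connection form is (minus) the Brioschi numerator times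
a positive density. -/
theorem curl_om (p : ℝ × ℝ) :
    dx (om2 E F H) p - dy (om1 E F H) p =
      - Brf E F H p * (gf E F H p / (E p * H p - F p ^ 2)) := by
  have hg := hasPD_gf hE hF hH hEpos hWpos p
  have hEp := hE.hasPD p
  have hFp := hF.hasPD p
  have hHp := hH.hasPD p
  have hEx := hE.dx.hasPD p
  have hEy := hE.dy.hasPD p
  have hFx := hF.dx.hasPD p
  have hHx := hH.dx.hasPD p
  have h2E : HasPD (fun q => 2 * E q) _ _ p := (hasPD_const 2 p).mul hEp
  have h2E0 : 2 * E p ≠ 0 := (mul_pos two_pos (hEpos p)).ne'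
  have hN2 : HasPD (fun q => E q * dx H q - F q * dy E q)
      (dx E p * dx H p + E p * dx (dx H) p - (dx F p * dy E p + F p * dx (dy E) p))
      (dy E p * dx H p + E p * dy (dx H) p - (dy F p * dy E p + F p * dy (dy E) p)) p :=
    (hEp.mul hHx).sub (hFp.mul hEy)
  have hN1 : HasPD (fun q => 2 * E q * dx F q - F q * dx E q - E q * dy E q)
      ((2 * dx E p * dx F p + 2 * E p * dx (dx F) p) - (dx F p * dx E p + F p * dx (dx E) p)
        - (dx E p * dy E p + E p * dx (dy E) p))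
      (2 * dy E p * dx F p + 2 * E p * dy (dx F) p - (dy F p * dx E p + F p * dy (dx E) p)
        - (dy E p * dy E p + E p * dy (dy E) p)) p :=
    (((h2E.mul hFx).congr (by ring) (by ring)).sub (hFp.mul hEx)).sub (hEp.mul hEy)
  have hO2 : HasPD (om2 E F H) _ _ p := (hN2.mul hg).div h2E h2E0
  have hO1 : HasPD (om1 E F H) _ _ p := (hN1.mul hg).div h2E h2E0
  rw [hO2.dx, hO1.dy]
  have e : dy (dx E) p = dx (dy E) p := (dx_dy_comm hE p).symm
  rw [e]
  unfold Brf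
  exact curl_alg _ _ _ _ _ _ _ _ _ _ _ _ _ _ (hEpos p).ne' (hWpos p).ne'

end

end Vale.Agent.P205
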