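import Vale.Agent.P205.Synth

/-!
# Fourier coefficients of smooth doubly periodic functions
-/

namespace Vale.Agent.P205

open UnitAddTorus MeasureTheory Set Filter Topology
open scoped ContDiff ComplexConjugate Real

noncomputable section

local instance : MeasureSpace UnitAddCircle := ⟨AddCircle.haarAddCircle⟩
local instance : Measure.IsAddHaarMeasure (volume : Measure UnitAddCircle) :=
  inferInstanceAs (Measure.IsAddHaarMeasure AddCircle.haarAddCircle)
local instance : IsProbabilityMeasure (volume : Measure UnitAddCircle) :=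
  inferInstanceAs (IsProbabilityMeasure AddCircle.haarAddCircle)

/-- The torus. -/
abbrev TT := UnitAddTorus (Fin 2)

/-- The projection from the plane to the torus. -/
def piT (t : Fin 2 → ℝ) : TT := fun i => ((t i : ℝ) : UnitAddCircle)

lemma piT_isOpenQuotient : IsOpenQuotientMap piT :=
  IsOpenQuotientMap.piMap (fun _ => QuotientAddGroup.isOpenQuotientMap_mk)

lemma piT_surj : Function.Surjective piT := piT_isOpenQuotient.surjective

lemma piT_add (s t : Fin 2 → ℝ) : piT (s + t) = piT s + piT t := by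
  funext i
  simp [piT]

lemma piT_eq_iff {s t : Fin 2 → ℝ} (h : piT s = piT t) : ∃ k : Fin 2 → ℤ, ∀ i, s i = t i + k i := by
  have h1 : ∀ i, ∃ k : ℤ, s i = t i + k := fun i => by
    have h2 : ((s i : ℝ) : UnitAddCircle) = ((t i : ℝ) : UnitAddCircle) := congrFun h i
    have h3 := (QuotientAddGroup.eq_iff_sub_mem (N := AddSubgroup.zmultiples (1:ℝ))).1 h2
    obtain ⟨k, hk⟩ := AddSubgroup.mem_zmultiples_iff.1 h3
    refine ⟨k, ?_⟩
    simp only [zsmul_eq_mul, mul_one] at hk
    linarith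
  choose k hk using h1
  exact ⟨k, hk⟩

namespace Lat
variable (L : Lat)

/-- Coordinates to points. -/
noncomputable def P (t : Fin 2 → ℝ) : ℝ × ℝ := t 0 • L.a + t 1 • L.b

/-- Points to coordinates. -/
noncomputable def T (p : ℝ × ℝ) : Fin 2 → ℝ :=
  ![(p.1 * L.b.2 - p.2 * L.b.1) / L.D, (-p.1 * L.a.2 + p.2 * L.a.1) / L.D]

lemma P_T (p : ℝ × ℝ) : L.P (L.T p) = p := by
  have h := L.D_ne
  have e : L.a.1 * L.b.2 - L.a.2 * L.b.1 = L.D := rfl
  unfold P T
  ext
  · simp only [Matrix.cons_val_zero, Matrix.cons_val_one, Prod.fst_add, Prod.smul_fst, smul_eq_mul]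
    field_simp
    linear_combination p.1 * e
  · simp only [Matrix.cons_val_zero, Matrix.cons_val_one, Prod.snd_add, Prod.smul_snd, smul_eq_mul]
    field_simp
    linear_combination p.2 * e

lemma T_a : L.T L.a = ![1, 0] := by
  have h := L.D_ne
  have e : L.a.1 * L.b.2 - L.a.2 * L.b.1 = L.D := rfl
  unfold T
  congr 1
  · rw [e]; exact div_self h
  · congr 1
    have : -L.a.1 * L.a.2 + L.a.2 * L.a.1 = 0 := by ring
    rw [this, zero_div]

lemma T_b : L.T L.b = ![0, 1] := by
  have h := L.D_ne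
  have e : L.a.1 * L.b.2 - L.a.2 * L.b.1 = L.D := rfl
  unfold T
  congr 1
  · have : L.b.1 * L.b.2 - L.b.2 * L.b.1 = 0 := by ring
    rw [this, zero_div]
  · congr 1
    have : -L.b.1 * L.a.2 + L.b.2 * L.a.1 = L.D := by rw [← e]; ring
    rw [this]; exact div_self h

lemma P_add (s t : Fin 2 → ℝ) : L.P (s + t) = L.P s + L.P t := by
  unfold P
  simp only [Pi.add_apply, add_smul]
  abel

lemma continuous_P : Continuous L.P := by
  unfold P
  fun_prop

/-- Periodicity. -/
structure Per {E : Type*} (L : Lat) (h : ℝ × ℝ → E) : Prop where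
  pa : ∀ p, h (p + L.a) = h p
  pb : ∀ p, h (p + L.b) = h p

variable {L}

lemma Per.int {E : Type*} {h : ℝ × ℝ → E} (hp : L.Per h) (k : Fin 2 → ℤ) (p : ℝ × ℝ) :
    h (p + ((k 0 : ℝ) • L.a + (k 1 : ℝ) • L.b)) = h p := by
  have h1 : Function.Periodic h ((k 0) • L.a) := Function.Periodic.zsmul hp.pa (k 0)
  have h2 : Function.Periodic h ((k 1) • L.b) := Function.Periodic.zsmul hp.pb (k 1)
  have e : p + ((k 0 : ℝ) • L.a + (k 1 : ℝ) • L.b) = p + (k 0) • L.a + (k 1) • L.b := by
    simp only [Int.cast_smul_eq_zsmul]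
    abel
  rw [e, h2, h1]

lemma Per.P_eq {E : Type*} {h : ℝ × ℝ → E} (hp : L.Per h) {s t : Fin 2 → ℝ} (hst : piT s = piT t) :
    h (L.P s) = h (L.P t) := by
  obtain ⟨k, hk⟩ := piT_eq_iff hst
  have e : L.P s = L.P t + ((k 0 : ℝ) • L.a + (k 1 : ℝ) • L.b) := by
    unfold P
    rw [hk 0, hk 1, add_smul, add_smul]
    abel
  rw [e, hp.int]

variable (L)

/-- Lift of a function to the torus. -/
noncomputable def lift (h : ℝ × ℝ → ℂ) (x : TT) : ℂ := h (L.P (Function.surjInv piT_surj x))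

variable {L}

lemma lift_piT {h : ℝ × ℝ → ℂ} (hp : L.Per h) (t : Fin 2 → ℝ) : L.lift h (piT t) = h (L.P t) :=
  hp.P_eq (Function.surjInv_eq piT_surj (piT t))

lemma continuous_lift {h : ℝ × ℝ → ℂ} (hc : Continuous h) (hp : L.Per h) :
    Continuous (L.lift h) := by
  rw [piT_isOpenQuotient.isQuotientMap.continuous_iff]
  have : L.lift h ∘ piT = h ∘ L.P := funext (lift_piT hp)
  rw [this]
  exact hc.comp L.continuous_P

lemma exists_bound {h : ℝ × ℝ → ℂ} (hc : Continuous h) (hp : L.Per h) :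
    ∃ M, ∀ p, ‖h p‖ ≤ M := by
  obtain ⟨M, hM⟩ := isCompact_univ.exists_bound_of_continuousOn
    (continuous_lift hc hp).continuousOn
  refine ⟨M, fun p => ?_⟩
  have h1 := hM (piT (L.T p)) (mem_univ _)
  rwa [lift_piT hp, L.P_T] at h1

variable (L)

/-- Fourier coefficients. -/
noncomputable def C (h : ℝ × ℝ → ℂ) (n : Fin 2 → ℤ) : ℂ := mFourierCoeff (L.lift h) n

variable {L}

lemma C_eq (h : ℝ × ℝ → ℂ) (n : Fin 2 → ℤ) :
    L.C h n = ∫ x, mFourier (-n) x • L.lift h x := rfl

lemma norm_mFourier_apply (n : Fin 2 → ℤ) (x : TT) : ‖mFourier n x‖ = 1 := by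
  simp only [mFourier, fourier_apply, ContinuousMap.coe_mk, norm_prod, Circle.norm_coe,
    Finset.prod_const_one]

lemma C_bound {h : ℝ × ℝ → ℂ} (hp : L.Per h) {M : ℝ} (hM : ∀ p, ‖h p‖ ≤ M) (n : Fin 2 → ℤ) :
    ‖L.C h n‖ ≤ M := by
  rw [C_eq]
  have h1 : ∀ x : TT, ‖mFourier (-n) x • L.lift h x‖ ≤ M := fun x => by
    obtain ⟨t, rfl⟩ := piT_surj x
    rw [norm_smul, norm_mFourier_apply, one_mul, lift_piT hp]
    exact hM _
  have h2 := norm_integral_le_of_norm_le_const (μ := (volume : Measure TT)) (Eventually.of_forall h1)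
  simpa using h2

lemma mFourier_add_pt (n : Fin 2 → ℤ) (x y : TT) :
    mFourier n (x + y) = mFourier n x * mFourier n y := by
  obtain ⟨s, rfl⟩ := piT_surj x
  obtain ⟨t, rfl⟩ := piT_surj y
  simp only [mFourier, ContinuousMap.coe_mk, Fin.prod_univ_two, piT, Pi.add_apply]
  rw [← QuotientAddGroup.mk_add, ← QuotientAddGroup.mk_add]
  simp only [fourier_coe_apply, ← Complex.exp_add]
  congr 1
  push_cast
  ring

lemma mFourier_piT (n : Fin 2 → ℤ) (t : Fin 2 → ℝ) :
    mFourier n (piT t) =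
      Complex.exp (2 * π * Complex.I * ((n 0 : ℝ) * t 0 + (n 1 : ℝ) * t 1 : ℝ)) := by
  simp only [mFourier, ContinuousMap.coe_mk, Fin.prod_univ_two, piT]
  simp only [fourier_coe_apply]
  rw [← Complex.exp_add]
  congr 1
  push_cast
  ring

lemma C_translate {h : ℝ × ℝ → ℂ} (hp : L.Per h) (r : Fin 2 → ℝ) (n : Fin 2 → ℤ) :
    L.C (fun p => h (p + L.P r)) n = mFourier n (piT r) * L.C h n := by
  have hp' : L.Per (fun p => h (p + L.P r)) := ⟨fun p => by
      have := hp.pa (p + L.P r)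
      show h (p + L.a + L.P r) = h (p + L.P r)
      rw [← this]; congr 1; abel,
    fun p => by
      have := hp.pb (p + L.P r)
      show h (p + L.b + L.P r) = h (p + L.P r)
      rw [← this]; congr 1; abel⟩
  have h1 : ∀ x : TT, L.lift (fun p => h (p + L.P r)) x = L.lift h (x + piT r) := fun x => by
    obtain ⟨t, rfl⟩ := piT_surj x
    rw [lift_piT hp', ← piT_add, lift_piT hp, L.P_add]
  rw [C_eq, C_eq]
  simp_rw [h1]
  have h2 := integral_add_right_eq_self (μ := (volume : Measure TT))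
    (fun y => mFourier (-n) (y - piT r) • L.lift h y) (piT r)
  simp only [add_sub_cancel_right] at h2
  rw [h2, ← integral_const_mul]
  refine integral_congr_ae (Eventually.of_forall fun y => ?_)
  simp only [smul_eq_mul]
  have h3 : mFourier (-n) (y - piT r) = mFourier (-n) y * mFourier n (piT r) := by
    rw [sub_eq_add_neg, mFourier_add_pt]
    congr 1
    have h4 : (-piT r) = piT (-r) := by
      funext i; simp [piT]
    rw [h4, mFourier_piT, mFourier_piT]
    congr 1
    push_cast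
    simp only [Pi.neg_apply, Int.cast_neg]
    push_cast
    ring
  rw [h3]
  ring


/-! ### Smooth periodic functions -/

/-- Smooth periodic functions. -/
structure SP (L : Lat) (h : ℝ × ℝ → ℂ) : Prop where
  smooth : ContDiff ℝ ∞ h
  per : L.Per h

/-- Directional derivative. -/
def dirD (v : ℝ × ℝ) (h : ℝ × ℝ → ℂ) (p : ℝ × ℝ) : ℂ := fderiv ℝ h p v

lemma SP.continuous {h : ℝ × ℝ → ℂ} (hs : SP L h) : Continuous h := hs.smooth.continuous

lemma SP.differentiable {h : ℝ × ℝ → ℂ} (hs : SP L h) : Differentiable ℝ h :=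
  hs.smooth.differentiable (by simp)

lemma SP.dir {h : ℝ × ℝ → ℂ} (hs : SP L h) (v : ℝ × ℝ) : SP L (dirD v h) where
  smooth := (hs.smooth.fderiv_right (m := ∞) (by simp)).clm_apply contDiff_const
  per := ⟨fun p => by
      have h1 : fderiv ℝ (fun q => h (q + L.a)) p = fderiv ℝ h (p + L.a) :=
        fderiv_comp_add_right L.a
      have h2 : (fun q => h (q + L.a)) = h := funext hs.per.pa
      rw [h2] at h1
      unfold dirD
      rw [h1],
    fun p => by
      have h1 : fderiv ℝ (fun q => h (q + L.b)) p = fderiv ℝ h (p + L.b) :=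
        fderiv_comp_add_right L.b
      have h2 : (fun q => h (q + L.b)) = h := funext hs.per.pb
      rw [h2] at h1
      unfold dirD
      rw [h1]⟩

lemma Per.translate {h : ℝ × ℝ → ℂ} (hp : L.Per h) (w : ℝ × ℝ) : L.Per (fun p => h (p + w)) :=
  ⟨fun p => by
      have := hp.pa (p + w)
      show h (p + L.a + w) = h (p + w)
      rw [← this]; congr 1; abel,
    fun p => by
      have := hp.pb (p + w)
      show h (p + L.b + w) = h (p + w)
      rw [← this]; congr 1; abel⟩

lemma P_smul_T (s : ℝ) (v : ℝ × ℝ) : L.P (s • L.T v) = s • v := by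
  have h := L.P_T v
  unfold P at h ⊢
  simp only [Pi.smul_apply, smul_assoc]
  rw [← smul_add, h]

/-- The basic relation between Fourier coefficients of a derivative and of the function. -/
theorem C_dir {h : ℝ × ℝ → ℂ} (hs : SP L h) (v : ℝ × ℝ) (n : Fin 2 → ℤ) :
    L.C (dirD v h) n =
      2 * π * Complex.I * (((n 0 : ℝ) * L.T v 0 + (n 1 : ℝ) * L.T v 1 : ℝ) : ℂ) * L.C h n := by
  obtain ⟨M, hM⟩ := exists_bound (hs.dir v).continuous (hs.dir v).per
  set F : ℝ → TT → ℂ := fun s x => mFourier (-n) x • L.lift (fun p => h (p + s • v)) x with hF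
  set F' : ℝ → TT → ℂ := fun s x => mFourier (-n) x • L.lift (fun p => dirD v h (p + s • v)) x
    with hF'
  have hcont : ∀ s, Continuous (F s) := fun s => by
    have h1 : Continuous (fun p => h (p + s • v)) :=
      hs.continuous.comp (continuous_id.add continuous_const)
    exact (map_continuous (mFourier (-n))).smul (continuous_lift h1 (hs.per.translate _))
  have hcont' : ∀ s, Continuous (F' s) := fun s => by
    have h1 : Continuous (fun p => dirD v h (p + s • v)) :=
      (hs.dir v).continuous.comp (continuous_id.add continuous_const)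
    exact (map_continuous (mFourier (-n))).smul (continuous_lift h1 ((hs.dir v).per.translate _))
  have hFb : ∀ s x, ‖F' s x‖ ≤ M := fun s x => by
    obtain ⟨t, rfl⟩ := piT_surj x
    simp only [hF']
    rw [norm_smul, norm_mFourier_apply, one_mul, lift_piT ((hs.dir v).per.translate _)]
    exact hM _
  obtain ⟨M0, hM0⟩ := exists_bound hs.continuous hs.per
  have hFb0 : ∀ x, ‖F 0 x‖ ≤ M0 := fun x => by
    obtain ⟨t, rfl⟩ := piT_surj x
    simp only [hF]
    rw [norm_smul, norm_mFourier_apply, one_mul, lift_piT (hs.per.translate _)]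
    exact hM0 _
  have hder : ∀ x s, HasDerivAt (fun s => F s x) (F' s x) s := fun x s => by
    obtain ⟨t, rfl⟩ := piT_surj x
    simp only [hF, hF']
    have e1 : ∀ s : ℝ, L.lift (fun p => h (p + s • v)) (piT t) = h (L.P t + s • v) := fun s =>
      lift_piT (hs.per.translate _) t
    simp_rw [e1]
    rw [lift_piT ((hs.dir v).per.translate _)]
    have h1 : HasDerivAt (fun s : ℝ => L.P t + s • v) v s := by
      have := ((hasDerivAt_id s).smul_const v).const_add (L.P t)
      simpa using this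
    have h2 : HasDerivAt (fun s : ℝ => h (L.P t + s • v)) (dirD v h (L.P t + s • v)) s :=
      (hs.differentiable _).hasFDerivAt.comp_hasDerivAt s h1
    exact h2.const_smul (mFourier (-n) (piT t))
  have hmain := hasDerivAt_integral_of_dominated_loc_of_deriv_le (μ := (volume : Measure TT))
    (F := F) (F' := F') (x₀ := (0:ℝ)) (s := univ) (bound := fun _ => M) univ_mem
    (Eventually.of_forall fun s => (hcont s).aestronglyMeasurable)
    (Integrable.of_bound (hcont 0).aestronglyMeasurable M0 (Eventually.of_forall hFb0))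
    (hcont' 0).aestronglyMeasurable
    (Eventually.of_forall fun x s _ => hFb s x) (integrable_const M)
    (Eventually.of_forall fun x s _ => hder x s)
  have hI : ∀ s, ∫ x, F s x = mFourier n (piT (s • L.T v)) * L.C h n := fun s => by
    have := C_translate hs.per (s • L.T v) n
    rw [P_smul_T] at this
    exact this
  have hI0 : ∫ x, F' 0 x = L.C (dirD v h) n := by
    rw [C_eq]
    simp only [hF', zero_smul, add_zero]
  have h2 : HasDerivAt (fun s : ℝ => mFourier n (piT (s • L.T v)) * L.C h n)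
      (2 * π * Complex.I * (((n 0 : ℝ) * L.T v 0 + (n 1 : ℝ) * L.T v 1 : ℝ) : ℂ) * L.C h n) 0 := by
    have e : ∀ s : ℝ, mFourier n (piT (s • L.T v)) =
        Complex.exp (((s : ℂ)) * (2 * π * Complex.I *
          (((n 0 : ℝ) * L.T v 0 + (n 1 : ℝ) * L.T v 1 : ℝ) : ℂ))) := fun s => by
      rw [mFourier_piT]
      congr 1
      simp only [Pi.smul_apply, smul_eq_mul]
      push_cast
      ring
    simp_rw [e]
    have h3 : HasDerivAt (fun s : ℝ => ((s : ℂ)) * (2 * π * Complex.I *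
          (((n 0 : ℝ) * L.T v 0 + (n 1 : ℝ) * L.T v 1 : ℝ) : ℂ)))
        (2 * π * Complex.I * (((n 0 : ℝ) * L.T v 0 + (n 1 : ℝ) * L.T v 1 : ℝ) : ℂ)) 0 := by
      have := (Complex.ofRealCLM.hasDerivAt (x := (0:ℝ))).mul_const
        (2 * π * Complex.I * (((n 0 : ℝ) * L.T v 0 + (n 1 : ℝ) * L.T v 1 : ℝ) : ℂ))
      simpa using this
    have h4 := (h3.cexp).mul_const (L.C h n)
    simpa using h4
  have h5 := hmain.2
  simp_rw [hI] at h5
  rw [hI0] at h5
  exact h5.unique h2

lemma C_dir_a {h : ℝ × ℝ → ℂ} (hs : SP L h) (n : Fin 2 → ℤ) :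
    L.C (dirD L.a h) n = 2 * π * Complex.I * (n 0 : ℝ) * L.C h n := by
  rw [C_dir hs, L.T_a]
  simp

lemma C_dir_b {h : ℝ × ℝ → ℂ} (hs : SP L h) (n : Fin 2 → ℤ) :
    L.C (dirD L.b h) n = 2 * π * Complex.I * (n 1 : ℝ) * L.C h n := by
  rw [C_dir hs, L.T_b]
  simp

lemma rapid_bound (k : ℕ) : ∀ {h : ℝ × ℝ → ℂ}, SP L h →
    ∃ M, ∀ n : Fin 2 → ℤ, ‖L.C h n‖ * (1 + |(n 0 : ℝ)| + |(n 1 : ℝ)|) ^ k ≤ M := by
  induction k with
  | zero =>
    intro h hs
    obtain ⟨M, hM⟩ := exists_bound hs.continuous hs.per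
    exact ⟨M, fun n => by simpa using C_bound hs.per hM n⟩
  | succ k ih =>
    intro h hs
    obtain ⟨M0, hM0⟩ := ih hs
    obtain ⟨M1, hM1⟩ := ih (hs.dir L.a)
    obtain ⟨M2, hM2⟩ := ih (hs.dir L.b)
    refine ⟨M0 + M1 + M2, fun n => ?_⟩
    have hp : (0:ℝ) ≤ (1 + |(n 0 : ℝ)| + |(n 1 : ℝ)|) ^ k := by positivity
    have hpi : (1:ℝ) ≤ 2 * π := by linarith [Real.pi_gt_three]
    have h1 : |(n 0 : ℝ)| * ‖L.C h n‖ ≤ ‖L.C (dirD L.a h) n‖ := by
      rw [C_dir_a hs]
      have e : ‖2 * (π : ℂ) * Complex.I * ((n 0 : ℝ) : ℂ) * L.C h n‖ =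
          (2 * π) * (|(n 0 : ℝ)| * ‖L.C h n‖) := by
        simp [abs_of_pos Real.pi_pos, mul_assoc]
      rw [e]
      have h3 := norm_nonneg (L.C h n)
      have h4 := abs_nonneg (n 0 : ℝ)
      exact le_mul_of_one_le_left (mul_nonneg h4 h3) hpi
    have h2 : |(n 1 : ℝ)| * ‖L.C h n‖ ≤ ‖L.C (dirD L.b h) n‖ := by
      rw [C_dir_b hs]
      have e : ‖2 * (π : ℂ) * Complex.I * ((n 1 : ℝ) : ℂ) * L.C h n‖ =
          (2 * π) * (|(n 1 : ℝ)| * ‖L.C h n‖) := by
        simp [abs_of_pos Real.pi_pos, mul_assoc]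
      rw [e]
      have h3 := norm_nonneg (L.C h n)
      have h4 := abs_nonneg (n 1 : ℝ)
      exact le_mul_of_one_le_left (mul_nonneg h4 h3) hpi
    have h5 := hM0 n
    have h6 := hM1 n
    have h7 := hM2 n
    have h8 := mul_le_mul_of_nonneg_right h1 hp
    have h9 := mul_le_mul_of_nonneg_right h2 hp
    rw [pow_succ]
    nlinarith

/-- Conversion of indices. -/
def toF (n : Z2) : Fin 2 → ℤ := ![n.1, n.2]

lemma toF_eq (n : Z2) : toF n = (finTwoArrowEquiv ℤ).symm n := rfl

lemma summable_inv_sq : Summable (fun k : ℤ => 1 / (1 + |(k : ℝ)|) ^ 2) := by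
  have h0 : Summable (fun n : ℕ => 1 / ((n : ℝ) + 1) ^ 2) := by
    have h1 : Summable (fun n : ℕ => 1 / ((n : ℝ)) ^ 2) := Real.summable_one_div_nat_pow.2 (by norm_num)
    have h2 := (summable_nat_add_iff 1).2 h1
    simpa using h2
  apply Summable.of_nat_of_neg
  · refine h0.congr (fun n => ?_)
    simp [add_comm]
  · refine h0.congr (fun n => ?_)
    simp [add_comm]

/-- Rapid decay in terms of `Z2`. -/
theorem rapid_C {h : ℝ × ℝ → ℂ} (hs : SP L h) : Rapid (fun n : Z2 => L.C h (toF n)) := fun k => by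
  obtain ⟨M, hM⟩ := rapid_bound (k + 4) hs
  have hM0 : 0 ≤ M := le_trans (by positivity) (hM 0)
  have hsum : Summable (fun q : ℤ × ℤ => (1 / (1 + |(q.1 : ℝ)|) ^ 2) * (1 / (1 + |(q.2 : ℝ)|) ^ 2)) :=
    summable_inv_sq.mul_of_nonneg summable_inv_sq (fun _ => by positivity) (fun _ => by positivity)
  refine Summable.of_nonneg_of_le (fun n => mul_nonneg (norm_nonneg _)
    (pow_nonneg (by linarith [nrm_nonneg n]) _)) (fun n => ?_) (hsum.mul_left M)
  have h1 := hM (toF n)
  have e0 : toF n 0 = n.1 := rfl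
  have e1 : toF n 1 = n.2 := rfl
  rw [e0, e1] at h1
  set A := |(n.1 : ℝ)| with hA
  set B := |(n.2 : ℝ)| with hB
  have hAn : 0 ≤ A := abs_nonneg _
  have hBn : 0 ≤ B := abs_nonneg _
  have hnrm : nrm n = A + B := rfl
  rw [hnrm]
  have h2 : ((1 + A) * (1 + B)) ^ 2 ≤ (1 + (A + B)) ^ 4 := by
    have h3 : (1 + A) * (1 + B) ≤ (1 + (A + B)) ^ 2 := by nlinarith [mul_nonneg hAn hBn]
    calc ((1 + A) * (1 + B)) ^ 2 ≤ ((1 + (A + B)) ^ 2) ^ 2 := pow_le_pow_left₀ (by positivity) h3 2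
      _ = _ := by ring
  have hc := norm_nonneg (L.C h (toF n))
  have hp : 0 ≤ (1 + (A + B)) ^ k := by positivity
  have h4 : ‖L.C h (toF n)‖ * (1 + (A + B)) ^ k * ((1 + A) * (1 + B)) ^ 2 ≤ M := by
    refine le_trans ?_ h1
    have e : (1 + A + B) = 1 + (A + B) := by ring
    rw [e, pow_add, ← mul_assoc]
    exact mul_le_mul_of_nonneg_left h2 (mul_nonneg hc hp)
  have hpos : 0 < ((1 + A) * (1 + B)) ^ 2 := by positivity
  have e2 : M * (1 / (1 + A) ^ 2 * (1 / (1 + B) ^ 2)) = M / ((1 + A) * (1 + B)) ^ 2 := by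
    field_simp
  show _ ≤ M * (1 / (1 + A) ^ 2 * (1 / (1 + B) ^ 2))
  rw [e2, le_div_iff₀ hpos]
  exact h4

lemma ph_eq (n : Z2) (p : ℝ × ℝ) :
    L.ph n p = 2 * π * ((n.1 : ℝ) * L.T p 0 + (n.2 : ℝ) * L.T p 1) := by
  conv_lhs => rw [← L.P_T p]
  unfold Lat.ph
  have h1 := L.ph_a n
  have h2 := L.ph_b n
  simp only [P, Prod.fst_add, Prod.snd_add, Prod.smul_fst, Prod.smul_snd, smul_eq_mul]
  linear_combination (L.T p 0) * h1 + (L.T p 1) * h2

/-- Fourier inversion. -/
theorem hasSum_C {h : ℝ × ℝ → ℂ} (hs : SP L h) (p : ℝ × ℝ) :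
    HasSum (fun n : Z2 => L.C h (toF n) * L.ee n p) (h p) := by
  set f : C(TT, ℂ) := ⟨L.lift h, continuous_lift hs.continuous hs.per⟩ with hf
  have hS : Summable (fun n : Z2 => L.C h (toF n)) :=
    Summable.of_norm (summable_norm_of_rapid (rapid_C hs))
  have hS' : Summable (mFourierCoeff f) :=
    ((finTwoArrowEquiv ℤ).symm.summable_iff (f := mFourierCoeff f)).1 hS
  have h1 := hasSum_mFourier_series_apply_of_summable hS' (piT (L.T p))
  have h2 : f (piT (L.T p)) = h p := by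
    show L.lift h (piT (L.T p)) = h p
    rw [lift_piT hs.per, L.P_T]
  rw [h2] at h1
  have h3 := ((finTwoArrowEquiv ℤ).symm.hasSum_iff).2 h1
  refine h3.congr_fun ?_ |> id
  intro n
  show L.C h (toF n) * L.ee n p = mFourierCoeff f (toF n) • mFourier (toF n) (piT (L.T p))
  rw [smul_eq_mul]
  congr 1
  rw [mFourier_piT]
  unfold Lat.ee
  rw [ph_eq]
  congr 1
  simp only [toF]
  push_cast
  ring

lemma C_conj {u : ℝ × ℝ → ℝ} (n : Fin 2 → ℤ) :
    L.C (fun p => (u p : ℂ)) (-n) = conj (L.C (fun p => (u p : ℂ)) n) := by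
  rw [C_eq, C_eq, ← integral_conj]
  refine integral_congr_ae (Eventually.of_forall fun x => ?_)
  show mFourier (-(-n)) x • L.lift _ x = conj (mFourier (-n) x • L.lift _ x)
  have h1 : conj (L.lift (fun p => (u p : ℂ)) x) = L.lift (fun p => (u p : ℂ)) x :=
    Complex.conj_ofReal _
  rw [smul_eq_mul, smul_eq_mul, map_mul, ← mFourier_neg, h1]


lemma SP.ofReal {u : ℝ × ℝ → ℝ} (hu : ContDiff ℝ ∞ u) (hp : L.Per u) :
    SP L (fun p => (u p : ℂ)) where
  smooth := Complex.ofRealCLM.contDiff.comp hu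
  per := ⟨fun p => by simp only [hp.pa], fun p => by simp only [hp.pb]⟩

/-- Real smooth periodic functions have rapidly decaying Hermitian Fourier series. -/
theorem fourier_of_smooth {u : ℝ × ℝ → ℝ} (hu : ContDiff ℝ ∞ u) (hp : L.Per u) :
    ∃ c : Z2 → ℂ, Rapid c ∧ (∀ n, c (-n) = conj (c n)) ∧
      ∀ p, ((u p : ℝ) : ℂ) = L.synth c p := by
  have hs := SP.ofReal hu hp
  refine ⟨fun n => L.C (fun p => (u p : ℂ)) (toF n), rapid_C hs, fun n => ?_, fun p => ?_⟩
  · have e : toF (-n) = - toF n := by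
      funext i
      fin_cases i <;> rfl
    show L.C (fun p => (u p : ℂ)) (toF (-n)) = _
    rw [e]
    exact C_conj _
  · exact (hasSum_C hs p).tsum_eq.symm

lemma dirD_ofReal {u : ℝ × ℝ → ℝ} (hu : ContDiff ℝ ∞ u) (v p : ℝ × ℝ) :
    dirD v (fun p => (u p : ℂ)) p = ((fderiv ℝ u p v : ℝ) : ℂ) := by
  have h1 : HasFDerivAt u (fderiv ℝ u p) p :=
    ((hu.differentiable (by simp)) p).hasFDerivAt
  have h2 : HasFDerivAt (fun p => (u p : ℂ)) (Complex.ofRealCLM.comp (fderiv ℝ u p)) p :=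
    Complex.ofRealCLM.hasFDerivAt.comp p h1
  unfold dirD
  rw [h2.fderiv]
  rfl

lemma C_dir_zero {h : ℝ × ℝ → ℂ} (hs : SP L h) (v : ℝ × ℝ) : L.C (dirD v h) 0 = 0 := by
  rw [C_dir hs]
  simp

/-- The integral of a curl over a period parallelogram vanishes: if a curl of a periodic `1`-form
equals `m ρ` with `ρ > 0` periodic, then `m = 0`. -/
theorem mean_zero_curl {f g ρ : ℝ × ℝ → ℝ} (hf : ContDiff ℝ ∞ f) (hfp : L.Per f)
    (hg : ContDiff ℝ ∞ g) (hgp : L.Per g) (hρ : Continuous ρ) (hρp : L.Per ρ)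
    (hpos : ∀ p, 0 < ρ p) {m : ℝ}
    (h : ∀ p, fderiv ℝ g p (1, 0) - fderiv ℝ f p (0, 1) = m * ρ p) : m = 0 := by
  have hF := SP.ofReal hf hfp
  have hG := SP.ofReal hg hgp
  have hR : L.Per (fun p => (ρ p : ℂ)) :=
    ⟨fun p => by simp only [hρp.pa], fun p => by simp only [hρp.pb]⟩
  have hRc : Continuous (fun p => (ρ p : ℂ)) := Complex.continuous_ofReal.comp hρ
  have h1 := C_dir_zero hG (1, 0)
  have h2 := C_dir_zero hF (0, 1)
  set A := dirD (1, 0) (fun p => (g p : ℂ)) with hA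
  set B := dirD (0, 1) (fun p => (f p : ℂ)) with hB
  have hAs := hG.dir (1, 0)
  have hBs := hF.dir (0, 1)
  have hAc := continuous_lift hAs.continuous hAs.per
  have hBc := continuous_lift hBs.continuous hBs.per
  have hRl := continuous_lift hRc hR
  have e0 : (mFourier (-(0 : Fin 2 → ℤ)) : C(TT, ℂ)) = 1 := by
    rw [neg_zero, mFourier_zero]
  have hC : ∀ k : ℝ × ℝ → ℂ, L.C k 0 = ∫ x, L.lift k x := fun k => by
    rw [C_eq, e0]
    simp
  rw [hC] at h1 h2
  have h3 : (∫ x, L.lift A x) - (∫ x, L.lift B x) = ∫ x, (m : ℂ) * L.lift (fun p => (ρ p : ℂ)) x := by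
    have hAi : Integrable (L.lift A) (volume : Measure TT) := hAc.integrable_of_hasCompactSupport
      (HasCompactSupport.of_compactSpace _)
    have hBi : Integrable (L.lift B) (volume : Measure TT) := hBc.integrable_of_hasCompactSupport
      (HasCompactSupport.of_compactSpace _)
    rw [← integral_sub hAi hBi]
    refine integral_congr_ae (Eventually.of_forall fun x => ?_)
    show L.lift A x - L.lift B x = (m : ℂ) * L.lift (fun p => (ρ p : ℂ)) x
    unfold Lat.lift
    rw [hA, hB, dirD_ofReal hg, dirD_ofReal hf, ← Complex.ofReal_sub, h]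
    push_cast
    rfl
  rw [h1, h2, integral_const_mul, sub_zero] at h3
  -- positivity
  set ρt : TT → ℝ := fun x => ρ (L.P (Function.surjInv piT_surj x)) with hρt
  have hl : ∀ x, L.lift (fun p => (ρ p : ℂ)) x = (ρt x : ℂ) := fun _ => rfl
  have hρtc : Continuous ρt := by
    have : ρt = fun x => (L.lift (fun p => (ρ p : ℂ)) x).re := by
      funext x; rw [hl]; simp
    rw [this]
    exact Complex.continuous_re.comp hRl
  have hi : ∫ x, L.lift (fun p => (ρ p : ℂ)) x = ((∫ x, ρt x : ℝ) : ℂ) := by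
    simp_rw [hl]
    exact integral_ofReal
  have hp : 0 < ∫ x, ρt x := by
    refine hρtc.integral_pos_of_hasCompactSupport_nonneg_nonzero
      (HasCompactSupport.of_compactSpace _) (fun x => (hpos _).le) (x := 0) (hpos _).ne'
  rw [hi] at h3
  have h4 : ((m * ∫ x, ρt x : ℝ) : ℂ) = 0 := by
    push_cast
    exact h3.symm
  have h5 : m * ∫ x, ρt x = 0 := by exact_mod_cast h4
  rcases mul_eq_zero.1 h5 with h6 | h6
  · exact h6
  · exact absurd h6 hp.ne'

end Lat

end

end Vale.Agent.P205
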