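import Vale.Agent.P205.Curl
import Vale.Agent.P205.FourierData

/-!
# Developing a flat metric on the plane with periodic coefficients
-/

namespace Vale.Agent.P205

open scoped ContDiff

set_option linter.unusedSectionVars false

section shift
variable {f : ℝ × ℝ → ℝ} {l : ℝ × ℝ}

lemma dx_shift (h : ∀ p, f (p + l) = f p) (p : ℝ × ℝ) : dx f (p + l) = dx f p := by
  have h1 : fderiv ℝ (fun q => f (q + l)) p = fderiv ℝ f (p + l) := fderiv_comp_add_right l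
  have h2 : (fun q => f (q + l)) = f := funext h
  rw [h2] at h1
  unfold dx
  rw [h1]

lemma dy_shift (h : ∀ p, f (p + l) = f p) (p : ℝ × ℝ) : dy f (p + l) = dy f p := by
  have h1 : fderiv ℝ (fun q => f (q + l)) p = fderiv ℝ f (p + l) := fderiv_comp_add_right l
  have h2 : (fun q => f (q + l)) = f := funext h
  rw [h2] at h1
  unfold dy
  rw [h1]

lemma HasPD.shift {a b : ℝ} {p : ℝ × ℝ} (h : HasPD f a b (p + l)) :
    HasPD (fun q => f (q + l)) a b p := by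
  unfold HasPD at *
  have h1 : HasFDerivAt (fun q : ℝ × ℝ => q + l) (ContinuousLinearMap.id ℝ (ℝ × ℝ)) p :=
    (hasFDerivAt_id p).add_const l
  have h2 : HasFDerivAt (fun q => f (q + l))
      ((a • fstR + b • sndR).comp (ContinuousLinearMap.id ℝ (ℝ × ℝ))) p := HasFDerivAt.comp p h h1
  rwa [ContinuousLinearMap.comp_id] at h2

end shift

/-- Two functions on the plane with the same derivative differ by a constant. -/
lemma eq_of_same_pd {f g A B : ℝ × ℝ → ℝ} (hf : ∀ p, HasPD f (A p) (B p) p)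
    (hg : ∀ p, HasPD g (A p) (B p) p) (p q : ℝ × ℝ) : f p - g p = f q - g q := by
  have h : ∀ x, HasFDerivAt (fun z => f z - g z) (0 : ℝ × ℝ →L[ℝ] ℝ) x := fun x => by
    have h1 := ((hf x).sub (hg x))
    unfold HasPD at h1
    simpa using h1
  exact is_const_of_fderiv_eq_zero (fun x => (h x).differentiableAt) (fun x => (h x).fderiv) p q

section
variable (E F H θ : ℝ × ℝ → ℝ)

/-- `√E` -/
noncomputable def Pf (p : ℝ × ℝ) : ℝ := Real.sqrt (E p)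

/-- The coframe. -/
noncomputable def A1 (p : ℝ × ℝ) : ℝ := Real.cos (θ p) * Pf E p
/-- The coframe. -/
noncomputable def B1 (p : ℝ × ℝ) : ℝ :=
  Real.cos (θ p) * (F p / Pf E p) - Real.sin (θ p) * (Rf E F H p / Pf E p)
/-- The coframe. -/
noncomputable def A2 (p : ℝ × ℝ) : ℝ := Real.sin (θ p) * Pf E p
/-- The coframe. -/
noncomputable def B2 (p : ℝ × ℝ) : ℝ :=
  Real.sin (θ p) * (F p / Pf E p) + Real.cos (θ p) * (Rf E F H p / Pf E p)

end


section main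
variable {E F H θ : ℝ × ℝ → ℝ} (hE : Sm E) (hF : Sm F) (hH : Sm H)
  (hEpos : ∀ p, 0 < E p) (hWpos : ∀ p, 0 < E p * H p - F p ^ 2)
include hE hF hH hEpos hWpos

lemma Sm_Pf : Sm (Pf E) := hE.sqrt (fun p => (hEpos p).ne')

lemma Pf_pos (p : ℝ × ℝ) : 0 < Pf E p := Real.sqrt_pos.2 (hEpos p)

lemma Pf_sq (p : ℝ × ℝ) : Pf E p ^ 2 = E p := Real.sq_sqrt (hEpos p).le

lemma hasPD_Pf (p : ℝ × ℝ) :
    HasPD (Pf E) (dx E p / (2 * Pf E p)) (dy E p / (2 * Pf E p)) p :=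
  (hE.hasPD p).sqrt (hEpos p)

lemma hasPD_Rf (p : ℝ × ℝ) :
    HasPD (Rf E F H) ((dx E p * H p + E p * dx H p - 2 * F p * dx F p) / (2 * Rf E F H p))
      ((dy E p * H p + E p * dy H p - 2 * F p * dy F p) / (2 * Rf E F H p)) p :=
  (hasPD_Wf hE hF hH hEpos hWpos p).sqrt (hWpos p)

lemma H_eq (p : ℝ × ℝ) : H p = (Rf E F H p ^ 2 + F p ^ 2) / Pf E p ^ 2 := by
  have h1 := Rf_sq hE hF hH hEpos hWpos p
  have h2 := Pf_sq hE hF hH hEpos hWpos p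
  have h3 := Pf_pos hE hF hH hEpos hWpos p
  rw [h1, h2]
  have := hEpos p
  field_simp
  ring

lemma Sm_A1 (hθ : Sm θ) : Sm (A1 E θ) := hθ.cos.mul (Sm_Pf hE hF hH hEpos hWpos)
lemma Sm_A2 (hθ : Sm θ) : Sm (A2 E θ) := hθ.sin.mul (Sm_Pf hE hF hH hEpos hWpos)

lemma Sm_FP : Sm (fun p => F p / Pf E p) :=
  hF.div (Sm_Pf hE hF hH hEpos hWpos) (fun p => (Pf_pos hE hF hH hEpos hWpos p).ne')
lemma Sm_RP : Sm (fun p => Rf E F H p / Pf E p) :=
  (Sm_Rf hE hF hH hEpos hWpos).div (Sm_Pf hE hF hH hEpos hWpos)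
    (fun p => (Pf_pos hE hF hH hEpos hWpos p).ne')

lemma Sm_B1 (hθ : Sm θ) : Sm (B1 E F H θ) :=
  (hθ.cos.mul (Sm_FP hE hF hH hEpos hWpos)).sub (hθ.sin.mul (Sm_RP hE hF hH hEpos hWpos))
lemma Sm_B2 (hθ : Sm θ) : Sm (B2 E F H θ) :=
  (hθ.sin.mul (Sm_FP hE hF hH hEpos hWpos)).add (hθ.cos.mul (Sm_RP hE hF hH hEpos hWpos))

lemma closed1 (dθ : ∀ p, HasPD θ (om1 E F H p) (om2 E F H p) p) (p : ℝ × ℝ) :
    dy (A1 E θ) p = dx (B1 E F H θ) p := by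
  have hc := (dθ p).cos
  have hs := (dθ p).sin
  have hP := hasPD_Pf hE hF hH hEpos hWpos p
  have hR := hasPD_Rf hE hF hH hEpos hWpos p
  have hFp := hF.hasPD p
  have hP0 := Pf_pos hE hF hH hEpos hWpos p
  have hR0 := Rf_pos hE hF hH hEpos hWpos p
  have hA : HasPD (A1 E θ) _ _ p := hc.mul hP
  have hB : HasPD (B1 E F H θ) _ _ p :=
    (hc.mul (hFp.div hP hP0.ne')).sub (hs.mul (hR.div hP hP0.ne'))
  rw [hA.dy, hB.dx]
  have hEP := (Pf_sq hE hF hH hEpos hWpos p).symm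
  have hHP := H_eq hE hF hH hEpos hWpos p
  simp only [om1, om2, gf]
  generalize Pf E p = P at *
  generalize Rf E F H p = R at *
  rw [hEP, hHP]
  have h1 : P ≠ 0 := hP0.ne'
  have h2 : R ≠ 0 := hR0.ne'
  field_simp
  ring

lemma closed2 (dθ : ∀ p, HasPD θ (om1 E F H p) (om2 E F H p) p) (p : ℝ × ℝ) :
    dy (A2 E θ) p = dx (B2 E F H θ) p := by
  have hc := (dθ p).cos
  have hs := (dθ p).sin
  have hP := hasPD_Pf hE hF hH hEpos hWpos p
  have hR := hasPD_Rf hE hF hH hEpos hWpos p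
  have hFp := hF.hasPD p
  have hP0 := Pf_pos hE hF hH hEpos hWpos p
  have hR0 := Rf_pos hE hF hH hEpos hWpos p
  have hA : HasPD (A2 E θ) _ _ p := hs.mul hP
  have hB : HasPD (B2 E F H θ) _ _ p :=
    (hs.mul (hFp.div hP hP0.ne')).add (hc.mul (hR.div hP hP0.ne'))
  rw [hA.dy, hB.dx]
  have hEP := (Pf_sq hE hF hH hEpos hWpos p).symm
  have hHP := H_eq hE hF hH hEpos hWpos p
  simp only [om1, om2, gf]
  generalize Pf E p = P at *
  generalize Rf E F H p = R at *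
  rw [hEP, hHP]
  have h1 : P ≠ 0 := hP0.ne'
  have h2 : R ≠ 0 := hR0.ne'
  field_simp
  ring

/-- The coframe realizes the metric. -/
lemma metric_A (p : ℝ × ℝ) : A1 E θ p ^ 2 + A2 E θ p ^ 2 = E p := by
  have hEP := (Pf_sq hE hF hH hEpos hWpos p)
  unfold A1 A2
  have h := Real.sin_sq_add_cos_sq (θ p)
  rw [← hEP]
  linear_combination (Pf E p ^ 2) * h

lemma metric_AB (p : ℝ × ℝ) : A1 E θ p * B1 E F H θ p + A2 E θ p * B2 E F H θ p = F p := by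
  have hP0 := Pf_pos hE hF hH hEpos hWpos p
  unfold A1 A2 B1 B2
  have h := Real.sin_sq_add_cos_sq (θ p)
  have h1 : Pf E p ≠ 0 := hP0.ne'
  field_simp
  linear_combination (F p) * h

lemma metric_B (p : ℝ × ℝ) : B1 E F H θ p ^ 2 + B2 E F H θ p ^ 2 = H p := by
  have hP0 := Pf_pos hE hF hH hEpos hWpos p
  have hHP := H_eq hE hF hH hEpos hWpos p
  unfold B1 B2
  have h := Real.sin_sq_add_cos_sq (θ p)
  have h1 : Pf E p ≠ 0 := hP0.ne'
  rw [hHP]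
  field_simp
  linear_combination (F p ^ 2 + Rf E F H p ^ 2) * h

lemma coframe_det (p : ℝ × ℝ) :
    A1 E θ p * B2 E F H θ p - A2 E θ p * B1 E F H θ p = Rf E F H p := by
  have hP0 := Pf_pos hE hF hH hEpos hWpos p
  unfold A1 A2 B1 B2
  have h := Real.sin_sq_add_cos_sq (θ p)
  have h1 : Pf E p ≠ 0 := hP0.ne'
  field_simp
  linear_combination (Rf E F H p) * h

end main

/-- Developing data. -/
structure Dev (E F H θ Ψ₁ Ψ₂ : ℝ × ℝ → ℝ) : Prop where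
  sθ : Sm θ
  s1 : Sm Ψ₁
  s2 : Sm Ψ₂
  θ0 : θ 0 = 0
  z1 : Ψ₁ 0 = 0
  z2 : Ψ₂ 0 = 0
  dθ : ∀ p, HasPD θ (om1 E F H p) (om2 E F H p) p
  d1 : ∀ p, HasPD Ψ₁ (A1 E θ p) (B1 E F H θ p) p
  d2 : ∀ p, HasPD Ψ₂ (A2 E θ p) (B2 E F H θ p) p

/-- Local development exists as soon as the metric is flat (`curl = 0`). -/
theorem exists_dev {E F H : ℝ × ℝ → ℝ} (hE : Sm E) (hF : Sm F) (hH : Sm H)
    (hEpos : ∀ p, 0 < E p) (hWpos : ∀ p, 0 < E p * H p - F p ^ 2)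
    (hflat : ∀ p, Brf E F H p = 0) : ∃ θ Ψ₁ Ψ₂, Dev E F H θ Ψ₁ Ψ₂ := by
  have hc : ∀ p, dy (om1 E F H) p = dx (om2 E F H) p := fun p => by
    have h := curl_om hE hF hH hEpos hWpos p
    rw [hflat p] at h
    simp only [neg_zero, zero_mul] at h
    linarith
  obtain ⟨θ, hθ, hθ0, dθ⟩ := exists_primitive (Sm_om1 hE hF hH hEpos hWpos)
    (Sm_om2 hE hF hH hEpos hWpos) hc
  obtain ⟨Ψ₁, h1, h10, d1⟩ := exists_primitive (Sm_A1 hE hF hH hEpos hWpos hθ)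
    (Sm_B1 hE hF hH hEpos hWpos hθ) (closed1 hE hF hH hEpos hWpos dθ)
  obtain ⟨Ψ₂, h2, h20, d2⟩ := exists_primitive (Sm_A2 hE hF hH hEpos hWpos hθ)
    (Sm_B2 hE hF hH hEpos hWpos hθ) (closed2 hE hF hH hEpos hWpos dθ)
  exact ⟨θ, Ψ₁, Ψ₂, hθ, h1, h2, hθ0, h10, h20, dθ, d1, d2⟩

end Vale.Agent.P205
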