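import Vale.Agent.P205.Param

/-!
# Continuous dependence of the development on the parameter
-/

namespace Vale.Agent.P205

open scoped ContDiff
open Alg

set_option linter.unusedSectionVars false

/-- The fundamental theorem of calculus along rays. -/
lemma ftc_pd {f A B : ℝ × ℝ → ℝ} (hf : ∀ p, HasPD f (A p) (B p) p) (hA : Continuous A)
    (hB : Continuous B) (q : ℝ × ℝ) :
    f q - f 0 = ∫ t in (0:ℝ)..1, A (t • q) * q.1 + B (t • q) * q.2 := by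
  have hder : ∀ t ∈ Set.uIcc (0:ℝ) 1, HasDerivAt (fun t : ℝ => f (t • q))
      (A (t • q) * q.1 + B (t • q) * q.2) t := fun t _ => by
    have h1 : HasDerivAt (fun t : ℝ => t • q) q t := by
      simpa using (hasDerivAt_id t).smul_const q
    have h0 : HasFDerivAt f (A (t • q) • fstR + B (t • q) • sndR) (t • q) := hf (t • q)
    have h2 := h0.comp_hasDerivAt t h1
    have h3 : (A (t • q) • fstR + B (t • q) • sndR) q = A (t • q) * q.1 + B (t • q) * q.2 := by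
      simp [fstR, sndR]
    rw [h3] at h2
    exact h2
  have hint : IntervalIntegrable (fun t : ℝ => A (t • q) * q.1 + B (t • q) * q.2)
      MeasureTheory.volume 0 1 := by
    apply Continuous.intervalIntegrable
    have h1 : Continuous (fun t : ℝ => t • q) := continuous_id.smul continuous_const
    exact ((hA.comp h1).mul continuous_const).add ((hB.comp h1).mul continuous_const)
  have := intervalIntegral.integral_eq_sub_of_hasDerivAt hder hint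
  simp only [one_smul, zero_smul] at this
  exact this.symm

/-- Slices of a jointly continuous function. -/
lemma slice_cont {G : ℝ × (ℝ × ℝ) → ℝ} (hG : Continuous G) (x : ℝ) :
    Continuous (fun p : ℝ × ℝ => G (x, p)) :=
  hG.comp (continuous_const.prodMk continuous_id)

namespace Lat

variable {L : Lat} {W : Wt} {U : UData W}

/-- A continuous family of solutions. -/
structure FamHyp (L : Lat) (U : UData W) (Y : ℝ → Herm W) (eps : ℝ → ℝ) : Prop where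
  cY : Continuous Y
  ceps : Continuous eps
  hG : ∀ x, L.Gmap U (eps x ^ 2) (Y x) = 0
  hphi : ∀ x p, 0 < L.phi (Y x) p
  hlt : ∀ x p, L.T1 U (eps x) (Y x) p ^ 2 + L.T2 U (eps x) (Y x) p ^ 2 < L.phi (Y x) p ^ 2

variable {Y : ℝ → Herm W} {eps : ℝ → ℝ} (hW : Dom W) (hU : UJets L U) (hF : FamHyp L U Y eps)
include hW hF

/-- The metric coefficient `E`. -/
noncomputable abbrev EF (L : Lat) (U : UData W) (Y : ℝ → Herm W) (eps : ℝ → ℝ) (x : ℝ) :
    ℝ × ℝ → ℝ := GE (L.phi (Y x)) (L.T1 U (eps x) (Y x))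
/-- The metric coefficient `F`. -/
noncomputable abbrev FF (L : Lat) (U : UData W) (Y : ℝ → Herm W) (eps : ℝ → ℝ) (x : ℝ) :
    ℝ × ℝ → ℝ := GF (L.T1 U (eps x) (Y x)) (L.T2 U (eps x) (Y x))
/-- The metric coefficient `H`. -/
noncomputable abbrev HF (L : Lat) (U : UData W) (Y : ℝ → Herm W) (eps : ℝ → ℝ) (x : ℝ) :
    ℝ × ℝ → ℝ := GH (L.phi (Y x)) (L.T2 U (eps x) (Y x))

lemma c_sr_mtp (M : Mtp) : Continuous (fun q : ℝ × (ℝ × ℝ) => L.sr (mtp M (Y q.1)) q.2) :=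
  continuous_sr_family hW ((mtp M).continuous.comp hF.cY)

lemma c_sr_const (x : Herm W) : Continuous (fun q : ℝ × (ℝ × ℝ) => L.sr x q.2) :=
  (contDiff_sr hW x).continuous.comp continuous_snd

lemma c_phi : Continuous (fun q : ℝ × (ℝ × ℝ) => L.phi (Y q.1) q.2) :=
  continuous_const.add (c_sr_mtp hW hF _)

lemma c_eps : Continuous (fun q : ℝ × (ℝ × ℝ) => eps q.1) := hF.ceps.comp continuous_fst

lemma c_phi_ne (q : ℝ × (ℝ × ℝ)) : L.phi (Y q.1) q.2 ≠ 0 := (hF.hphi q.1 q.2).ne'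

lemma c_T1 : Continuous (fun q : ℝ × (ℝ × ℝ) => L.T1 U (eps q.1) (Y q.1) q.2) :=
  (c_eps hW hF).mul ((c_sr_const hW hF _).sub ((c_sr_mtp hW hF _).div (c_phi hW hF) (c_phi_ne hW hF)))

lemma c_T2 : Continuous (fun q : ℝ × (ℝ × ℝ) => L.T2 U (eps q.1) (Y q.1) q.2) :=
  (c_eps hW hF).mul ((c_sr_const hW hF _).sub ((c_sr_mtp hW hF _).div (c_phi hW hF) (c_phi_ne hW hF)))

lemma c_phi2_ne (q : ℝ × (ℝ × ℝ)) : L.phi (Y q.1) q.2 ^ 2 ≠ 0 := pow_ne_zero 2 (c_phi_ne hW hF q)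

lemma c_T11 : Continuous (fun q : ℝ × (ℝ × ℝ) => L.T11 U (eps q.1) (Y q.1) q.2) :=
  (c_eps hW hF).mul (((c_sr_const hW hF _).sub ((c_sr_mtp hW hF _).div (c_phi hW hF)
    (c_phi_ne hW hF))).add (((c_sr_mtp hW hF _).pow 2).div ((c_phi hW hF).pow 2) (c_phi2_ne hW hF)))

lemma c_T12 : Continuous (fun q : ℝ × (ℝ × ℝ) => L.T12 U (eps q.1) (Y q.1) q.2) :=
  (c_eps hW hF).mul (((c_sr_const hW hF _).sub ((c_sr_mtp hW hF _).div (c_phi hW hF)
    (c_phi_ne hW hF))).add (((c_sr_mtp hW hF _).mul (c_sr_mtp hW hF _)).div ((c_phi hW hF).pow 2)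
    (c_phi2_ne hW hF)))

lemma c_T22 : Continuous (fun q : ℝ × (ℝ × ℝ) => L.T22 U (eps q.1) (Y q.1) q.2) :=
  (c_eps hW hF).mul (((c_sr_const hW hF _).sub ((c_sr_mtp hW hF _).div (c_phi hW hF)
    (c_phi_ne hW hF))).add (((c_sr_mtp hW hF _).pow 2).div ((c_phi hW hF).pow 2) (c_phi2_ne hW hF)))

lemma c_E : Continuous (fun q : ℝ × (ℝ × ℝ) => EF L U Y eps q.1 q.2) :=
  ((c_phi hW hF).pow 2).sub ((c_T1 hW hF).pow 2)

lemma c_Fm : Continuous (fun q : ℝ × (ℝ × ℝ) => FF L U Y eps q.1 q.2) :=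
  ((c_T1 hW hF).mul (c_T2 hW hF)).neg

lemma c_H : Continuous (fun q : ℝ × (ℝ × ℝ) => HF L U Y eps q.1 q.2) :=
  ((c_phi hW hF).pow 2).sub ((c_T2 hW hF).pow 2)

lemma E_pos (x : ℝ) (p : ℝ × ℝ) : 0 < EF L U Y eps x p := GE_pos (hF.hlt x p)

lemma W_pos (x : ℝ) (p : ℝ × ℝ) :
    0 < EF L U Y eps x p * HF L U Y eps x p - FF L U Y eps x p ^ 2 :=
  W_G_pos (hF.hphi x p) (hF.hlt x p)

lemma c_gf : Continuous (fun q : ℝ × (ℝ × ℝ) =>
    gf (EF L U Y eps q.1) (FF L U Y eps q.1) (HF L U Y eps q.1) q.2) := by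
  have h1 : Continuous (fun q : ℝ × (ℝ × ℝ) =>
      Wf (EF L U Y eps q.1) (FF L U Y eps q.1) (HF L U Y eps q.1) q.2) :=
    ((c_E hW hF).mul (c_H hW hF)).sub ((c_Fm hW hF).pow 2)
  have h2 : Continuous (fun q : ℝ × (ℝ × ℝ) =>
      Rf (EF L U Y eps q.1) (FF L U Y eps q.1) (HF L U Y eps q.1) q.2) := h1.sqrt
  exact h2.inv₀ (fun q => (Real.sqrt_pos.2 (W_pos hW hF q.1 q.2)).ne')

lemma c_Rf : Continuous (fun q : ℝ × (ℝ × ℝ) =>
    Rf (EF L U Y eps q.1) (FF L U Y eps q.1) (HF L U Y eps q.1) q.2) := by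
  have h1 : Continuous (fun q : ℝ × (ℝ × ℝ) =>
      Wf (EF L U Y eps q.1) (FF L U Y eps q.1) (HF L U Y eps q.1) q.2) :=
    ((c_E hW hF).mul (c_H hW hF)).sub ((c_Fm hW hF).pow 2)
  exact h1.sqrt

lemma c_Pf : Continuous (fun q : ℝ × (ℝ × ℝ) => Pf (EF L U Y eps q.1) q.2) :=
  (c_E hW hF).sqrt

lemma Pf_ne (q : ℝ × (ℝ × ℝ)) : Pf (EF L U Y eps q.1) q.2 ≠ 0 :=
  (Real.sqrt_pos.2 (E_pos hW hF q.1 q.2)).ne'

include hU

lemma sym_fam (x : ℝ) (p : ℝ × ℝ) :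
    dy (L.T1 U (eps x) (Y x)) p = dx (L.T2 U (eps x) (Y x)) p := by
  rw [(hasPD_T1 hW hU (hF.hphi x) _ p).dy, (hasPD_T2 hW hU (hF.hphi x) _ p).dx]

/-- Explicit form of `dx F`. -/
lemma dx_FF (x : ℝ) (p : ℝ × ℝ) : dx (FF L U Y eps x) p =
    -(L.T11 U (eps x) (Y x) p * L.T2 U (eps x) (Y x) p
      + L.T1 U (eps x) (Y x) p * L.T12 U (eps x) (Y x) p) := by
  have h := (hasPD_GF (Sm_phi (L := L) hW (Y x)) (Sm_T1 hW (hF.hphi x) (eps x))
    (Sm_T2 hW (hF.hphi x) (eps x)) (sym_fam hW hU hF x) p).dx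
  rw [h, (hasPD_T1 hW hU (hF.hphi x) _ p).dx, (hasPD_T1 hW hU (hF.hphi x) _ p).dy]

lemma dx_EF (x : ℝ) (p : ℝ × ℝ) : dx (EF L U Y eps x) p =
    2 * L.phi (Y x) p * L.sr (mtp L.m1 (Y x)) p
      - 2 * L.T1 U (eps x) (Y x) p * L.T11 U (eps x) (Y x) p := by
  have h := (hasPD_GE (Sm_phi (L := L) hW (Y x)) (Sm_T1 hW (hF.hphi x) (eps x))
    (Sm_T2 hW (hF.hphi x) (eps x)) (sym_fam hW hU hF x) p).dx
  rw [h, (hasPD_T1 hW hU (hF.hphi x) _ p).dx, (hasPD_phi (L := L) hW (Y x) p).dx]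

lemma dy_EF (x : ℝ) (p : ℝ × ℝ) : dy (EF L U Y eps x) p =
    2 * L.phi (Y x) p * L.sr (mtp L.m2 (Y x)) p
      - 2 * L.T1 U (eps x) (Y x) p * L.T12 U (eps x) (Y x) p := by
  have h := (hasPD_GE (Sm_phi (L := L) hW (Y x)) (Sm_T1 hW (hF.hphi x) (eps x))
    (Sm_T2 hW (hF.hphi x) (eps x)) (sym_fam hW hU hF x) p).dy
  rw [h, (hasPD_T1 hW hU (hF.hphi x) _ p).dy, (hasPD_phi (L := L) hW (Y x) p).dy]

lemma dx_HF (x : ℝ) (p : ℝ × ℝ) : dx (HF L U Y eps x) p =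
    2 * L.phi (Y x) p * L.sr (mtp L.m1 (Y x)) p
      - 2 * L.T2 U (eps x) (Y x) p * L.T12 U (eps x) (Y x) p := by
  have h := (hasPD_GH (Sm_phi (L := L) hW (Y x)) (Sm_T1 hW (hF.hphi x) (eps x))
    (Sm_T2 hW (hF.hphi x) (eps x)) (sym_fam hW hU hF x) p).dx
  rw [h, (hasPD_T1 hW hU (hF.hphi x) _ p).dy, (hasPD_phi (L := L) hW (Y x) p).dx]

lemma c_dx_FF : Continuous (fun q : ℝ × (ℝ × ℝ) => dx (FF L U Y eps q.1) q.2) := by
  simp_rw [dx_FF hW hU hF]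
  exact (((c_T11 hW hF).mul (c_T2 hW hF)).add ((c_T1 hW hF).mul (c_T12 hW hF))).neg

lemma c_dx_EF : Continuous (fun q : ℝ × (ℝ × ℝ) => dx (EF L U Y eps q.1) q.2) := by
  simp_rw [dx_EF hW hU hF]
  exact ((continuous_const.mul (c_phi hW hF)).mul (c_sr_mtp hW hF _)).sub
    ((continuous_const.mul (c_T1 hW hF)).mul (c_T11 hW hF))

lemma c_dy_EF : Continuous (fun q : ℝ × (ℝ × ℝ) => dy (EF L U Y eps q.1) q.2) := by
  simp_rw [dy_EF hW hU hF]
  exact ((continuous_const.mul (c_phi hW hF)).mul (c_sr_mtp hW hF _)).sub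
    ((continuous_const.mul (c_T1 hW hF)).mul (c_T12 hW hF))

lemma c_dx_HF : Continuous (fun q : ℝ × (ℝ × ℝ) => dx (HF L U Y eps q.1) q.2) := by
  simp_rw [dx_HF hW hU hF]
  exact ((continuous_const.mul (c_phi hW hF)).mul (c_sr_mtp hW hF _)).sub
    ((continuous_const.mul (c_T2 hW hF)).mul (c_T12 hW hF))

lemma c_om1 : Continuous (fun q : ℝ × (ℝ × ℝ) =>
    om1 (EF L U Y eps q.1) (FF L U Y eps q.1) (HF L U Y eps q.1) q.2) := by
  unfold om1
  refine Continuous.div ?_ (continuous_const.mul (c_E hW hF)) (fun q =>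
    (mul_pos two_pos (E_pos hW hF q.1 q.2)).ne')
  exact (((continuous_const.mul (c_E hW hF)).mul (c_dx_FF hW hU hF)).sub
    ((c_Fm hW hF).mul (c_dx_EF hW hU hF)) |>.sub ((c_E hW hF).mul (c_dy_EF hW hU hF))).mul
      (c_gf hW hF)

lemma c_om2 : Continuous (fun q : ℝ × (ℝ × ℝ) =>
    om2 (EF L U Y eps q.1) (FF L U Y eps q.1) (HF L U Y eps q.1) q.2) := by
  unfold om2
  refine Continuous.div ?_ (continuous_const.mul (c_E hW hF)) (fun q =>
    (mul_pos two_pos (E_pos hW hF q.1 q.2)).ne')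
  exact (((c_E hW hF).mul (c_dx_HF hW hU hF)).sub ((c_Fm hW hF).mul (c_dy_EF hW hU hF))).mul
    (c_gf hW hF)

/-- Fixing the parameter in the connection forms preserves continuity in the point. -/
lemma c_om1_slice (x : ℝ) : Continuous (om1 (EF L U Y eps x) (FF L U Y eps x) (HF L U Y eps x)) :=
  slice_cont (c_om1 hW hU hF) x

lemma c_om2_slice (x : ℝ) : Continuous (om2 (EF L U Y eps x) (FF L U Y eps x) (HF L U Y eps x)) :=
  slice_cont (c_om2 hW hU hF) x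

variable {θ Ψ₁ Ψ₂ : ℝ → ℝ × ℝ → ℝ}
  (hD : ∀ x, Dev (EF L U Y eps x) (FF L U Y eps x) (HF L U Y eps x) (θ x) (Ψ₁ x) (Ψ₂ x))
include hD

/-- Joint continuity of the angle. -/
lemma c_theta : Continuous (fun q : ℝ × (ℝ × ℝ) => θ q.1 q.2) := by
  have e : (fun q : ℝ × (ℝ × ℝ) => θ q.1 q.2) = fun q : ℝ × (ℝ × ℝ) =>
      ∫ t in (0:ℝ)..1,
        om1 (EF L U Y eps q.1) (FF L U Y eps q.1) (HF L U Y eps q.1) (t • q.2) * q.2.1 +
        om2 (EF L U Y eps q.1) (FF L U Y eps q.1) (HF L U Y eps q.1) (t • q.2) * q.2.2 := by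
    funext q
    have h := ftc_pd (hD q.1).dθ (c_om1_slice hW hU hF q.1) (c_om2_slice hW hU hF q.1) q.2
    rw [(hD q.1).θ0, sub_zero] at h
    exact h
  rw [e]
  refine intervalIntegral.continuous_parametric_intervalIntegral_of_continuous' ?_ 0 1
  have h1 : Continuous (fun z : (ℝ × (ℝ × ℝ)) × ℝ => ((z.1.1, z.2 • z.1.2) : ℝ × (ℝ × ℝ))) :=
    (continuous_fst.comp continuous_fst).prodMk (continuous_snd.smul (continuous_snd.comp continuous_fst))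
  have h2 := (c_om1 hW hU hF).comp h1
  have h3 := (c_om2 hW hU hF).comp h1
  have h4 : Continuous (fun z : (ℝ × (ℝ × ℝ)) × ℝ => z.1.2.1) :=
    continuous_fst.comp (continuous_snd.comp continuous_fst)
  have h5 : Continuous (fun z : (ℝ × (ℝ × ℝ)) × ℝ => z.1.2.2) :=
    continuous_snd.comp (continuous_snd.comp continuous_fst)
  exact (h2.mul h4).add (h3.mul h5)

lemma c_A1 : Continuous (fun q : ℝ × (ℝ × ℝ) => A1 (EF L U Y eps q.1) (θ q.1) q.2) :=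
  (Real.continuous_cos.comp (c_theta hW hU hF hD)).mul (c_Pf hW hF)

lemma c_A2 : Continuous (fun q : ℝ × (ℝ × ℝ) => A2 (EF L U Y eps q.1) (θ q.1) q.2) :=
  (Real.continuous_sin.comp (c_theta hW hU hF hD)).mul (c_Pf hW hF)

lemma c_B1 : Continuous (fun q : ℝ × (ℝ × ℝ) =>
    B1 (EF L U Y eps q.1) (FF L U Y eps q.1) (HF L U Y eps q.1) (θ q.1) q.2) :=
  ((Real.continuous_cos.comp (c_theta hW hU hF hD)).mul ((c_Fm hW hF).div (c_Pf hW hF) (Pf_ne hW hF))).sub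
    ((Real.continuous_sin.comp (c_theta hW hU hF hD)).mul ((c_Rf hW hF).div (c_Pf hW hF) (Pf_ne hW hF)))

lemma c_B2 : Continuous (fun q : ℝ × (ℝ × ℝ) =>
    B2 (EF L U Y eps q.1) (FF L U Y eps q.1) (HF L U Y eps q.1) (θ q.1) q.2) :=
  ((Real.continuous_sin.comp (c_theta hW hU hF hD)).mul ((c_Fm hW hF).div (c_Pf hW hF) (Pf_ne hW hF))).add
    ((Real.continuous_cos.comp (c_theta hW hU hF hD)).mul ((c_Rf hW hF).div (c_Pf hW hF) (Pf_ne hW hF)))

/-- Continuity of a ray integral in the parameter. -/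
lemma c_ray {A B : ℝ × (ℝ × ℝ) → ℝ} (hA : Continuous A) (hB : Continuous B) (l : ℝ × ℝ) :
    Continuous (fun x : ℝ => ∫ t in (0:ℝ)..1, A (x, t • l) * l.1 + B (x, t • l) * l.2) := by
  refine intervalIntegral.continuous_parametric_intervalIntegral_of_continuous' ?_ 0 1
  have h1 : Continuous (fun z : ℝ × ℝ => ((z.1, z.2 • l) : ℝ × (ℝ × ℝ))) :=
    continuous_fst.prodMk (continuous_snd.smul continuous_const)
  exact ((hA.comp h1).mul continuous_const).add ((hB.comp h1).mul continuous_const)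

/-- The period vectors depend continuously on the parameter. -/
theorem c_period1 (l : ℝ × ℝ) : Continuous (fun x : ℝ => Ψ₁ x l) := by
  have e : (fun x : ℝ => Ψ₁ x l) = fun x : ℝ => ∫ t in (0:ℝ)..1,
      A1 (EF L U Y eps x) (θ x) (t • l) * l.1 +
      B1 (EF L U Y eps x) (FF L U Y eps x) (HF L U Y eps x) (θ x) (t • l) * l.2 := by
    funext x
    have h := ftc_pd (hD x).d1 (slice_cont (c_A1 hW hU hF hD) x) (slice_cont (c_B1 hW hU hF hD) x) l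
    rw [(hD x).z1, sub_zero] at h
    exact h
  rw [e]
  exact c_ray hW hU hF hD (c_A1 hW hU hF hD) (c_B1 hW hU hF hD) l

theorem c_period2 (l : ℝ × ℝ) : Continuous (fun x : ℝ => Ψ₂ x l) := by
  have e : (fun x : ℝ => Ψ₂ x l) = fun x : ℝ => ∫ t in (0:ℝ)..1,
      A2 (EF L U Y eps x) (θ x) (t • l) * l.1 +
      B2 (EF L U Y eps x) (FF L U Y eps x) (HF L U Y eps x) (θ x) (t • l) * l.2 := by
    funext x
    have h := ftc_pd (hD x).d2 (slice_cont (c_A2 hW hU hF hD) x) (slice_cont (c_B2 hW hU hF hD) x) l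
    rw [(hD x).z2, sub_zero] at h
    exact h
  rw [e]
  exact c_ray hW hU hF hD (c_A2 hW hU hF hD) (c_B2 hW hU hF hD) l

end Lat

end Vale.Agent.P205
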