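import Vale.Agent.P205.ConeCompose

/-!
# All conformally flat metrics on a two-torus
-/

namespace Vale.Agent.P205

open scoped ContDiff
open Alg Real

set_option linter.unusedSectionVars false

namespace Lat

/-- The family of solutions of the equation. -/
theorem exists_family (L : Lat) {u : ℝ × ℝ → ℝ} (hu : Sm u) (hp : L.Per u) :
    ∃ (W : Wt) (U : UData W), Dom W ∧ UJets L U ∧ (∀ p, HasPD u (L.sr U.U1 p) (L.sr U.U2 p) p) ∧
      ∃ ε₁ : ℝ, 0 < ε₁ ∧ ∃ (Y : ℝ → Herm W) (eps : ℝ → ℝ), FamHyp L U Y eps ∧ Y 0 = 0 ∧ eps 0 = 0 ∧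
        ∀ x ∈ Set.Icc 0 ε₁, eps x = x := by
  obtain ⟨uh, hr, hh, hs⟩ := Lat.fourier_of_smooth (L := L) hu hp
  set a : Z2 → ℝ := fun n => ‖uh n‖ * (1 + nrm n) ^ 2 with ha
  have ha0 : ∀ n, 0 ≤ a n := fun n => mul_nonneg (norm_nonneg _)
    (pow_nonneg (by linarith [nrm_nonneg n]) _)
  have had : ∀ k : ℕ, Summable (fun n => a n * (1 + nrm n) ^ k) := fun k => by
    refine (hr (k + 2)).congr (fun n => ?_)
    simp only [ha]
    ring
  obtain ⟨W, hWs, hDom⟩ := exists_weight a ha0 had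
  have hDom' : Dom W := hDom
  set U : UData W := mkU (L := L) hh hWs with hUd
  have hU : UJets L U := ⟨hasPD_U1 hDom' hh hWs, hasPD_U2 hDom' hh hWs⟩
  have hue : u = ru L uh := by
    funext p
    unfold ru
    rw [← hs p]
    simp
  have hu1 : ∀ p, HasPD u (L.sr U.U1 p) (L.sr U.U2 p) p := fun p => by
    rw [hue]
    exact hasPD_ru hDom' hh hWs hr p
  refine ⟨W, U, hDom', hU, hu1, ?_⟩
  obtain ⟨r, hr0, y, hy0, hyc, hyG⟩ := L.solve U
  have hB := L.one_le_B0
  have hB0 : 0 < L.B0 := by linarith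
  have hcont : ContinuousAt y 0 :=
    hyc.continuousAt (Ioo_mem_nhds (by linarith) hr0)
  obtain ⟨δ, hδ, hδy⟩ := Metric.continuousAt_iff.1 hcont (1 / (2 * L.B0)) (by positivity)
  have hsmall : ∀ s, |s| < δ → L.B0 * ‖y s‖ ≤ 1 / 2 := fun s hs' => by
    have h1 := hδy (x := s) (by simpa [Real.dist_eq] using hs')
    rw [hy0, dist_zero_right] at h1
    have h2 : L.B0 * ‖y s‖ < L.B0 * (1 / (2 * L.B0)) := mul_lt_mul_of_pos_left h1 hB0
    have h3 : L.B0 * (1 / (2 * L.B0)) = 1 / 2 := by field_simp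
    linarith
  set K := (‖U.U1‖ + 1) ^ 2 + (‖U.U2‖ + 1) ^ 2 with hK
  have hK0 : 0 < K := by positivity
  set ε₁ := min 1 (min r (min δ (1 / (8 * K)))) / 2 with hε₁
  have hm0 : 0 < min 1 (min r (min δ (1 / (8 * K)))) := by
    refine lt_min one_pos (lt_min hr0 (lt_min hδ (by positivity)))
  have hε0 : 0 < ε₁ := by positivity
  have hm1 : min 1 (min r (min δ (1 / (8 * K)))) ≤ 1 := min_le_left _ _
  have hm2 : min 1 (min r (min δ (1 / (8 * K)))) ≤ r :=
    le_trans (min_le_right _ _) (min_le_left _ _)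
  have hm3 : min 1 (min r (min δ (1 / (8 * K)))) ≤ δ :=
    le_trans (min_le_right _ _) (le_trans (min_le_right _ _) (min_le_left _ _))
  have hm4 : min 1 (min r (min δ (1 / (8 * K)))) ≤ 1 / (8 * K) :=
    le_trans (min_le_right _ _) (le_trans (min_le_right _ _) (min_le_right _ _))
  have hε1 : ε₁ ≤ 1 / 2 := by rw [hε₁]; linarith
  have hεr : ε₁ < r := by rw [hε₁]; linarith
  have hεδ : ε₁ < δ := by rw [hε₁]; linarith
  have hεK : ε₁ * K ≤ 1 / 16 := by
    have h1 : ε₁ ≤ 1 / (8 * K) / 2 := by rw [hε₁]; linarith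
    have h2 : 1 / (8 * K) / 2 * K = 1 / 16 := by field_simp; norm_num
    calc ε₁ * K ≤ 1 / (8 * K) / 2 * K := mul_le_mul_of_nonneg_right h1 hK0.le
      _ = 1 / 16 := h2
  set κ : ℝ → ℝ := fun x => max 0 (min x ε₁) with hκ
  have hκc : Continuous κ := continuous_const.max (continuous_id.min continuous_const)
  have hκ0 : ∀ x, 0 ≤ κ x := fun x => le_max_left _ _
  have hκ1 : ∀ x, κ x ≤ ε₁ := fun x => max_le hε0.le (min_le_right _ _)
  have hκs : ∀ x, κ x ^ 2 ≤ ε₁ := fun x => by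
    have := hκ0 x
    have := hκ1 x
    nlinarith
  have hmem : ∀ x, κ x ^ 2 ∈ Set.Ioo (-r) r := fun x => by
    have h1 := hκs x
    have h2 : 0 ≤ κ x ^ 2 := sq_nonneg _
    exact ⟨by linarith, by linarith⟩
  have hsm : ∀ x, L.B0 * ‖y (κ x ^ 2)‖ ≤ 1 / 2 := fun x => by
    apply hsmall
    have h1 := hκs x
    have h2 : 0 ≤ κ x ^ 2 := sq_nonneg _
    rw [abs_of_nonneg h2]
    linarith
  refine ⟨ε₁, hε0, fun x => y (κ x ^ 2), κ, ?_, ?_, ?_, ?_⟩
  · refine ⟨?_, hκc, fun x => hyG _ (hmem x), fun x p => ?_, fun x p => ?_⟩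
    · exact hyc.comp_continuous (hκc.pow 2) hmem
    · have := phi_lower (L := L) (y := y (κ x ^ 2)) (hsm x) p
      linarith
    · refine hlt_of_small (hsm x) (hsm x) (hsm x) ?_ p
      have h1 := hκs x
      have h2 : κ x ^ 2 * K ≤ ε₁ * K := mul_le_mul_of_nonneg_right h1 hK0.le
      linarith
  · have : κ 0 = 0 := by
      simp only [hκ]
      rw [min_eq_left hε0.le, max_self]
    simp only [this]
    simpa using hy0
  · simp only [hκ]
    rw [min_eq_left hε0.le, max_self]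
  · intro x hx
    simp only [hκ]
    rw [min_eq_left hx.2, max_eq_right hx.1]

end Lat

/-- Choice of the parameter closing up the torus. -/
theorem exists_good_param {b11 b12 b21 b22 : ℝ → ℝ} (c11 : Continuous b11) (c12 : Continuous b12)
    (c21 : Continuous b21) (c22 : Continuous b22) (hD : 0 < b11 0 * b22 0 - b12 0 * b21 0)
    {l ε₁ : ℝ} (hl : 0 < l) (hε : 0 < ε₁) :
    ∃ x ∈ Set.Ioc 0 ε₁, ∃ k : ℕ, 1 ≤ k ∧
      Real.sqrt (b11 x ^ 2 + b12 x ^ 2) = 2 * π * k * x ∧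
      l ≤ (b11 x * b22 x - b12 x * b21 x) / (Real.sqrt (b11 x ^ 2 + b12 x ^ 2) * x) := by
  have hpi := Real.pi_pos
  set n : ℝ → ℝ := fun x => Real.sqrt (b11 x ^ 2 + b12 x ^ 2) with hn
  set d : ℝ → ℝ := fun x => b11 x * b22 x - b12 x * b21 x with hd
  have cn : Continuous n := ((c11.pow 2).add (c12.pow 2)).sqrt
  have cd : Continuous d := (c11.mul c22).sub (c12.mul c21)
  have hne : b11 0 ^ 2 + b12 0 ^ 2 ≠ 0 := by
    intro h
    have h1 : b11 0 = 0 := by nlinarith [sq_nonneg (b11 0), sq_nonneg (b12 0)]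
    have h2 : b12 0 = 0 := by nlinarith [sq_nonneg (b11 0), sq_nonneg (b12 0)]
    rw [h1, h2] at hD
    simp at hD
  have hn0 : 0 < n 0 := Real.sqrt_pos.2 (lt_of_le_of_ne (by positivity) (Ne.symm hne))
  set ρ := d 0 / n 0 with hρ
  have hρ0 : 0 < ρ := div_pos hD hn0
  -- continuity of the ratio near zero
  have hct : ContinuousAt (fun x => d x / n x) 0 := cd.continuousAt.div cn.continuousAt hn0.ne'
  have h1 : ∀ᶠ x in nhds (0:ℝ), ρ / 2 < d x / n x :=
    hct.eventually (lt_mem_nhds (by linarith))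
  have h2 : ∀ᶠ x in nhds (0:ℝ), 0 < n x := cn.continuousAt.eventually (lt_mem_nhds hn0)
  obtain ⟨δ, hδ, hδb⟩ := Metric.eventually_nhds_iff.1 (h1.and h2)
  set x₁ := min ε₁ (min (δ / 2) (ρ / (2 * l))) with hx₁
  have hx₁0 : 0 < x₁ := lt_min hε (lt_min (by positivity) (by positivity))
  have hx₁ε : x₁ ≤ ε₁ := min_le_left _ _
  have hx₁δ : x₁ ≤ δ / 2 := le_trans (min_le_right _ _) (min_le_left _ _)
  have hx₁l : x₁ ≤ ρ / (2 * l) := le_trans (min_le_right _ _) (min_le_right _ _)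
  have hgood : ∀ x ∈ Set.Icc 0 x₁, ρ / 2 < d x / n x ∧ 0 < n x := fun x hx => by
    apply hδb
    rw [Real.dist_eq, sub_zero, abs_of_nonneg hx.1]
    linarith [hx.2]
  obtain ⟨k, hk⟩ := exists_nat_gt (n x₁ / (2 * π * x₁))
  have hnx₁ := (hgood x₁ ⟨hx₁0.le, le_rfl⟩).2
  have hk' : n x₁ < 2 * π * k * x₁ := by
    rw [div_lt_iff₀ (by positivity)] at hk
    linarith
  have hk1 : 1 ≤ k := by
    by_contra hcon
    have : k = 0 := by omega
    subst this
    simp at hk'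
    linarith
  have hcont : ContinuousOn (fun x => n x - 2 * π * k * x) (Set.Icc 0 x₁) :=
    (cn.sub (continuous_const.mul continuous_id)).continuousOn
  have hivt := intermediate_value_Icc' hx₁0.le hcont
  have hzero : (0:ℝ) ∈ Set.Icc ((fun x => n x - 2 * π * k * x) x₁)
      ((fun x => n x - 2 * π * k * x) 0) := by
    constructor
    · simp only; linarith
    · simp only [mul_zero, sub_zero]; exact hn0.le
  obtain ⟨x, hx, hxz⟩ := hivt hzero
  simp only at hxz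
  have hx0 : x ≠ 0 := by
    rintro rfl
    simp at hxz
    linarith
  have hxpos : 0 < x := lt_of_le_of_ne hx.1 (Ne.symm hx0)
  refine ⟨x, ⟨hxpos, le_trans hx.2 hx₁ε⟩, k, hk1, by linarith, ?_⟩
  have hg := hgood x hx
  have hxl : x ≤ ρ / (2 * l) := le_trans hx.2 hx₁l
  have e1 : d x / (n x * x) = (d x / n x) / x := by
    rw [div_div]
  show l ≤ d x / (n x * x)
  rw [e1, le_div_iff₀ hxpos]
  have h3 : l * x ≤ l * (ρ / (2 * l)) := mul_le_mul_of_nonneg_left hxl hl.le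
  have h4 : l * (ρ / (2 * l)) = ρ / 2 := by field_simp
  linarith [hg.1]

namespace Lat

/-- The main construction, for a positively oriented lattice. -/
theorem main_torus (L : Lat) (hDpos : 0 < L.D) {u : ℝ × ℝ → ℝ} (hu : Sm u) (hp : L.Per u) :
    ∃ Φ : Fin 4 → ℝ × ℝ → ℝ, (∀ j, Sm (Φ j)) ∧ (∀ j p, Φ j (p + L.a) = Φ j p) ∧
      (∀ j p, Φ j (p + L.b) = Φ j p) ∧
      ∀ p v w, ∑ j, fderiv ℝ (Φ j) p v * fderiv ℝ (Φ j) p w =
        Real.exp (2 * u p) * (v.1 * w.1 + v.2 * w.2) := by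
  obtain ⟨W, U, hDom, hU, hu1, ε₁, hε, Y, eps, hF, hY0, heps0, hepsx⟩ := L.exists_family hu hp
  have hdev : ∀ x, ∃ θ Ψ₁ Ψ₂, Dev (EF L U Y eps x) (FF L U Y eps x) (HF L U Y eps x) θ Ψ₁ Ψ₂ :=
    fun x => exists_dev_param hDom hU (hF.hphi x) (hF.hG x) (hF.hlt x)
  choose θ Ψ₁ Ψ₂ hD using hdev
  have c11 := c_period1 hDom hU hF hD L.a
  have c12 := c_period2 hDom hU hF hD L.a
  have c21 := c_period1 hDom hU hF hD L.b
  have c22 := c_period2 hDom hU hF hD L.b
  have hbase : ∀ q, Ψ₁ 0 q = q.1 ∧ Ψ₂ 0 q = q.2 := fun q => by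
    refine dev_euclid (E := EF L U Y eps 0) (F := FF L U Y eps 0) (H := HF L U Y eps 0)
      (fun p => ?_) (fun p => ?_) (fun p => ?_) (hD 0) q
    · show GE (L.phi (Y 0)) (L.T1 U (eps 0) (Y 0)) p = 1
      rw [hY0, heps0]
      exact (base_values U p).1
    · show GF (L.T1 U (eps 0) (Y 0)) (L.T2 U (eps 0) (Y 0)) p = 0
      rw [hY0, heps0]
      exact (base_values U p).2.1
    · show GH (L.phi (Y 0)) (L.T2 U (eps 0) (Y 0)) p = 1
      rw [hY0, heps0]
      exact (base_values U p).2.2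
  have hD0 : 0 < Ψ₁ 0 L.a * Ψ₂ 0 L.b - Ψ₂ 0 L.a * Ψ₁ 0 L.b := by
    rw [(hbase L.a).1, (hbase L.a).2, (hbase L.b).1, (hbase L.b).2]
    exact hDpos
  have hlam : 0 < lam0 := by
    have h1 := (lam0_facts (l := lam0) le_rfl).1
    linarith
  obtain ⟨x, hx, k, hk, hn, hQ⟩ := exists_good_param c11 c12 c21 c22 hD0 hlam hε
  have hxe : eps x = x := hepsx x ⟨hx.1.le, hx.2⟩
  have hphi := hF.hphi x
  have hφ := Sm_phi (L := L) hDom (Y x)
  have ht1 := Sm_T1 (U := U) hDom hphi (eps x)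
  have ht2 := Sm_T2 (U := U) hDom hphi (eps x)
  have hsym := sym_fam hDom hU hF x
  have hE := Sm_GE hφ ht1 ht2 hsym
  have hFF := Sm_GF hφ ht1 ht2 hsym
  have hH := Sm_GH hφ ht1 ht2 hsym
  have hEpos := E_pos hDom hF x
  have hWpos := W_pos hDom hF x
  have pφ := phi_per (L := L) (Y x)
  have pt1 := T1_per (L := L) (U := U) (eps x) (Y x)
  have pt2 := T2_per (L := L) (U := U) (eps x) (Y x)
  have pE : L.Per (EF L U Y eps x) := ⟨fun p => by simp only [GE, pφ.pa, pt1.pa],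
    fun p => by simp only [GE, pφ.pb, pt1.pb]⟩
  have pFF : L.Per (FF L U Y eps x) := ⟨fun p => by simp only [GF, pt1.pa, pt2.pa],
    fun p => by simp only [GF, pt1.pb, pt2.pb]⟩
  have pH : L.Per (HF L U Y eps x) := ⟨fun p => by simp only [GH, pφ.pa, pt2.pa],
    fun p => by simp only [GH, pφ.pb, pt2.pb]⟩
  obtain ⟨h1a, h2a, h1b, h2b⟩ := holonomy_trivial hE hFF hH hEpos hWpos pE pFF pH (hD x)
  refine assemble (e := eps x) (k := k) (by rw [hxe]; exact hx.1) hu hφ ht1 ht2 hsym hp pφ hphi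
    (hF.hlt x) (hD x) h1a h2a h1b h2b hu1 (hasPD_phi hDom (Y x)) (fun p => rfl) (fun p => rfl)
    ?_ hk ?_
  · rw [hxe]; exact hn
  · rw [hxe]; exact hQ

end Lat

/-- The final statement: every conformally flat metric on a flat torus `ℝ²/Λ` has a smooth isometric
immersion into `ℝ⁴`. -/
theorem all_tori (a b : ℝ × ℝ) (hab : a.1 * b.2 - a.2 * b.1 ≠ 0) (u : ℝ × ℝ → ℝ)
    (hu : ContDiff ℝ ∞ u) (hua : ∀ p, u (p + a) = u p) (hub : ∀ p, u (p + b) = u p) :
    ∃ F : ℝ × ℝ → EuclideanSpace ℝ (Fin 4), ContDiff ℝ ∞ F ∧ (∀ p, F (p + a) = F p) ∧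
      (∀ p, F (p + b) = F p) ∧
      ∀ p v w, inner ℝ (fderiv ℝ F p v) (fderiv ℝ F p w) =
        Real.exp (2 * u p) * (v.1 * w.1 + v.2 * w.2) := by
  rcases lt_or_gt_of_ne hab with hneg | hpos
  · -- negative orientation: replace `b` by `-b`
    have hab' : a.1 * (-b).2 - a.2 * (-b).1 ≠ 0 := by
      simp only [Prod.snd_neg, Prod.fst_neg]
      intro h
      apply hab
      linarith
    set L : Lat := ⟨a, -b, hab'⟩ with hL
    have hD : 0 < L.D := by
      show 0 < a.1 * (-b).2 - a.2 * (-b).1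
      simp only [Prod.snd_neg, Prod.fst_neg]
      linarith
    have hp : L.Per u := ⟨hua, fun p => by
      show u (p + -b) = u p
      have := hub (p + -b)
      rw [← this]
      congr 1
      abel⟩
    obtain ⟨Φ, h1, h2, h3, h4⟩ := L.main_torus hD hu hp
    refine ⟨pack Φ, pack_contDiff h1, fun p => ?_, fun p => ?_, fun p v w => ?_⟩
    · exact congrArg (WithLp.toLp 2) (funext fun j => h2 j p)
    · refine congrArg (WithLp.toLp 2) (funext fun j => ?_)
      have := h3 j (p + b)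
      have e : p + b + L.b = p := by
        show p + b + -b = p
        abel
      rw [e] at this
      exact this.symm
    · rw [pack_inner h1, h4]
  · set L : Lat := ⟨a, b, hab⟩ with hL
    have hD : 0 < L.D := by
      show 0 < a.1 * b.2 - a.2 * b.1
      linarith
    have hp : L.Per u := ⟨hua, hub⟩
    obtain ⟨Φ, h1, h2, h3, h4⟩ := L.main_torus hD hu hp
    refine ⟨pack Φ, pack_contDiff h1, fun p => ?_, fun p => ?_, fun p v w => ?_⟩
    · exact congrArg (WithLp.toLp 2) (funext fun j => h2 j p)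
    · exact congrArg (WithLp.toLp 2) (funext fun j => h3 j p)
    · rw [pack_inner h1, h4]

end Vale.Agent.P205
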