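import Vale.Agent.P205.Jets

/-!
# The metric `φ² δ - dτ ⊗ dτ` and its curvature
-/

namespace Vale.Agent.P205

open scoped ContDiff

set_option linter.unusedSectionVars false

/-- Component `E`. -/
noncomputable def GE (φ t1 : ℝ × ℝ → ℝ) (p : ℝ × ℝ) : ℝ := φ p ^ 2 - t1 p ^ 2
/-- Component `F`. -/
noncomputable def GF (t1 t2 : ℝ × ℝ → ℝ) (p : ℝ × ℝ) : ℝ := -(t1 p * t2 p)
/-- Component `H`. -/
noncomputable def GH (φ t2 : ℝ × ℝ → ℝ) (p : ℝ × ℝ) : ℝ := φ p ^ 2 - t2 p ^ 2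

/-- The curvature expression in the jets of `φ, τ`. -/
noncomputable def PiP (f f1 f2 f11 f12 f22 t1 t2 t11 t12 t22 : ℝ) : ℝ :=
  f ^ 2 * ((f * (f11 + f22) - (f1 ^ 2 + f2 ^ 2)) * (f ^ 2 - t1 ^ 2 - t2 ^ 2)
    + (f * t11 - 2 * f1 * t1 + (f1 * t1 + f2 * t2)) * (f * t22 - 2 * f2 * t2 + (f1 * t1 + f2 * t2))
    - (f * t12 - f1 * t2 - f2 * t1) ^ 2)

lemma PiP_eq_PiE (e f f1 f2 f11 f12 f22 u1 u2 u11 u12 u22 : ℝ) (hf : f ≠ 0) :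
    PiP f f1 f2 f11 f12 f22 (e * (u1 - f1 / f)) (e * (u2 - f2 / f))
      (e * (u11 - f11 / f + f1 ^ 2 / f ^ 2)) (e * (u12 - f12 / f + f1 * f2 / f ^ 2))
      (e * (u22 - f22 / f + f2 ^ 2 / f ^ 2)) =
    PiE (e ^ 2) f f1 f2 f11 f12 f22 u1 u2 u11 u12 u22 := by
  unfold PiP PiE CE M11E M12E M22E
  field_simp
  ring

section
variable {φ t1 t2 : ℝ × ℝ → ℝ}
  (hφ : Sm φ) (ht1 : Sm t1) (ht2 : Sm t2)
  (hsym : ∀ p, dy t1 p = dx t2 p)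
include hφ ht1 ht2 hsym

lemma Sm_GE : Sm (GE φ t1) := (hφ.pow 2).sub (ht1.pow 2)
lemma Sm_GF : Sm (GF t1 t2) := (ht1.mul ht2).neg
lemma Sm_GH : Sm (GH φ t2) := (hφ.pow 2).sub (ht2.pow 2)

lemma hasPD_GE (p : ℝ × ℝ) : HasPD (GE φ t1)
    (2 * φ p * dx φ p - 2 * t1 p * dx t1 p) (2 * φ p * dy φ p - 2 * t1 p * dy t1 p) p :=
  (hφ.hasPD p).sq.sub (ht1.hasPD p).sq

lemma hasPD_GF (p : ℝ × ℝ) : HasPD (GF t1 t2)
    (-(dx t1 p * t2 p + t1 p * dy t1 p)) (-(dy t1 p * t2 p + t1 p * dy t2 p)) p := by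
  have h := ((ht1.hasPD p).mul (ht2.hasPD p)).neg
  rw [← hsym p] at h
  exact h

lemma hasPD_GH (p : ℝ × ℝ) : HasPD (GH φ t2)
    (2 * φ p * dx φ p - 2 * t2 p * dy t1 p) (2 * φ p * dy φ p - 2 * t2 p * dy t2 p) p := by
  have h := (hφ.hasPD p).sq.sub (ht2.hasPD p).sq
  rw [← hsym p] at h
  exact h

/-- The Brioschi identity. -/
theorem brf_G (p : ℝ × ℝ) : Brf (GE φ t1) (GF t1 t2) (GH φ t2) p =
    - PiP (φ p) (dx φ p) (dy φ p) (dx (dx φ) p) (dy (dx φ) p) (dy (dy φ) p)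
      (t1 p) (t2 p) (dx t1 p) (dy t1 p) (dy t2 p) := by
  have hE := hasPD_GE hφ ht1 ht2 hsym
  have hF := hasPD_GF hφ ht1 ht2 hsym
  have hH := hasPD_GH hφ ht1 ht2 hsym
  have eEy : dy (GE φ t1) = fun q => 2 * φ q * dy φ q - 2 * t1 q * dy t1 q :=
    funext fun q => (hE q).dy
  have eFx : dx (GF t1 t2) = fun q => -(dx t1 q * t2 q + t1 q * dy t1 q) :=
    funext fun q => (hF q).dx
  have eHx : dx (GH φ t2) = fun q => 2 * φ q * dx φ q - 2 * t2 q * dy t1 q :=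
    funext fun q => (hH q).dx
  have hφp := hφ.hasPD p
  have ht1p := ht1.hasPD p
  have ht2p := ht2.hasPD p
  have hφx := hφ.dx.hasPD p
  have hφy := hφ.dy.hasPD p
  have ht1x := ht1.dx.hasPD p
  have ht1y := ht1.dy.hasPD p
  have h2φ : HasPD (fun q => 2 * φ q) _ _ p := (hasPD_const 2 p).mul hφp
  have h2t1 : HasPD (fun q => 2 * t1 q) _ _ p := (hasPD_const 2 p).mul ht1p
  have h2t2 : HasPD (fun q => 2 * t2 q) _ _ p := (hasPD_const 2 p).mul ht2p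
  have a1 : dy (dy (GE φ t1)) p = dy (fun q => 2 * φ q * dy φ q - 2 * t1 q * dy t1 q) p := by rw [eEy]
  have a2 : dy (dx (GF t1 t2)) p = dy (fun q => -(dx t1 q * t2 q + t1 q * dy t1 q)) p := by rw [eFx]
  have a3 : dx (dx (GH φ t2)) p = dx (fun q => 2 * φ q * dx φ q - 2 * t2 q * dy t1 q) p := by rw [eHx]
  have b1 := ((h2φ.mul hφy).sub (h2t1.mul ht1y)).dy
  have b2 := (((ht1x.mul ht2p).add (ht1p.mul ht1y)).neg).dy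
  have b3 := ((h2φ.mul hφx).sub (h2t2.mul ht1y)).dx
  have c1 : dy (dx t1) p = dx (dy t1) p := (dx_dy_comm ht1 p).symm
  unfold Brf
  rw [a1, a2, a3, b1, b2, b3, (hE p).dx, (hE p).dy, (hF p).dx, (hF p).dy, (hH p).dx, (hH p).dy, c1,
    ← hsym p]
  unfold BrE PiP GE GF GH
  ring

end

section pos
variable {φ t1 t2 : ℝ × ℝ → ℝ}

lemma GE_pos {p : ℝ × ℝ} (hlt : t1 p ^ 2 + t2 p ^ 2 < φ p ^ 2) : 0 < GE φ t1 p := by
  unfold GE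
  nlinarith [sq_nonneg (t2 p)]

lemma W_G_eq (p : ℝ × ℝ) : GE φ t1 p * GH φ t2 p - GF t1 t2 p ^ 2 =
    φ p ^ 2 * (φ p ^ 2 - t1 p ^ 2 - t2 p ^ 2) := by
  unfold GE GF GH
  ring

lemma W_G_pos {p : ℝ × ℝ} (hφ : 0 < φ p) (hlt : t1 p ^ 2 + t2 p ^ 2 < φ p ^ 2) :
    0 < GE φ t1 p * GH φ t2 p - GF t1 t2 p ^ 2 := by
  rw [W_G_eq]
  have : 0 < φ p ^ 2 - t1 p ^ 2 - t2 p ^ 2 := by linarith
  positivity

end pos

/-- A flat metric of this form develops. -/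
theorem flat_dev {L : Lat} {φ t1 t2 : ℝ × ℝ → ℝ}
    (hφ : Sm φ) (ht1 : Sm t1) (ht2 : Sm t2) (hsym : ∀ p, dy t1 p = dx t2 p)
    (pφ : L.Per φ) (pt1 : L.Per t1) (pt2 : L.Per t2)
    (hpos : ∀ p, 0 < φ p) (hlt : ∀ p, t1 p ^ 2 + t2 p ^ 2 < φ p ^ 2) {m : ℝ}
    (hPDE : ∀ p, PiP (φ p) (dx φ p) (dy φ p) (dx (dx φ) p) (dy (dx φ) p) (dy (dy φ) p)
      (t1 p) (t2 p) (dx t1 p) (dy t1 p) (dy t2 p) = -m) :
    ∃ θ Ψ₁ Ψ₂, Dev (GE φ t1) (GF t1 t2) (GH φ t2) θ Ψ₁ Ψ₂ := by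
  have hE := Sm_GE hφ ht1 ht2 hsym
  have hF := Sm_GF hφ ht1 ht2 hsym
  have hH := Sm_GH hφ ht1 ht2 hsym
  have hEpos : ∀ p, 0 < GE φ t1 p := fun p => GE_pos (hlt p)
  have hWpos : ∀ p, 0 < GE φ t1 p * GH φ t2 p - GF t1 t2 p ^ 2 := fun p => W_G_pos (hpos p) (hlt p)
  have pE : L.Per (GE φ t1) := ⟨fun p => by simp only [GE, pφ.pa, pt1.pa],
    fun p => by simp only [GE, pφ.pb, pt1.pb]⟩
  have pF : L.Per (GF t1 t2) := ⟨fun p => by simp only [GF, pt1.pa, pt2.pa],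
    fun p => by simp only [GF, pt1.pb, pt2.pb]⟩
  have pH : L.Per (GH φ t2) := ⟨fun p => by simp only [GH, pφ.pa, pt2.pa],
    fun p => by simp only [GH, pφ.pb, pt2.pb]⟩
  have hB : ∀ p, Brf (GE φ t1) (GF t1 t2) (GH φ t2) p = m := fun p => by
    rw [brf_G hφ ht1 ht2 hsym, hPDE p, neg_neg]
  have hm : m = 0 := brioschi_const_zero hE hF hH hEpos hWpos pE pF pH hB
  exact exists_dev hE hF hH hEpos hWpos (fun p => by rw [hB p, hm])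

end Vale.Agent.P205
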