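import Vale.Agent.P205.Develop

/-!
# Gauss-Bonnet and triviality of the holonomy
-/

namespace Vale.Agent.P205

open scoped ContDiff

set_option linter.unusedSectionVars false

section inv
variable {E F H θ : ℝ × ℝ → ℝ} {l : ℝ × ℝ}

lemma Wf_shift (hE : ∀ p, E (p + l) = E p) (hF : ∀ p, F (p + l) = F p) (hH : ∀ p, H (p + l) = H p)
    (p : ℝ × ℝ) : Wf E F H (p + l) = Wf E F H p := by
  unfold Wf; rw [hE, hF, hH]

lemma Rf_shift (hE : ∀ p, E (p + l) = E p) (hF : ∀ p, F (p + l) = F p) (hH : ∀ p, H (p + l) = H p)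
    (p : ℝ × ℝ) : Rf E F H (p + l) = Rf E F H p := by
  unfold Rf; rw [Wf_shift hE hF hH]

lemma gf_shift (hE : ∀ p, E (p + l) = E p) (hF : ∀ p, F (p + l) = F p) (hH : ∀ p, H (p + l) = H p)
    (p : ℝ × ℝ) : gf E F H (p + l) = gf E F H p := by
  unfold gf; rw [Rf_shift hE hF hH]

lemma om1_shift (hE : ∀ p, E (p + l) = E p) (hF : ∀ p, F (p + l) = F p) (hH : ∀ p, H (p + l) = H p)
    (p : ℝ × ℝ) : om1 E F H (p + l) = om1 E F H p := by
  unfold om1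
  rw [gf_shift hE hF hH, hE, hF, dx_shift hF, dx_shift hE, dy_shift hE]

lemma om2_shift (hE : ∀ p, E (p + l) = E p) (hF : ∀ p, F (p + l) = F p) (hH : ∀ p, H (p + l) = H p)
    (p : ℝ × ℝ) : om2 E F H (p + l) = om2 E F H p := by
  unfold om2
  rw [gf_shift hE hF hH, hE, hF, dx_shift hH, dy_shift hE]

lemma Pf_shift (hE : ∀ p, E (p + l) = E p) (p : ℝ × ℝ) : Pf E (p + l) = Pf E p := by
  unfold Pf; rw [hE]

end inv

section gb
variable {L : Lat} {E F H : ℝ × ℝ → ℝ} (hE : Sm E) (hF : Sm F) (hH : Sm H)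
  (hEpos : ∀ p, 0 < E p) (hWpos : ∀ p, 0 < E p * H p - F p ^ 2)
  (pE : L.Per E) (pF : L.Per F) (pH : L.Per H)
include hE hF hH hEpos hWpos pE pF pH

/-- Gauss-Bonnet: if the Gauss curvature numerator is constant, it vanishes. -/
theorem brioschi_const_zero {m : ℝ} (hm : ∀ p, Brf E F H p = m) : m = 0 := by
  have hρc : Continuous (fun p => gf E F H p / (E p * H p - F p ^ 2)) :=
    ((Sm_gf hE hF hH hEpos hWpos).continuous).div ((hE.mul hH).sub (hF.pow 2)).continuous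
      (fun p => (hWpos p).ne')
  have hρp : L.Per (fun p => gf E F H p / (E p * H p - F p ^ 2)) :=
    ⟨fun p => by
        show gf E F H (p + L.a) / (E (p + L.a) * H (p + L.a) - F (p + L.a) ^ 2) = _
        rw [gf_shift pE.pa pF.pa pH.pa, pE.pa, pF.pa, pH.pa],
      fun p => by
        show gf E F H (p + L.b) / (E (p + L.b) * H (p + L.b) - F (p + L.b) ^ 2) = _
        rw [gf_shift pE.pb pF.pb pH.pb, pE.pb, pF.pb, pH.pb]⟩
  have hpos : ∀ p, 0 < gf E F H p / (E p * H p - F p ^ 2) := fun p =>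
    div_pos (gf_pos hE hF hH hEpos hWpos p) (hWpos p)
  have h1 : (-m) = 0 := Lat.mean_zero_curl (L := L) (Sm_om1 hE hF hH hEpos hWpos)
    ⟨om1_shift pE.pa pF.pa pH.pa, om1_shift pE.pb pF.pb pH.pb⟩
    (Sm_om2 hE hF hH hEpos hWpos) ⟨om2_shift pE.pa pF.pa pH.pa, om2_shift pE.pb pF.pb pH.pb⟩
    hρc hρp hpos (fun p => by
      have h := curl_om hE hF hH hEpos hWpos p
      rw [hm p] at h
      exact h)
  linarith

end gb

section hol
variable {L : Lat} {E F H θ Ψ₁ Ψ₂ : ℝ × ℝ → ℝ}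

lemma theta_shift {l : ℝ × ℝ} (hE : ∀ p, E (p + l) = E p) (hF : ∀ p, F (p + l) = F p)
    (hH : ∀ p, H (p + l) = H p) (hD : Dev E F H θ Ψ₁ Ψ₂) (p : ℝ × ℝ) :
    θ (p + l) = θ p + θ l := by
  have h1 : ∀ q, HasPD (fun q => θ (q + l)) (om1 E F H q) (om2 E F H q) q := fun q => by
    have h := (hD.dθ (q + l)).shift
    rwa [om1_shift hE hF hH, om2_shift hE hF hH] at h
  have h2 : ∀ q, HasPD (fun q => θ q + θ l) (om1 E F H q) (om2 E F H q) q := fun q =>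
    ((hD.dθ q).add (hasPD_const (θ l) q)).congr (add_zero _) (add_zero _)
  have h3 := eq_of_same_pd h1 h2 p 0
  simp only [zero_add, hD.θ0] at h3
  linarith

lemma psi_shift {l : ℝ × ℝ} (hE : ∀ p, E (p + l) = E p) (hF : ∀ p, F (p + l) = F p)
    (hH : ∀ p, H (p + l) = H p) (hD : Dev E F H θ Ψ₁ Ψ₂) (p : ℝ × ℝ) :
    Ψ₁ (p + l) = Real.cos (θ l) * Ψ₁ p - Real.sin (θ l) * Ψ₂ p + Ψ₁ l ∧
    Ψ₂ (p + l) = Real.sin (θ l) * Ψ₁ p + Real.cos (θ l) * Ψ₂ p + Ψ₂ l := by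
  have hts := theta_shift hE hF hH hD
  constructor
  · have h1 : ∀ q, HasPD (fun q => Ψ₁ (q + l))
        (Real.cos (θ l) * A1 E θ q - Real.sin (θ l) * A2 E θ q)
        (Real.cos (θ l) * B1 E F H θ q - Real.sin (θ l) * B2 E F H θ q) q := fun q => by
      have h := (hD.d1 (q + l)).shift
      refine h.congr ?_ ?_
      · unfold A1 A2
        rw [hts, Pf_shift hE, Real.cos_add]
        ring
      · unfold B1 B2
        rw [hts, Pf_shift hE, Rf_shift hE hF hH, hF, Real.cos_add, Real.sin_add]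
        ring
    have h2 : ∀ q, HasPD (fun q => Real.cos (θ l) * Ψ₁ q - Real.sin (θ l) * Ψ₂ q + Ψ₁ l)
        (Real.cos (θ l) * A1 E θ q - Real.sin (θ l) * A2 E θ q)
        (Real.cos (θ l) * B1 E F H θ q - Real.sin (θ l) * B2 E F H θ q) q := fun q =>
      ((((hD.d1 q).const_mul _).sub ((hD.d2 q).const_mul _)).add (hasPD_const (Ψ₁ l) q)).congr
        (add_zero _) (add_zero _)
    have h3 := eq_of_same_pd h1 h2 p 0
    simp only [zero_add, hD.z1, hD.z2, mul_zero, sub_zero] at h3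
    linarith
  · have h1 : ∀ q, HasPD (fun q => Ψ₂ (q + l))
        (Real.sin (θ l) * A1 E θ q + Real.cos (θ l) * A2 E θ q)
        (Real.sin (θ l) * B1 E F H θ q + Real.cos (θ l) * B2 E F H θ q) q := fun q => by
      have h := (hD.d2 (q + l)).shift
      refine h.congr ?_ ?_
      · unfold A1 A2
        rw [hts, Pf_shift hE, Real.sin_add]
        ring
      · unfold B1 B2
        rw [hts, Pf_shift hE, Rf_shift hE hF hH, hF, Real.cos_add, Real.sin_add]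
        ring
    have h2 : ∀ q, HasPD (fun q => Real.sin (θ l) * Ψ₁ q + Real.cos (θ l) * Ψ₂ q + Ψ₂ l)
        (Real.sin (θ l) * A1 E θ q + Real.cos (θ l) * A2 E θ q)
        (Real.sin (θ l) * B1 E F H θ q + Real.cos (θ l) * B2 E F H θ q) q := fun q =>
      ((((hD.d1 q).const_mul _).add ((hD.d2 q).const_mul _)).add (hasPD_const (Ψ₂ l) q)).congr
        (add_zero _) (add_zero _)
    have h3 := eq_of_same_pd h1 h2 p 0
    simp only [zero_add, hD.z1, hD.z2, mul_zero, add_zero] at h3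
    linarith

/-- A continuous nonnegative periodic function attains its maximum. -/
lemma exists_max {f : ℝ × ℝ → ℝ} (hc : Continuous f) (hp : L.Per f) (hnn : ∀ p, 0 ≤ f p) :
    ∃ p₀, ∀ q, f q ≤ f p₀ := by
  have hC : Continuous (fun p => (f p : ℂ)) := Complex.continuous_ofReal.comp hc
  have hP : L.Per (fun p => (f p : ℂ)) :=
    ⟨fun p => by simp only [hp.pa], fun p => by simp only [hp.pb]⟩
  have hl := Lat.continuous_lift hC hP
  obtain ⟨x₀, -, hx₀⟩ := isCompact_univ.exists_isMaxOn Set.univ_nonempty hl.norm.continuousOn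
  obtain ⟨t₀, rfl⟩ := piT_surj x₀
  refine ⟨L.P t₀, fun q => ?_⟩
  have h1 := hx₀ (Set.mem_univ (piT (L.T q)))
  simp only [Set.mem_ofPred_eq, Lat.lift_piT hP, L.P_T, Complex.norm_real, Real.norm_eq_abs,
    abs_of_nonneg (hnn _)] at h1
  exact h1

lemma fixed_pt_alg (C1 S1 C2 S2 b11 b12 b21 b22 x y d : ℝ) (hd : d = (1 - C1) ^ 2 + S1 ^ 2)
    (hd0 : d ≠ 0) (hx : x * d = (1 - C1) * b11 - S1 * b12) (hy : y * d = S1 * b11 + (1 - C1) * b12)
    (R1 : C1 * b21 - S1 * b22 + b11 = C2 * b11 - S2 * b12 + b21)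
    (R2 : S1 * b21 + C1 * b22 + b12 = S2 * b11 + C2 * b12 + b22) :
    C1 * x - S1 * y + b11 = x ∧ S1 * x + C1 * y + b12 = y ∧
      C2 * x - S2 * y + b21 = x ∧ S2 * x + C2 * y + b22 = y := by
  refine ⟨?_, ?_, ?_, ?_⟩
  · have : (C1 * x - S1 * y + b11 - x) * d = 0 := by
      linear_combination (C1 - 1) * hx - S1 * hy + b11 * hd
    have h2 := (mul_eq_zero.1 this).resolve_right hd0
    linarith
  · have : (S1 * x + C1 * y + b12 - y) * d = 0 := by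
      linear_combination S1 * hx + (C1 - 1) * hy + b12 * hd
    have h2 := (mul_eq_zero.1 this).resolve_right hd0
    linarith
  · have : (C2 * x - S2 * y + b21 - x) * d = 0 := by
      linear_combination (C2 - 1) * hx - S2 * hy + b21 * hd - (1 - C1) * R1 + S1 * R2
    have h2 := (mul_eq_zero.1 this).resolve_right hd0
    linarith
  · have : (S2 * x + C2 * y + b22 - y) * d = 0 := by
      linear_combination S2 * hx + (C2 - 1) * hy + b22 * hd - (1 - C1) * R2 - S1 * R1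
    have h2 := (mul_eq_zero.1 this).resolve_right hd0
    linarith

end hol

section hol2
variable {L : Lat} {E F H θ Ψ₁ Ψ₂ : ℝ × ℝ → ℝ} (hE : Sm E) (hF : Sm F) (hH : Sm H)
  (hEpos : ∀ p, 0 < E p) (hWpos : ∀ p, 0 < E p * H p - F p ^ 2)
  (pE : L.Per E) (pF : L.Per F) (pH : L.Per H) (hD : Dev E F H θ Ψ₁ Ψ₂)
include hE hF hH hEpos hWpos pE pF pH hD

/-- The distance to a point cannot be periodic. -/
lemma no_periodic_dist (x y : ℝ) (hfper : L.Per (fun q => (Ψ₁ q - x) ^ 2 + (Ψ₂ q - y) ^ 2)) : False := by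
  set f : ℝ × ℝ → ℝ := fun q => (Ψ₁ q - x) ^ 2 + (Ψ₂ q - y) ^ 2 with hf
  have hfc : Continuous f :=
    ((hD.s1.continuous.sub continuous_const).pow 2).add ((hD.s2.continuous.sub continuous_const).pow 2)
  have hfnn : ∀ q, 0 ≤ f q := fun q => by simp only [hf]; positivity
  obtain ⟨p₀, hp₀⟩ := exists_max hfc hfper hfnn
  have hpd : HasPD f
      (2 * (Ψ₁ p₀ - x) * (A1 E θ p₀ - 0) + 2 * (Ψ₂ p₀ - y) * (A2 E θ p₀ - 0))
      (2 * (Ψ₁ p₀ - x) * (B1 E F H θ p₀ - 0) + 2 * (Ψ₂ p₀ - y) * (B2 E F H θ p₀ - 0)) p₀ :=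
    (((hD.d1 p₀).sub (hasPD_const x p₀)).sq).add (((hD.d2 p₀).sub (hasPD_const y p₀)).sq)
  have hmax : IsLocalMax f p₀ := Filter.Eventually.of_forall hp₀
  have hzero := hmax.hasFDerivAt_eq_zero hpd
  have z1 : 2 * (Ψ₁ p₀ - x) * (A1 E θ p₀ - 0) + 2 * (Ψ₂ p₀ - y) * (A2 E θ p₀ - 0) = 0 := by
    have := DFunLike.congr_fun hzero ((1:ℝ), (0:ℝ))
    simpa using this
  have z2 : 2 * (Ψ₁ p₀ - x) * (B1 E F H θ p₀ - 0) + 2 * (Ψ₂ p₀ - y) * (B2 E F H θ p₀ - 0) = 0 := by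
    have := DFunLike.congr_fun hzero ((0:ℝ), (1:ℝ))
    simpa using this
  have hdet := coframe_det (θ := θ) hE hF hH hEpos hWpos p₀
  have hR0 := Rf_pos hE hF hH hEpos hWpos p₀
  have v1 : (Ψ₁ p₀ - x) * Rf E F H p₀ = 0 := by
    rw [← hdet]
    linear_combination (B2 E F H θ p₀ / 2) * z1 - (A2 E θ p₀ / 2) * z2
  have v2 : (Ψ₂ p₀ - y) * Rf E F H p₀ = 0 := by
    rw [← hdet]
    linear_combination (A1 E θ p₀ / 2) * z2 - (B1 E F H θ p₀ / 2) * z1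
  have w1 := (mul_eq_zero.1 v1).resolve_right hR0.ne'
  have w2 := (mul_eq_zero.1 v2).resolve_right hR0.ne'
  have hf0 : f p₀ = 0 := by simp only [hf, w1, w2]; ring
  have hall : ∀ q, Ψ₁ q = x ∧ Ψ₂ q = y := fun q => by
    have h1 := hp₀ q
    rw [hf0] at h1
    have h3 : f q = 0 := le_antisymm h1 (hfnn q)
    simp only [hf] at h3
    have h8 := (add_eq_zero_iff_of_nonneg (sq_nonneg _) (sq_nonneg _)).1 h3
    have h6 := pow_eq_zero_iff (two_ne_zero) |>.1 h8.1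
    have h7 := pow_eq_zero_iff (two_ne_zero) |>.1 h8.2
    exact ⟨by linarith, by linarith⟩
  have e1 : Ψ₁ = fun _ => x := funext fun q => (hall q).1
  have e2 : Ψ₂ = fun _ => y := funext fun q => (hall q).2
  have hA1 : A1 E θ 0 = 0 := by
    have h1 := (hD.d1 0).dx
    rw [e1] at h1
    rw [← h1, (hasPD_const x 0).dx]
  have hA2 : A2 E θ 0 = 0 := by
    have h1 := (hD.d2 0).dx
    rw [e2] at h1
    rw [← h1, (hasPD_const y 0).dx]
  have hm := metric_A (θ := θ) hE hF hH hEpos hWpos 0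
  rw [hA1, hA2] at hm
  have := hEpos 0
  norm_num at hm
  linarith

/-- A rotation part of the holonomy must be trivial. -/
lemma no_rot_aux {l₁ l₂ : ℝ × ℝ} (hl : (l₁ = L.a ∧ l₂ = L.b) ∨ (l₁ = L.b ∧ l₂ = L.a)) :
    Real.cos (θ l₁) = 1 := by
  have E1 : ∀ p, E (p + l₁) = E p := by
    rcases hl with ⟨rfl, rfl⟩ | ⟨rfl, rfl⟩
    · exact pE.pa
    · exact pE.pb
  have F1 : ∀ p, F (p + l₁) = F p := by
    rcases hl with ⟨rfl, rfl⟩ | ⟨rfl, rfl⟩
    · exact pF.pa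
    · exact pF.pb
  have H1 : ∀ p, H (p + l₁) = H p := by
    rcases hl with ⟨rfl, rfl⟩ | ⟨rfl, rfl⟩
    · exact pH.pa
    · exact pH.pb
  have E2 : ∀ p, E (p + l₂) = E p := by
    rcases hl with ⟨rfl, rfl⟩ | ⟨rfl, rfl⟩
    · exact pE.pb
    · exact pE.pa
  have F2 : ∀ p, F (p + l₂) = F p := by
    rcases hl with ⟨rfl, rfl⟩ | ⟨rfl, rfl⟩
    · exact pF.pb
    · exact pF.pa
  have H2 : ∀ p, H (p + l₂) = H p := by
    rcases hl with ⟨rfl, rfl⟩ | ⟨rfl, rfl⟩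
    · exact pH.pb
    · exact pH.pa
  by_contra hne
  set C1 := Real.cos (θ l₁) with hC1
  set S1 := Real.sin (θ l₁) with hS1
  set C2 := Real.cos (θ l₂) with hC2
  set S2 := Real.sin (θ l₂) with hS2
  have hcs1 : S1 ^ 2 + C1 ^ 2 = 1 := Real.sin_sq_add_cos_sq _
  have hcs2 : S2 ^ 2 + C2 ^ 2 = 1 := Real.sin_sq_add_cos_sq _
  set d := (1 - C1) ^ 2 + S1 ^ 2 with hd
  have hd0 : d ≠ 0 := by
    intro h0
    have h8 := (add_eq_zero_iff_of_nonneg (sq_nonneg _) (sq_nonneg _)).1 h0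
    have h2 : 1 - C1 = 0 := pow_eq_zero_iff (two_ne_zero) |>.1 h8.1
    exact hne (by linarith)
  set b11 := Ψ₁ l₁
  set b12 := Ψ₂ l₁
  set b21 := Ψ₁ l₂
  set b22 := Ψ₂ l₂
  have hs1 := psi_shift E1 F1 H1 hD
  have hs2 := psi_shift E2 F2 H2 hD
  have R1 : C1 * b21 - S1 * b22 + b11 = C2 * b11 - S2 * b12 + b21 := by
    have h1 := (hs1 l₂).1
    have h2 := (hs2 l₁).1
    rw [add_comm] at h2
    rw [h1] at h2
    exact h2
  have R2 : S1 * b21 + C1 * b22 + b12 = S2 * b11 + C2 * b12 + b22 := by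
    have h1 := (hs1 l₂).2
    have h2 := (hs2 l₁).2
    rw [add_comm] at h2
    rw [h1] at h2
    exact h2
  set x := ((1 - C1) * b11 - S1 * b12) / d with hx
  set y := (S1 * b11 + (1 - C1) * b12) / d with hy
  obtain ⟨f1, f2, f3, f4⟩ := fixed_pt_alg C1 S1 C2 S2 b11 b12 b21 b22 x y d rfl hd0
    (by rw [hx]; field_simp) (by rw [hy]; field_simp) R1 R2
  have hfinv1 : ∀ q, (Ψ₁ (q + l₁) - x) ^ 2 + (Ψ₂ (q + l₁) - y) ^ 2 =
      (Ψ₁ q - x) ^ 2 + (Ψ₂ q - y) ^ 2 := fun q => by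
    rw [(hs1 q).1, (hs1 q).2]
    have e1 : C1 * Ψ₁ q - S1 * Ψ₂ q + b11 - x = C1 * (Ψ₁ q - x) - S1 * (Ψ₂ q - y) := by
      linear_combination f1
    have e2 : S1 * Ψ₁ q + C1 * Ψ₂ q + b12 - y = S1 * (Ψ₁ q - x) + C1 * (Ψ₂ q - y) := by
      linear_combination f2
    rw [e1, e2]
    linear_combination ((Ψ₁ q - x) ^ 2 + (Ψ₂ q - y) ^ 2) * hcs1
  have hfinv2 : ∀ q, (Ψ₁ (q + l₂) - x) ^ 2 + (Ψ₂ (q + l₂) - y) ^ 2 =
      (Ψ₁ q - x) ^ 2 + (Ψ₂ q - y) ^ 2 := fun q => by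
    rw [(hs2 q).1, (hs2 q).2]
    have e1 : C2 * Ψ₁ q - S2 * Ψ₂ q + b21 - x = C2 * (Ψ₁ q - x) - S2 * (Ψ₂ q - y) := by
      linear_combination f3
    have e2 : S2 * Ψ₁ q + C2 * Ψ₂ q + b22 - y = S2 * (Ψ₁ q - x) + C2 * (Ψ₂ q - y) := by
      linear_combination f4
    rw [e1, e2]
    linear_combination ((Ψ₁ q - x) ^ 2 + (Ψ₂ q - y) ^ 2) * hcs2
  have hfper : L.Per (fun q => (Ψ₁ q - x) ^ 2 + (Ψ₂ q - y) ^ 2) := by
    rcases hl with ⟨rfl, rfl⟩ | ⟨rfl, rfl⟩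
    · exact ⟨hfinv1, hfinv2⟩
    · exact ⟨hfinv2, hfinv1⟩
  exact no_periodic_dist hE hF hH hEpos hWpos pE pF pH hD x y hfper

/-- The holonomy of the flat metric is by translations. -/
theorem holonomy_trivial :
    (∀ p, Ψ₁ (p + L.a) = Ψ₁ p + Ψ₁ L.a) ∧ (∀ p, Ψ₂ (p + L.a) = Ψ₂ p + Ψ₂ L.a) ∧
    (∀ p, Ψ₁ (p + L.b) = Ψ₁ p + Ψ₁ L.b) ∧ (∀ p, Ψ₂ (p + L.b) = Ψ₂ p + Ψ₂ L.b) := by
  have ca := no_rot_aux hE hF hH hEpos hWpos pE pF pH hD (l₁ := L.a) (l₂ := L.b) (Or.inl ⟨rfl, rfl⟩)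
  have cb := no_rot_aux hE hF hH hEpos hWpos pE pF pH hD (l₁ := L.b) (l₂ := L.a) (Or.inr ⟨rfl, rfl⟩)
  have sa : Real.sin (θ L.a) = 0 := by
    have := Real.sin_sq_add_cos_sq (θ L.a)
    rw [ca] at this
    nlinarith
  have sb : Real.sin (θ L.b) = 0 := by
    have := Real.sin_sq_add_cos_sq (θ L.b)
    rw [cb] at this
    nlinarith
  have ha := psi_shift pE.pa pF.pa pH.pa hD
  have hb := psi_shift pE.pb pF.pb pH.pb hD
  refine ⟨fun p => ?_, fun p => ?_, fun p => ?_, fun p => ?_⟩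
  · rw [(ha p).1, ca, sa]; ring
  · rw [(ha p).2, ca, sa]; ring
  · rw [(hb p).1, cb, sb]; ring
  · rw [(hb p).2, cb, sb]; ring

end hol2

end Vale.Agent.P205
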