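import Mathlib
import Vale.Agent.P205.ConeLarge
import Vale.Agent.P205.Pack

open Set MeasureTheory intervalIntegral Real
open scoped ContDiff

namespace Vale.Agent.P205

lemma periodic_bound {g : ℝ → ℝ} (hg : Continuous g) {P : ℝ} (hP : 0 < P)
    (hper : ∀ y, g (y + P) = g y) : ∃ M, ∀ y, g y ≤ M := by
  obtain ⟨y₀, -, hy₀⟩ := (isCompact_Icc (a := (0 : ℝ)) (b := P)).exists_isMaxOn
    (nonempty_Icc.2 hP.le) hg.continuousOn
  refine ⟨g y₀, fun y => ?_⟩
  have hp : Function.Periodic g P := hper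
  obtain ⟨z, hz, hzy⟩ := hp.exists_mem_Ico₀ hP y
  rw [hzy]
  exact hy₀ ⟨hz.1, hz.2.le⟩

/-- Every metric `f(y)² dx² + dy²` with twist on a torus, as four real functions. -/
theorem invariant_torus (P T : ℝ) (hP : 0 < P) (f : ℝ → ℝ) (hf : ContDiff ℝ ∞ f)
    (hpos : ∀ y, 0 < f y) (hper : ∀ y, f (y + P) = f y) :
    ∃ F : Fin 4 → ℝ × ℝ → ℝ, (∀ k, ContDiff ℝ ∞ (F k)) ∧
      (∀ k x y, F k (x + 2 * π, y) = F k (x, y)) ∧
      (∀ k x y, F k (x + T, y + P) = F k (x, y)) ∧
      (∀ p v w, ∑ k, fderiv ℝ (F k) p v * fderiv ℝ (F k) p w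
        = f p.2 ^ 2 * v.1 * w.1 + v.2 * w.2) := by
  have hfc : Continuous f := hf.continuous
  have hdf : ContDiff ℝ ∞ (deriv f) := (contDiff_infty_iff_deriv.1 hf).2
  have hdfper : ∀ y, deriv f (y + P) = deriv f y := by
    intro y
    have h3 : f = fun y => f (y + P) := funext fun y => (hper y).symm
    conv_rhs => rw [h3]
    rw [deriv_comp_add_const]
  obtain ⟨fmax, hfmax⟩ := periodic_bound hfc hP hper
  obtain ⟨M, hM⟩ := periodic_bound (g := fun y => deriv f y ^ 2) (hdf.continuous.pow 2) hP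
    (fun y => by simp only [hdfper])
  have hfmaxpos : 0 < fmax := lt_of_lt_of_le (hpos 0) (hfmax 0)
  have hMnn : 0 ≤ M := le_trans (sq_nonneg _) (hM 0)
  obtain ⟨K, hK⟩ := exists_nat_gt (1 + 4 * M + lam0 * fmax / P)
  have hlam : 0 ≤ lam0 * fmax / P ∨ lam0 * fmax / P < 0 := le_or_gt _ _
  have hK0 : (0 : ℝ) < K := by
    rcases hlam with h | h
    · linarith
    · have : 0 < lam0 := by
        have h1 := (lam0_facts (l := lam0) le_rfl).1
        linarith
      have : 0 < lam0 * fmax / P := by positivity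
      linarith
  have hlampos : 0 < lam0 := by
    have h1 := (lam0_facts (l := lam0) le_rfl).1
    linarith
  have hfrac : 0 < lam0 * fmax / P := by positivity
  have hK1 : (1 : ℝ) ≤ K := by linarith
  have hKne : (K : ℝ) ≠ 0 := hK0.ne'
  set r : ℝ → ℝ := fun y => f y / K with hr
  have hrc : ContDiff ℝ ∞ r := hf.div_const _
  have hrpos : ∀ y, 0 < r y := fun y => div_pos (hpos y) hK0
  have hrper : ∀ y, r (y + P) = r y := fun y => by simp only [hr, hper]
  have hrd : ∀ y, deriv r y = deriv f y / K := fun y => by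
    have h1 : HasDerivAt f (deriv f y) y := (hf.differentiable (by simp) y).hasDerivAt
    exact (h1.div_const _).deriv
  have hrmax : ∀ y, r y ≤ fmax / K := fun y =>
    div_le_div_of_nonneg_right (hfmax y) hK0.le
  have hdr : ∀ y, deriv r y ^ 2 ≤ 1 / 4 := by
    intro y
    rw [hrd, div_pow, div_le_iff₀ (by positivity)]
    have h1 := hM y
    have h2 : (K : ℝ) ^ 2 ≥ K := by nlinarith
    nlinarith
  have hl : lam0 ≤ P / (fmax / K) := by
    have h1 : P / (fmax / K) = P * K / fmax := by field_simp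
    rw [h1, le_div_iff₀ hfmaxpos]
    have h2 : lam0 * fmax / P < K := by linarith
    rw [div_lt_iff₀ hP] at h2
    nlinarith
  obtain ⟨G, hGc, -, hG1, hG2, hG3⟩ := cone_large hP hrc hrpos hrper hrmax hdr hl ((K : ℝ) * T)
  -- the covering
  have hGn : ∀ (n : ℕ) k x y, G k (x + n * (2 * π), y) = G k (x, y) := by
    intro n
    induction n with
    | zero => intro k x y; simp
    | succ n ih =>
      intro k x y
      have : x + ((n + 1 : ℕ) : ℝ) * (2 * π) = (x + n * (2 * π)) + 2 * π := by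
        push_cast; ring
      rw [this, hG1, ih]
  let L : ℝ × ℝ →L[ℝ] ℝ × ℝ :=
    ((K : ℝ) • ContinuousLinearMap.fst ℝ ℝ ℝ).prod (ContinuousLinearMap.snd ℝ ℝ ℝ)
  have hLapply : ∀ q : ℝ × ℝ, L q = ((K : ℝ) * q.1, q.2) := fun q => by
    simp [L]
  refine ⟨fun k q => G k (L q), ?_, ?_, ?_, ?_⟩
  · intro k
    exact (hGc k).comp L.contDiff
  · intro k x y
    simp only [hLapply]
    have : (K : ℝ) * (x + 2 * π) = (K : ℝ) * x + K * (2 * π) := by ring
    rw [this, hGn]
  · intro k x y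
    simp only [hLapply]
    have : (K : ℝ) * (x + T) = (K : ℝ) * x + (K : ℝ) * T := by ring
    rw [this, hG2]
  · intro p v w
    have hfd : ∀ k (u : ℝ × ℝ), fderiv ℝ (fun q => G k (L q)) p u = fderiv ℝ (G k) (L p) (L u) := by
      intro k u
      have hd : DifferentiableAt ℝ (G k) (L p) := (hGc k).differentiable (by simp) _
      have h1 := hd.hasFDerivAt.comp p L.hasFDerivAt
      have h2 : (G k ∘ ⇑L) = fun q => G k (L q) := rfl
      rw [h2] at h1
      rw [h1.fderiv]
      rfl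
    simp only [hfd]
    rw [hG3]
    simp only [hLapply, hr]
    field_simp

end Vale.Agent.P205
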