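import Vale.Agent.P205.Solve
import Vale.Agent.P205.Holonomy

/-!
# From the algebra to functions on the plane
-/

namespace Vale.Agent.P205

open scoped ContDiff ComplexConjugate
open Alg

set_option linter.unusedSectionVars false

namespace Lat
variable (L : Lat) {W : Wt}

/-- The function attached to an element of the algebra. -/
noncomputable def sr (x : Herm W) (p : ℝ × ℝ) : ℝ := ev (L.chr p) x

lemma sr_eq (x : Herm W) (p : ℝ × ℝ) : L.sr x p = (L.synth (c x.1) p).re := rfl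

lemma abs_sr_le (x : Herm W) (p : ℝ × ℝ) : |L.sr x p| ≤ ‖x‖ := abs_ev_le _ _

lemma sr_add (x y : Herm W) (p : ℝ × ℝ) : L.sr (x + y) p = L.sr x p + L.sr y p := ev_add _ _ _
lemma sr_mul (x y : Herm W) (p : ℝ × ℝ) : L.sr (x * y) p = L.sr x p * L.sr y p := ev_mul _ _ _
lemma sr_one (p : ℝ × ℝ) : L.sr (1 : Herm W) p = 1 := ev_one _
lemma sr_smul (r : ℝ) (x : Herm W) (p : ℝ × ℝ) : L.sr (r • x) p = r * L.sr x p := ev_smul _ _ _

lemma sr_zero (p : ℝ × ℝ) : L.sr (0 : Herm W) p = 0 := by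
  have := L.sr_smul 0 (0 : Herm W) p
  simpa using this

lemma sr_sub (x y : Herm W) (p : ℝ × ℝ) : L.sr (x - y) p = L.sr x p - L.sr y p := by
  have h := L.sr_add (x - y) y p
  rw [sub_add_cancel] at h
  linarith

lemma sr_add_a (x : Herm W) (p : ℝ × ℝ) : L.sr x (p + L.a) = L.sr x p := by
  rw [sr_eq, sr_eq, synth_add_a]

lemma sr_add_b (x : Herm W) (p : ℝ × ℝ) : L.sr x (p + L.b) = L.sr x p := by
  rw [sr_eq, sr_eq, synth_add_b]

lemma sr_per (x : Herm W) : L.Per (L.sr x) := ⟨L.sr_add_a x, L.sr_add_b x⟩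

/-- Continuity of `x, p ↦ sr (f x) p`. -/
lemma continuous_sr_pt {c' : Z2 → ℂ} (hc : Rapid c') : Continuous (fun p => (L.synth c' p).re) :=
  Complex.continuous_re.comp (continuous_synth hc)

/-- Polynomial weights are dominated. -/
def Dom (W : Wt) : Prop := ∀ k : ℕ, ∃ C : ℝ, 0 < C ∧ ∀ n, (1 + nrm n) ^ k ≤ C * W.w n

variable {L}
variable (hW : Dom W)
include hW

lemma rapid_coef (x : Herm W) : Rapid (c x.1) := fun k => by
  obtain ⟨C, hC, hb⟩ := hW k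
  refine Summable.of_nonneg_of_le (fun n => mul_nonneg (norm_nonneg _)
    (pow_nonneg (by linarith [nrm_nonneg n]) _)) (fun n => ?_) ((summable_c x.1).mul_left C)
  calc ‖c x.1 n‖ * (1 + nrm n) ^ k ≤ ‖c x.1 n‖ * (C * W.w n) :=
        mul_le_mul_of_nonneg_left (hb n) (norm_nonneg _)
    _ = _ := by ring

omit hW in
lemma hasPD_synth_re {c' : Z2 → ℂ} (hc : Rapid c') (p : ℝ × ℝ) :
    HasPD (fun q => (L.synth c' q).re) (L.synth (L.d1 c') p).re (L.synth (L.d2 c') p).re p := by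
  have h := hasFDerivAt_synth (L := L) hc p
  have h2 := Complex.reCLM.hasFDerivAt.comp p h
  unfold HasPD
  refine HasFDerivAt.congr_fderiv h2 (ContinuousLinearMap.ext fun v => ?_)
  simp [fstR, sndR]

lemma hasPD_sr {x x₁ x₂ : Herm W} (h1 : c x₁.1 = L.d1 (c x.1)) (h2 : c x₂.1 = L.d2 (c x.1))
    (p : ℝ × ℝ) : HasPD (L.sr x) (L.sr x₁ p) (L.sr x₂ p) p := by
  have h := hasPD_synth_re (L := L) (rapid_coef hW x) p
  rw [← h1, ← h2] at h
  exact h

lemma contDiff_sr (x : Herm W) : Sm (L.sr x) := by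
  have h : ContDiff ℝ ∞ (L.synth (c x.1)) := contDiff_synth (rapid_coef hW x)
  exact Complex.reCLM.contDiff.comp h

omit hW in
lemma continuous_sr_family (hW : Dom W) {X : Type*} [TopologicalSpace X] {f : X → Herm W}
    (hf : Continuous f) : Continuous (fun q : X × (ℝ × ℝ) => L.sr (f q.1) q.2) := by
  rw [continuous_iff_continuousAt]
  rintro ⟨x₀, p₀⟩
  rw [ContinuousAt, Metric.tendsto_nhds]
  intro ε hε
  have hc1 : Continuous (L.sr (f x₀)) := (contDiff_sr hW (f x₀)).continuous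
  have h1 : ∀ᶠ q : X × (ℝ × ℝ) in nhds (x₀, p₀), ‖f q.1 - f x₀‖ < ε / 2 := by
    have : Filter.Tendsto (fun q : X × (ℝ × ℝ) => f q.1) (nhds (x₀, p₀)) (nhds (f x₀)) :=
      (hf.comp continuous_fst).continuousAt
    have h3 := (Metric.tendsto_nhds.1 this) (ε / 2) (by positivity)
    simpa [dist_eq_norm] using h3
  have h2 : ∀ᶠ q : X × (ℝ × ℝ) in nhds (x₀, p₀), |L.sr (f x₀) q.2 - L.sr (f x₀) p₀| < ε / 2 := by
    have : Filter.Tendsto (fun q : X × (ℝ × ℝ) => L.sr (f x₀) q.2) (nhds (x₀, p₀))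
        (nhds (L.sr (f x₀) p₀)) := (hc1.comp continuous_snd).continuousAt
    have h3 := (Metric.tendsto_nhds.1 this) (ε / 2) (by positivity)
    simpa [Real.dist_eq] using h3
  filter_upwards [h1, h2] with q hq1 hq2
  rw [Real.dist_eq]
  have e : L.sr (f q.1) q.2 - L.sr (f x₀) p₀ =
      L.sr (f q.1 - f x₀) q.2 + (L.sr (f x₀) q.2 - L.sr (f x₀) p₀) := by
    rw [sr_sub]; ring
  rw [e]
  have h5 := L.abs_sr_le (f q.1 - f x₀) q.2
  calc _ ≤ |L.sr (f q.1 - f x₀) q.2| + |L.sr (f x₀) q.2 - L.sr (f x₀) p₀| := abs_add_le _ _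
    _ < ε := by linarith

end Lat

namespace Lat
variable {L : Lat} {W : Wt}

/-! ### relations among multipliers -/

lemma c_m1 (y : Herm W) : c (mtp L.m1 y).1 = L.d1 (c (mtp L.mZ y).1) := by
  funext n
  simp only [c_mtp, d1, m1, mZ]
  push_cast
  ring

lemma c_m2 (y : Herm W) : c (mtp L.m2 y).1 = L.d2 (c (mtp L.mZ y).1) := by
  funext n
  simp only [c_mtp, d2, m2, mZ]
  push_cast
  ring

private lemma I_mul_I_mul (a b c d : ℂ) : Complex.I * a * (Complex.I * b * c) * d = -(a * b * c * d) := by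
  have : Complex.I * Complex.I = -1 := Complex.I_mul_I
  linear_combination (a * b * c * d) * this

lemma c_m11 (y : Herm W) : c (mtp L.m11 y).1 = L.d1 (c (mtp L.m1 y).1) := by
  funext n
  simp only [c_mtp, d1, m1, m11]
  push_cast
  have : Complex.I * Complex.I = -1 := Complex.I_mul_I
  linear_combination (-((L.xi1 n : ℂ) * (L.xi1 n : ℂ) / (L.ell n : ℂ) * c y.1 n)) * this

lemma c_m12 (y : Herm W) : c (mtp L.m12 y).1 = L.d2 (c (mtp L.m1 y).1) := by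
  funext n
  simp only [c_mtp, d2, m1, m12]
  push_cast
  have : Complex.I * Complex.I = -1 := Complex.I_mul_I
  linear_combination (-((L.xi1 n : ℂ) * (L.xi2 n : ℂ) / (L.ell n : ℂ) * c y.1 n)) * this

lemma c_m12' (y : Herm W) : c (mtp L.m12 y).1 = L.d1 (c (mtp L.m2 y).1) := by
  funext n
  simp only [c_mtp, d1, m2, m12]
  push_cast
  have : Complex.I * Complex.I = -1 := Complex.I_mul_I
  linear_combination (-((L.xi1 n : ℂ) * (L.xi2 n : ℂ) / (L.ell n : ℂ) * c y.1 n)) * this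

lemma c_m22 (y : Herm W) : c (mtp L.m22 y).1 = L.d2 (c (mtp L.m2 y).1) := by
  funext n
  simp only [c_mtp, d2, m2, m22]
  push_cast
  have : Complex.I * Complex.I = -1 := Complex.I_mul_I
  linear_combination (-((L.xi2 n : ℂ) * (L.xi2 n : ℂ) / (L.ell n : ℂ) * c y.1 n)) * this

end Lat

/-! ### Jets of the data `u` -/

namespace Lat
variable {L : Lat} {W : Wt} {uh : Z2 → ℂ}

lemma norm_d1d1_le (n : Z2) : ‖L.d1 (L.d1 uh) n‖ ≤ L.K ^ 2 * (‖uh n‖ * (1 + nrm n) ^ 2) := by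
  rw [norm_d1, norm_d1]
  have h := L.abs_xi1_le n
  have hn := nrm_nonneg n
  have hK := L.K_nonneg
  have h0 := norm_nonneg (uh n)
  calc |L.xi1 n| * (|L.xi1 n| * ‖uh n‖)
      ≤ (L.K * (1 + nrm n)) * ((L.K * (1 + nrm n)) * ‖uh n‖) := by gcongr
    _ = _ := by ring

lemma norm_d2d1_le (n : Z2) : ‖L.d2 (L.d1 uh) n‖ ≤ L.K ^ 2 * (‖uh n‖ * (1 + nrm n) ^ 2) := by
  rw [norm_d2, norm_d1]
  have h := L.abs_xi1_le n
  have h' := L.abs_xi2_le n
  have hn := nrm_nonneg n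
  have hK := L.K_nonneg
  have h0 := norm_nonneg (uh n)
  calc |L.xi2 n| * (|L.xi1 n| * ‖uh n‖)
      ≤ (L.K * (1 + nrm n)) * ((L.K * (1 + nrm n)) * ‖uh n‖) := by gcongr
    _ = _ := by ring

lemma norm_d2d2_le (n : Z2) : ‖L.d2 (L.d2 uh) n‖ ≤ L.K ^ 2 * (‖uh n‖ * (1 + nrm n) ^ 2) := by
  rw [norm_d2, norm_d2]
  have h' := L.abs_xi2_le n
  have hn := nrm_nonneg n
  have hK := L.K_nonneg
  have h0 := norm_nonneg (uh n)
  calc |L.xi2 n| * (|L.xi2 n| * ‖uh n‖)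
      ≤ (L.K * (1 + nrm n)) * ((L.K * (1 + nrm n)) * ‖uh n‖) := by gcongr
    _ = _ := by ring

lemma norm_d1_le (n : Z2) : ‖L.d1 uh n‖ ≤ L.K * (‖uh n‖ * (1 + nrm n) ^ 2) := by
  rw [norm_d1]
  have h := L.abs_xi1_le n
  have hn := nrm_nonneg n
  have hK := L.K_nonneg
  have h0 := norm_nonneg (uh n)
  have h1 : (1 + nrm n) ≤ (1 + nrm n) ^ 2 := by nlinarith
  calc |L.xi1 n| * ‖uh n‖ ≤ (L.K * (1 + nrm n)) * ‖uh n‖ := by gcongr
    _ ≤ (L.K * (1 + nrm n) ^ 2) * ‖uh n‖ := by gcongr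
    _ = _ := by ring

lemma norm_d2_le (n : Z2) : ‖L.d2 uh n‖ ≤ L.K * (‖uh n‖ * (1 + nrm n) ^ 2) := by
  rw [norm_d2]
  have h := L.abs_xi2_le n
  have hn := nrm_nonneg n
  have hK := L.K_nonneg
  have h0 := norm_nonneg (uh n)
  have h1 : (1 + nrm n) ≤ (1 + nrm n) ^ 2 := by nlinarith
  calc |L.xi2 n| * ‖uh n‖ ≤ (L.K * (1 + nrm n)) * ‖uh n‖ := by gcongr
    _ ≤ (L.K * (1 + nrm n) ^ 2) * ‖uh n‖ := by gcongr
    _ = _ := by ring

/-- Hermitian-ness of derivatives. -/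
lemma herm_d1 {f : Z2 → ℂ} (hf : ∀ n, f (-n) = conj (f n)) (n : Z2) :
    L.d1 f (-n) = conj (L.d1 f n) := by
  unfold d1
  rw [hf, xi1_neg, map_mul, map_mul, Complex.conj_I, Complex.conj_ofReal]
  push_cast
  ring

lemma herm_d2 {f : Z2 → ℂ} (hf : ∀ n, f (-n) = conj (f n)) (n : Z2) :
    L.d2 f (-n) = conj (L.d2 f n) := by
  unfold d2
  rw [hf, xi2_neg, map_mul, map_mul, Complex.conj_I, Complex.conj_ofReal]
  push_cast
  ring

/-- Make an element from a sequence. -/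
noncomputable def mkH (f : Z2 → ℂ) (h : Summable (fun n => ‖f n‖ * W.w n))
    (hh : ∀ n, f (-n) = conj (f n)) : Herm W :=
  ⟨Alg.mk f h, fun n => by rw [c_mk, c_mk]; exact hh n⟩

@[simp] lemma c_mkH (f : Z2 → ℂ) (h : Summable (fun n => ‖f n‖ * W.w n))
    (hh : ∀ n, f (-n) = conj (f n)) : c (mkH f h hh : Herm W).1 = f :=
  funext (fun n => Alg.c_mk f h n)

/-- Summability from the second moment. -/
lemma summable_of_le {f : Z2 → ℂ} {k : ℝ}
    (hs : Summable (fun n => (‖uh n‖ * (1 + nrm n) ^ 2) * W.w n))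
    (hf : ∀ n, ‖f n‖ ≤ k * (‖uh n‖ * (1 + nrm n) ^ 2)) : Summable (fun n => ‖f n‖ * W.w n) := by
  refine Summable.of_nonneg_of_le (fun n => mul_nonneg (norm_nonneg _) (W.nonneg n)) (fun n => ?_)
    (hs.mul_left k)
  calc ‖f n‖ * W.w n ≤ (k * (‖uh n‖ * (1 + nrm n) ^ 2)) * W.w n :=
        mul_le_mul_of_nonneg_right (hf n) (W.nonneg n)
    _ = _ := by ring

/-- The second-order data of `u` in the algebra. -/
noncomputable def mkU (huh : ∀ n, uh (-n) = conj (uh n))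
    (hs : Summable (fun n => (‖uh n‖ * (1 + nrm n) ^ 2) * W.w n)) : UData W where
  U1 := mkH (L.d1 uh) (summable_of_le hs norm_d1_le) (herm_d1 huh)
  U2 := mkH (L.d2 uh) (summable_of_le hs norm_d2_le) (herm_d2 huh)
  U11 := mkH (L.d1 (L.d1 uh)) (summable_of_le hs norm_d1d1_le) (herm_d1 (herm_d1 huh))
  U12 := mkH (L.d2 (L.d1 uh)) (summable_of_le hs norm_d2d1_le) (herm_d2 (herm_d1 huh))
  U22 := mkH (L.d2 (L.d2 uh)) (summable_of_le hs norm_d2d2_le) (herm_d2 (herm_d2 huh))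

lemma d1_d2_comm (f : Z2 → ℂ) : L.d1 (L.d2 f) = L.d2 (L.d1 f) := by
  funext n
  simp only [d1, d2]
  ring

section
variable (hW : Dom W) (huh : ∀ n, uh (-n) = conj (uh n))
    (hs : Summable (fun n => (‖uh n‖ * (1 + nrm n) ^ 2) * W.w n))
    (hr : Rapid uh)
include hW

/-- `u` as a function. -/
noncomputable def ru (L : Lat) (uh : Z2 → ℂ) (p : ℝ × ℝ) : ℝ := (L.synth uh p).re

include hr
lemma hasPD_ru (p : ℝ × ℝ) : HasPD (ru L uh) (L.sr (mkU (L := L) huh hs).U1 p)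
    (L.sr (mkU (L := L) huh hs).U2 p) p := by
  have h := hasPD_synth_re (L := L) hr p
  have e1 : L.synth (L.d1 uh) p = L.synth (c (mkU (L := L) huh hs).U1.1) p := by
    simp [mkU]
  have e2 : L.synth (L.d2 uh) p = L.synth (c (mkU (L := L) huh hs).U2.1) p := by
    simp [mkU]
  rw [e1, e2] at h
  exact h

omit hr in
lemma hasPD_U1 (p : ℝ × ℝ) : HasPD (L.sr (mkU (L := L) huh hs).U1)
    (L.sr (mkU (L := L) huh hs).U11 p) (L.sr (mkU (L := L) huh hs).U12 p) p :=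
  hasPD_sr hW (by simp [mkU]) (by simp [mkU]) p

omit hr in
lemma hasPD_U2 (p : ℝ × ℝ) : HasPD (L.sr (mkU (L := L) huh hs).U2)
    (L.sr (mkU (L := L) huh hs).U12 p) (L.sr (mkU (L := L) huh hs).U22 p) p :=
  hasPD_sr hW (by simp [mkU, d1_d2_comm]) (by simp [mkU]) p

end

end Lat

/-! ### Evaluation of the equation -/

namespace Lat
variable {L : Lat} {W : Wt}

/-- The equation at a point. -/
lemma Gmap_eval (U : UData W) {s : ℝ} {y : Herm W} (h : L.Gmap U s y = 0) (p : ℝ × ℝ) :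
    PiE s (1 + L.sr (mtp L.mZ y) p) (L.sr (mtp L.m1 y) p) (L.sr (mtp L.m2 y) p)
      (L.sr (mtp L.m11 y) p) (L.sr (mtp L.m12 y) p) (L.sr (mtp L.m22 y) p)
      (L.sr U.U1 p) (L.sr U.U2 p) (L.sr U.U11 p) (L.sr U.U12 p) (L.sr U.U22 p) + meanL y = 0 := by
  have h1 : L.sr (L.Gmap U s y) p = 0 := by rw [h, sr_zero]
  unfold Gmap at h1
  rw [sr_add, sr_smul, sr_one, mul_one] at h1
  have h2 := map_PiE (evHom (W := W) (L.chr p)) (s • (1 : Herm W)) (1 + mtp L.mZ y) (mtp L.m1 y)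
    (mtp L.m2 y) (mtp L.m11 y) (mtp L.m12 y) (mtp L.m22 y) U.U1 U.U2 U.U11 U.U12 U.U22
  simp only [evHom_apply] at h2
  have e1 : ev (L.chr p) (s • (1 : Herm W)) = s := by
    rw [ev_smul, ev_one, mul_one]
  have e2 : ev (L.chr p) (1 + mtp L.mZ y) = 1 + L.sr (mtp L.mZ y) p := by
    rw [ev_add, ev_one]; rfl
  rw [e1, e2] at h2
  have e3 : L.sr (PiE (s • (1 : Herm W)) (1 + mtp L.mZ y) (mtp L.m1 y)
    (mtp L.m2 y) (mtp L.m11 y) (mtp L.m12 y) (mtp L.m22 y) U.U1 U.U2 U.U11 U.U12 U.U22) p =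
      ev (L.chr p) (PiE (s • (1 : Herm W)) (1 + mtp L.mZ y) (mtp L.m1 y)
    (mtp L.m2 y) (mtp L.m11 y) (mtp L.m12 y) (mtp L.m22 y) U.U1 U.U2 U.U11 U.U12 U.U22) := rfl
  rw [e3, h2] at h1
  exact h1

end Lat

end Vale.Agent.P205
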