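import Vale.Agent.P205.FourierData

/-!
# The multipliers inverting the Laplacian on the weighted algebra
-/

namespace Vale.Agent.P205

open scoped ContDiff ComplexConjugate Real
open Alg

namespace Lat
variable (L : Lat)

/-- `|ξ(n)|²`. -/
noncomputable def xs (n : Z2) : ℝ := (L.xi1 n) ^ 2 + (L.xi2 n) ^ 2

lemma xs_nonneg (n : Z2) : 0 ≤ L.xs n := by unfold xs; positivity

lemma xs_neg (n : Z2) : L.xs (-n) = L.xs n := by
  unfold xs; rw [xi1_neg, xi2_neg]; ring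

/-- the lower bound constant -/
noncomputable def c0 : ℝ :=
  (2 * π) ^ 2 / (L.a.1 ^ 2 + L.a.2 ^ 2 + L.b.1 ^ 2 + L.b.2 ^ 2)

lemma den_pos : 0 < L.a.1 ^ 2 + L.a.2 ^ 2 + L.b.1 ^ 2 + L.b.2 ^ 2 := by
  have h := L.det_ne
  by_contra hcon
  have h0 : L.a.1 ^ 2 + L.a.2 ^ 2 + L.b.1 ^ 2 + L.b.2 ^ 2 = 0 :=
    le_antisymm (not_lt.1 hcon) (by positivity)
  have h1 : L.a.1 = 0 := by nlinarith [sq_nonneg L.a.1, sq_nonneg L.a.2, sq_nonneg L.b.1, sq_nonneg L.b.2]
  have h2 : L.a.2 = 0 := by nlinarith [sq_nonneg L.a.1, sq_nonneg L.a.2, sq_nonneg L.b.1, sq_nonneg L.b.2]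
  apply h
  rw [h1, h2]; ring

lemma c0_pos : 0 < L.c0 := by
  unfold c0
  have := L.den_pos
  positivity

lemma xs_lower {n : Z2} (hn : n ≠ 0) : L.c0 ≤ L.xs n := by
  have h1 := L.ph_a n
  have h2 := L.ph_b n
  have hd := L.den_pos
  unfold c0
  rw [div_le_iff₀ hd]
  have h3 : (2 * π * n.1) ^ 2 ≤ L.xs n * (L.a.1 ^ 2 + L.a.2 ^ 2) := by
    rw [← h1]; unfold xs
    nlinarith [sq_nonneg (L.xi1 n * L.a.2 - L.xi2 n * L.a.1)]
  have h4 : (2 * π * n.2) ^ 2 ≤ L.xs n * (L.b.1 ^ 2 + L.b.2 ^ 2) := by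
    rw [← h2]; unfold xs
    nlinarith [sq_nonneg (L.xi1 n * L.b.2 - L.xi2 n * L.b.1)]
  have h5 : (1:ℝ) ≤ (n.1 : ℝ) ^ 2 + (n.2 : ℝ) ^ 2 := by
    have h6 : (1:ℤ) ≤ n.1 ^ 2 + n.2 ^ 2 := by
      by_contra hcon
      have h7 : n.1 ^ 2 + n.2 ^ 2 = 0 := by
        have := sq_nonneg n.1
        have := sq_nonneg n.2
        omega
      have h8 : n.1 = 0 := by nlinarith [sq_nonneg n.1, sq_nonneg n.2]
      have h9 : n.2 = 0 := by nlinarith [sq_nonneg n.1, sq_nonneg n.2]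
      exact hn (Prod.ext h8 h9)
    exact_mod_cast h6
  have h10 : (0:ℝ) ≤ (2 * π) ^ 2 := by positivity
  nlinarith

/-- the symbol of the Laplacian, with the mean modified -/
noncomputable def ell (n : Z2) : ℝ := if n = 0 then 1 else - L.xs n

lemma ell_neg (n : Z2) : L.ell (-n) = L.ell n := by
  unfold ell
  simp [xs_neg]

lemma ell_zero : L.ell 0 = 1 := by simp [ell]

lemma ell_of_ne {n : Z2} (hn : n ≠ 0) : L.ell n = - L.xs n := by simp [ell, hn]

lemma xs_pos {n : Z2} (hn : n ≠ 0) : 0 < L.xs n := lt_of_lt_of_le L.c0_pos (L.xs_lower hn)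

lemma ell_ne (n : Z2) : L.ell n ≠ 0 := by
  by_cases hn : n = 0
  · subst hn; rw [ell_zero]; exact one_ne_zero
  · rw [ell_of_ne L hn]; exact neg_ne_zero.2 (L.xs_pos hn).ne'

/-- bound constant -/
noncomputable def B0 : ℝ := 1 + 1 / L.c0

lemma one_le_B0 : 1 ≤ L.B0 := by
  have := L.c0_pos
  unfold B0
  have : 0 < 1 / L.c0 := by positivity
  linarith

lemma abs_inv_ell_le (n : Z2) : |1 / L.ell n| ≤ L.B0 := by
  by_cases hn : n = 0
  · subst hn; rw [ell_zero]; simpa using L.one_le_B0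
  · rw [ell_of_ne L hn, abs_div, abs_neg, abs_of_pos (L.xs_pos hn), abs_one]
    have h1 := L.c0_pos
    have h2 := L.xs_lower hn
    have h3 : 1 / L.xs n ≤ 1 / L.c0 := one_div_le_one_div_of_le h1 h2
    unfold B0
    linarith

lemma abs_xi_div_le {x : ℝ} {n : Z2} (hx : x ^ 2 ≤ L.xs n) (h0 : n = 0 → x = 0) :
    |x / L.ell n| ≤ L.B0 := by
  by_cases hn : n = 0
  · rw [h0 hn]; simpa using le_trans zero_le_one L.one_le_B0
  · rw [ell_of_ne L hn, abs_div, abs_neg, abs_of_pos (L.xs_pos hn)]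
    have h1 := L.c0_pos
    have h2 := L.xs_lower hn
    have h3 : 1 / L.xs n ≤ 1 / L.c0 := one_div_le_one_div_of_le h1 h2
    have h4 := L.xs_pos hn
    rw [div_le_iff₀ h4]
    have h5 : |x| ≤ 1 + L.xs n := by
      rw [abs_le]; constructor <;> nlinarith [sq_nonneg (x - 1), sq_nonneg (x + 1)]
    have h6 : (1 + L.xs n) = (1 + 1 / L.xs n) * L.xs n := by field_simp; ring
    have h7 : (1 + 1 / L.xs n) * L.xs n ≤ L.B0 * L.xs n := by
      apply mul_le_mul_of_nonneg_right _ h4.le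
      unfold B0; linarith
    linarith

lemma abs_quad_div_le {x y : ℝ} {n : Z2} (hx : x ^ 2 ≤ L.xs n) (hy : y ^ 2 ≤ L.xs n)
    (h0 : n = 0 → x = 0) : |x * y / L.ell n| ≤ 1 := by
  by_cases hn : n = 0
  · rw [h0 hn]; simp
  · rw [ell_of_ne L hn, abs_div, abs_neg, abs_of_pos (L.xs_pos hn), div_le_one (L.xs_pos hn), abs_mul]
    have h1 : (|x| * |y|) ^ 2 ≤ (L.xs n) ^ 2 := by
      rw [mul_pow, sq_abs, sq_abs, sq (L.xs n)]
      exact mul_le_mul hx hy (sq_nonneg _) (L.xs_nonneg n)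
    exact (abs_le_of_sq_le_sq' h1 (L.xs_nonneg n)).2

lemma xi1_sq_le (n : Z2) : (L.xi1 n) ^ 2 ≤ L.xs n := by
  unfold xs; nlinarith [sq_nonneg (L.xi2 n)]
lemma xi2_sq_le (n : Z2) : (L.xi2 n) ^ 2 ≤ L.xs n := by
  unfold xs; nlinarith [sq_nonneg (L.xi1 n)]

/-- `Δ⁻¹` (with the mean preserved). -/
noncomputable def mZ : Mtp where
  μ := fun n => ((1 / L.ell n : ℝ) : ℂ)
  C := L.B0
  bound := fun n => by
    rw [Complex.norm_real]; exact L.abs_inv_ell_le n
  herm := fun n => by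
    rw [ell_neg, Complex.conj_ofReal]

/-- `∂₁ Δ⁻¹`. -/
noncomputable def m1 : Mtp where
  μ := fun n => Complex.I * ((L.xi1 n / L.ell n : ℝ) : ℂ)
  C := L.B0
  bound := fun n => by
    rw [norm_mul, Complex.norm_I, one_mul, Complex.norm_real]
    exact L.abs_xi_div_le (L.xi1_sq_le n) (fun h => by rw [h, xi1_zero])
  herm := fun n => by
    rw [ell_neg, xi1_neg, map_mul, Complex.conj_I, Complex.conj_ofReal]
    push_cast
    ring

/-- `∂₂ Δ⁻¹`. -/
noncomputable def m2 : Mtp where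
  μ := fun n => Complex.I * ((L.xi2 n / L.ell n : ℝ) : ℂ)
  C := L.B0
  bound := fun n => by
    rw [norm_mul, Complex.norm_I, one_mul, Complex.norm_real]
    exact L.abs_xi_div_le (L.xi2_sq_le n) (fun h => by rw [h, xi2_zero])
  herm := fun n => by
    rw [ell_neg, xi2_neg, map_mul, Complex.conj_I, Complex.conj_ofReal]
    push_cast
    ring

/-- `∂₁∂₁ Δ⁻¹`. -/
noncomputable def m11 : Mtp where
  μ := fun n => ((- (L.xi1 n * L.xi1 n / L.ell n) : ℝ) : ℂ)
  C := 1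
  bound := fun n => by
    rw [Complex.norm_real, Real.norm_eq_abs, abs_neg]
    exact L.abs_quad_div_le (L.xi1_sq_le n) (L.xi1_sq_le n) (fun h => by rw [h, xi1_zero])
  herm := fun n => by
    rw [ell_neg, xi1_neg, Complex.conj_ofReal]
    congr 2
    ring

/-- `∂₁∂₂ Δ⁻¹`. -/
noncomputable def m12 : Mtp where
  μ := fun n => ((- (L.xi1 n * L.xi2 n / L.ell n) : ℝ) : ℂ)
  C := 1
  bound := fun n => by
    rw [Complex.norm_real, Real.norm_eq_abs, abs_neg]
    exact L.abs_quad_div_le (L.xi1_sq_le n) (L.xi2_sq_le n) (fun h => by rw [h, xi1_zero])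
  herm := fun n => by
    rw [ell_neg, xi1_neg, xi2_neg, Complex.conj_ofReal]
    congr 2
    ring

/-- `∂₂∂₂ Δ⁻¹`. -/
noncomputable def m22 : Mtp where
  μ := fun n => ((- (L.xi2 n * L.xi2 n / L.ell n) : ℝ) : ℂ)
  C := 1
  bound := fun n => by
    rw [Complex.norm_real, Real.norm_eq_abs, abs_neg]
    exact L.abs_quad_div_le (L.xi2_sq_le n) (L.xi2_sq_le n) (fun h => by rw [h, xi2_zero])
  herm := fun n => by
    rw [ell_neg, xi2_neg, Complex.conj_ofReal]
    congr 2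
    ring

variable {W : Wt}

/-- mean value as a linear functional on the algebra. -/
noncomputable def meanL : Herm W →L[ℝ] ℝ :=
  LinearMap.mkContinuous
    { toFun := fun y => (c y.1 0).re
      map_add' := fun x y => by simp
      map_smul' := fun r x => by simp }
    1 (fun y => by
      simp only [LinearMap.coe_mk, AddHom.coe_mk, one_mul, Real.norm_eq_abs]
      exact le_trans (Complex.abs_re_le_norm _) (norm_c_le' _ _))

lemma c_zero_real (y : Herm W) : c y.1 0 = ((meanL y : ℝ) : ℂ) := by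
  have h : c y.1 (-0) = conj (c y.1 0) := y.2 0
  rw [neg_zero] at h
  have h2 : conj (c y.1 0) = c y.1 0 := h.symm
  have h3 := Complex.conj_eq_iff_im.1 h2
  apply Complex.ext
  · rfl
  · simp [h3]

/-- `Δ Δ⁻¹ y = y - mean y`. -/
lemma laplace_rel (y : Herm W) :
    mtp L.m11 y + mtp L.m22 y = y - (meanL y) • (1 : Herm W) := by
  apply Subtype.ext
  ext n
  have hc : c ((mtp L.m11 y + mtp L.m22 y : Herm W)).1 n = c (mtp L.m11 y).1 n + c (mtp L.m22 y).1 n :=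
    c_add _ _ _
  have hd : c ((y - (meanL y) • (1 : Herm W) : Herm W)).1 n =
      c y.1 n - c ((meanL y) • (1 : Herm W)).1 n := c_sub _ _ _
  have he : c ((meanL y) • (1 : Herm W)).1 n = (meanL y : ℝ) * c (1 : Alg W) n := c_smul _ _ _
  rw [hc, hd, he, c_mtp, c_mtp, c_one]
  by_cases hn : n = 0
  · subst hn
    simp only [m11, m22, xi1_zero, xi2_zero, if_true, mul_one]
    rw [← c_zero_real y]
    simp
  · have h1 := L.xs_pos hn
    simp only [m11, m22, hn, if_false, mul_zero, sub_zero]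
    rw [ell_of_ne L hn, ← add_mul]
    have h2 : ((-(L.xi1 n * L.xi1 n / -L.xs n) : ℝ) : ℂ) + ((-(L.xi2 n * L.xi2 n / -L.xs n) : ℝ) : ℂ) = 1 := by
      have h3 : -(L.xi1 n * L.xi1 n / -L.xs n) + -(L.xi2 n * L.xi2 n / -L.xs n) = 1 := by
        unfold xs at h1 ⊢
        field_simp
      exact_mod_cast h3
    rw [h2, one_mul]

lemma c_zero_mZ (y : Herm W) : c (mtp L.mZ y).1 0 = c y.1 0 := by
  rw [c_mtp]
  simp [mZ, ell_zero]

end Lat

end Vale.Agent.P205
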