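import Vale.Agent.P205.FlatMetric

/-!
# The flat metric attached to a solution of the equation
-/

namespace Vale.Agent.P205

open scoped ContDiff
open Alg

set_option linter.unusedSectionVars false

namespace Lat

variable (L : Lat) {W : Wt} (U : UData W)

/-- The conformal correction. -/
noncomputable def phi (y : Herm W) (p : ℝ × ℝ) : ℝ := 1 + L.sr (mtp L.mZ y) p

/-- First derivative of `τ = e (u - log φ)`. -/
noncomputable def T1 (e : ℝ) (y : Herm W) (p : ℝ × ℝ) : ℝ :=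
  e * (L.sr U.U1 p - L.sr (mtp L.m1 y) p / L.phi y p)
/-- First derivative of `τ`. -/
noncomputable def T2 (e : ℝ) (y : Herm W) (p : ℝ × ℝ) : ℝ :=
  e * (L.sr U.U2 p - L.sr (mtp L.m2 y) p / L.phi y p)
/-- Second derivative of `τ`. -/
noncomputable def T11 (e : ℝ) (y : Herm W) (p : ℝ × ℝ) : ℝ :=
  e * (L.sr U.U11 p - L.sr (mtp L.m11 y) p / L.phi y p + L.sr (mtp L.m1 y) p ^ 2 / L.phi y p ^ 2)
/-- Second derivative of `τ`. -/
noncomputable def T12 (e : ℝ) (y : Herm W) (p : ℝ × ℝ) : ℝ :=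
  e * (L.sr U.U12 p - L.sr (mtp L.m12 y) p / L.phi y p
    + L.sr (mtp L.m1 y) p * L.sr (mtp L.m2 y) p / L.phi y p ^ 2)
/-- Second derivative of `τ`. -/
noncomputable def T22 (e : ℝ) (y : Herm W) (p : ℝ × ℝ) : ℝ :=
  e * (L.sr U.U22 p - L.sr (mtp L.m22 y) p / L.phi y p + L.sr (mtp L.m2 y) p ^ 2 / L.phi y p ^ 2)

variable {L U}

/-- The relations among the jets of `u`. -/
structure UJets (L : Lat) (U : UData W) : Prop where
  d1 : ∀ p, HasPD (L.sr U.U1) (L.sr U.U11 p) (L.sr U.U12 p) p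
  d2 : ∀ p, HasPD (L.sr U.U2) (L.sr U.U12 p) (L.sr U.U22 p) p

variable (hW : Dom W) (hU : UJets L U) {y : Herm W} {e : ℝ}
include hW

omit hW in
lemma phi_per (y : Herm W) : L.Per (L.phi y) :=
  ⟨fun p => by simp only [phi, sr_add_a], fun p => by simp only [phi, sr_add_b]⟩

lemma Sm_phi (y : Herm W) : Sm (L.phi y) :=
  contDiff_const.add (contDiff_sr hW _)

lemma hasPD_phi (y : Herm W) (p : ℝ × ℝ) :
    HasPD (L.phi y) (L.sr (mtp L.m1 y) p) (L.sr (mtp L.m2 y) p) p :=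
  ((hasPD_const 1 p).add (hasPD_sr hW (c_m1 y) (c_m2 y) p)).congr (zero_add _) (zero_add _)

lemma hasPD_z1 (y : Herm W) (p : ℝ × ℝ) :
    HasPD (L.sr (mtp L.m1 y)) (L.sr (mtp L.m11 y) p) (L.sr (mtp L.m12 y) p) p :=
  hasPD_sr hW (c_m11 y) (c_m12 y) p

lemma hasPD_z2 (y : Herm W) (p : ℝ × ℝ) :
    HasPD (L.sr (mtp L.m2 y)) (L.sr (mtp L.m12 y) p) (L.sr (mtp L.m22 y) p) p :=
  hasPD_sr hW (c_m12' y) (c_m22 y) p

variable (hphi : ∀ p, 0 < L.phi y p)
include hU hphi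

lemma hasPD_T1 (e : ℝ) (p : ℝ × ℝ) :
    HasPD (L.T1 U e y) (L.T11 U e y p) (L.T12 U e y p) p := by
  have h0 := (hphi p).ne'
  have h := ((hU.d1 p).sub ((hasPD_z1 (L := L) hW y p).div (hasPD_phi (L := L) hW y p) h0)).const_mul e
  refine h.congr ?_ ?_
  · unfold T11
    field_simp
    ring
  · unfold T12
    field_simp
    ring

lemma hasPD_T2 (e : ℝ) (p : ℝ × ℝ) :
    HasPD (L.T2 U e y) (L.T12 U e y p) (L.T22 U e y p) p := by
  have h0 := (hphi p).ne'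
  have h := ((hU.d2 p).sub ((hasPD_z2 (L := L) hW y p).div (hasPD_phi (L := L) hW y p) h0)).const_mul e
  refine h.congr ?_ ?_
  · unfold T12
    field_simp
    ring
  · unfold T22
    field_simp
    ring

omit hU in
lemma Sm_T1 (e : ℝ) : Sm (L.T1 U e y) :=
  contDiff_const.mul ((contDiff_sr hW _).sub ((contDiff_sr hW _).div (Sm_phi (L := L) hW y)
    (fun p => (hphi p).ne')))

omit hU in
lemma Sm_T2 (e : ℝ) : Sm (L.T2 U e y) :=
  contDiff_const.mul ((contDiff_sr hW _).sub ((contDiff_sr hW _).div (Sm_phi (L := L) hW y)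
    (fun p => (hphi p).ne')))

omit hW hU hphi in
lemma T1_per (e : ℝ) (y : Herm W) : L.Per (L.T1 U e y) :=
  ⟨fun p => by simp only [T1, phi, sr_add_a], fun p => by simp only [T1, phi, sr_add_b]⟩

omit hW hU hphi in
lemma T2_per (e : ℝ) (y : Herm W) : L.Per (L.T2 U e y) :=
  ⟨fun p => by simp only [T2, phi, sr_add_a], fun p => by simp only [T2, phi, sr_add_b]⟩

/-- The curvature equation for the metric attached to a solution. -/
lemma PiP_param (hG : L.Gmap U (e ^ 2) y = 0) (p : ℝ × ℝ) :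
    PiP (L.phi y p) (dx (L.phi y) p) (dy (L.phi y) p) (dx (dx (L.phi y)) p) (dy (dx (L.phi y)) p)
      (dy (dy (L.phi y)) p) (L.T1 U e y p) (L.T2 U e y p) (dx (L.T1 U e y) p) (dy (L.T1 U e y) p)
      (dy (L.T2 U e y) p) = - meanL y := by
  have e1 : dx (L.phi y) = L.sr (mtp L.m1 y) := funext fun q => (hasPD_phi (L := L) hW y q).dx
  have e2 : dy (L.phi y) = L.sr (mtp L.m2 y) := funext fun q => (hasPD_phi (L := L) hW y q).dy
  rw [e1, e2, (hasPD_z1 (L := L) hW y p).dx, (hasPD_z1 (L := L) hW y p).dy, (hasPD_z2 (L := L) hW y p).dy,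
    (hasPD_T1 hW hU hphi e p).dx, (hasPD_T1 hW hU hphi e p).dy, (hasPD_T2 hW hU hphi e p).dy]
  unfold T1 T2 T11 T12 T22
  rw [PiP_eq_PiE _ _ _ _ _ _ _ _ _ _ _ _ (hphi p).ne']
  have h := Gmap_eval U hG p
  have e3 : L.phi y p = 1 + L.sr (mtp L.mZ y) p := rfl
  rw [e3]
  linarith

/-- Existence of a development for a solution of the equation. -/
theorem exists_dev_param (hG : L.Gmap U (e ^ 2) y = 0)
    (hlt : ∀ p, L.T1 U e y p ^ 2 + L.T2 U e y p ^ 2 < L.phi y p ^ 2) :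
    ∃ θ Ψ₁ Ψ₂, Dev (GE (L.phi y) (L.T1 U e y)) (GF (L.T1 U e y) (L.T2 U e y))
      (GH (L.phi y) (L.T2 U e y)) θ Ψ₁ Ψ₂ :=
  flat_dev (L := L) (Sm_phi (L := L) hW y) (Sm_T1 hW hphi e) (Sm_T2 hW hphi e)
    (fun p => by
      rw [(hasPD_T1 hW hU hphi e p).dy, (hasPD_T2 hW hU hphi e p).dx])
    (phi_per y) (T1_per e y) (T2_per e y) hphi hlt (PiP_param hW hU hphi hG)

end Lat

end Vale.Agent.P205
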