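import Mathlib

/-!
# Partial derivative calculus on the plane
-/

namespace Vale.Agent.P205

open scoped ContDiff

/-- First coordinate functional. -/
noncomputable abbrev fstR : ℝ × ℝ →L[ℝ] ℝ := ContinuousLinearMap.fst ℝ ℝ ℝ
/-- Second coordinate functional. -/
noncomputable abbrev sndR : ℝ × ℝ →L[ℝ] ℝ := ContinuousLinearMap.snd ℝ ℝ ℝ

/-- Having partial derivatives `a`, `b` (Fréchet sense). -/
def HasPD (f : ℝ × ℝ → ℝ) (a b : ℝ) (p : ℝ × ℝ) : Prop := HasFDerivAt f (a • fstR + b • sndR) p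

/-- `x`-derivative -/
noncomputable def dx (f : ℝ × ℝ → ℝ) (p : ℝ × ℝ) : ℝ := fderiv ℝ f p (1, 0)
/-- `y`-derivative -/
noncomputable def dy (f : ℝ × ℝ → ℝ) (p : ℝ × ℝ) : ℝ := fderiv ℝ f p (0, 1)

/-- Smooth functions. -/
abbrev Sm (f : ℝ × ℝ → ℝ) : Prop := ContDiff ℝ ∞ f

variable {f g : ℝ × ℝ → ℝ} {a b c d : ℝ} {p : ℝ × ℝ}

lemma HasPD.apply (h : HasPD f a b p) (v : ℝ × ℝ) : fderiv ℝ f p v = a * v.1 + b * v.2 := by
  rw [HasFDerivAt.fderiv h]
  simp [fstR, sndR]

lemma HasPD.dx (h : HasPD f a b p) : dx f p = a := by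
  unfold Vale.Agent.P205.dx; rw [h.apply]; simp

lemma HasPD.dy (h : HasPD f a b p) : dy f p = b := by
  unfold Vale.Agent.P205.dy; rw [h.apply]; simp

lemma fderiv_eq_of_differentiable (hf : DifferentiableAt ℝ f p) :
    fderiv ℝ f p = (dx f p) • fstR + (dy f p) • sndR := by
  refine ContinuousLinearMap.ext (fun v => ?_)
  have e : v = v.1 • ((1:ℝ), (0:ℝ)) + v.2 • ((0:ℝ), (1:ℝ)) := by
    ext <;> simp
  conv_lhs => rw [e]
  rw [map_add, map_smul, map_smul]
  simp [fstR, sndR, Vale.Agent.P205.dx, Vale.Agent.P205.dy]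
  ring

lemma hasPD_of_diff (hf : DifferentiableAt ℝ f p) : HasPD f (dx f p) (dy f p) p := by
  unfold HasPD
  rw [← fderiv_eq_of_differentiable hf]
  exact hf.hasFDerivAt

lemma Sm.differentiable (hf : Sm f) : Differentiable ℝ f :=
  ContDiff.differentiable hf (by simp)

lemma Sm.hasPD (hf : Sm f) (p : ℝ × ℝ) : HasPD f (dx f p) (dy f p) p :=
  hasPD_of_diff (hf.differentiable p)

lemma Sm.dx (hf : Sm f) : Sm (dx f) := by
  have h : ContDiff ℝ ∞ (fderiv ℝ f) := hf.fderiv_right (m := ∞) (by simp)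
  exact h.clm_apply contDiff_const

lemma Sm.dy (hf : Sm f) : Sm (dy f) := by
  have h : ContDiff ℝ ∞ (fderiv ℝ f) := hf.fderiv_right (m := ∞) (by simp)
  exact h.clm_apply contDiff_const

lemma dx_dy_comm (hf : Sm f) (p : ℝ × ℝ) : dx (dy f) p = dy (dx f) p := by
  have h1 : ContDiff ℝ ∞ (fderiv ℝ f) := hf.fderiv_right (m := ∞) (by simp)
  have h2 : Differentiable ℝ (fderiv ℝ f) := h1.differentiable (by simp)
  have hsymm : IsSymmSndFDerivAt ℝ f p :=
    (hf.contDiffAt (x := p)).isSymmSndFDerivAt (by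
      simp only [minSmoothness_of_isRCLikeNormedField]
      exact WithTop.coe_le_coe.2 (le_top : (2:ℕ∞) ≤ ⊤))
  have e1 : ∀ v w : ℝ × ℝ, fderiv ℝ (fun q => fderiv ℝ f q w) p v = fderiv ℝ (fderiv ℝ f) p v w := by
    intro v w
    have h3 : HasFDerivAt (fun q => fderiv ℝ f q w)
        ((fderiv ℝ (fderiv ℝ f) p).flip w) p :=
      (h2 p).hasFDerivAt.clm_apply (hasFDerivAt_const w p) |>.congr_fderiv
        (ContinuousLinearMap.ext fun v => by simp)
    rw [h3.fderiv]
    rfl
  unfold Vale.Agent.P205.dx Vale.Agent.P205.dy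
  rw [e1, e1]
  exact hsymm _ _

lemma HasPD.congr (h : HasPD f a b p) (ha : a = c) (hb : b = d) : HasPD f c d p := by
  rw [← ha, ← hb]; exact h

lemma HasPD.differentiableAt (h : HasPD f a b p) : DifferentiableAt ℝ f p :=
  HasFDerivAt.differentiableAt h

lemma hasPD_const (k : ℝ) (p : ℝ × ℝ) : HasPD (fun _ => k) 0 0 p := by
  unfold HasPD
  simpa using hasFDerivAt_const k p

lemma hasPD_fst (p : ℝ × ℝ) : HasPD (fun q => q.1) 1 0 p := by
  unfold HasPD
  simpa using (hasFDerivAt_fst (𝕜 := ℝ) (p := p))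

lemma hasPD_snd (p : ℝ × ℝ) : HasPD (fun q => q.2) 0 1 p := by
  unfold HasPD
  simpa using (hasFDerivAt_snd (𝕜 := ℝ) (p := p))

lemma HasPD.add (hf : HasPD f a b p) (hg : HasPD g c d p) :
    HasPD (fun q => f q + g q) (a + c) (b + d) p := by
  unfold HasPD at *
  refine (HasFDerivAt.add hf hg).congr_fderiv ?_
  rw [add_smul, add_smul]
  abel

lemma HasPD.sub (hf : HasPD f a b p) (hg : HasPD g c d p) :
    HasPD (fun q => f q - g q) (a - c) (b - d) p := by
  unfold HasPD at *
  refine (HasFDerivAt.sub hf hg).congr_fderiv (ContinuousLinearMap.ext fun v => ?_)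
  simp [fstR, sndR]
  ring

lemma HasPD.neg (hf : HasPD f a b p) : HasPD (fun q => - f q) (-a) (-b) p := by
  unfold HasPD at *
  refine (HasFDerivAt.neg hf).congr_fderiv (ContinuousLinearMap.ext fun v => ?_)
  simp [fstR, sndR]
  ring

lemma HasPD.mul (hf : HasPD f a b p) (hg : HasPD g c d p) :
    HasPD (fun q => f q * g q) (a * g p + f p * c) (b * g p + f p * d) p := by
  unfold HasPD at *
  have h : HasFDerivAt (fun q => f q * g q)
      (f p • (c • fstR + d • sndR) + g p • (a • fstR + b • sndR)) p := HasFDerivAt.mul hf hg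
  refine h.congr_fderiv (ContinuousLinearMap.ext fun v => ?_)
  simp [fstR, sndR]
  ring

lemma HasPD.const_mul (k : ℝ) (hf : HasPD f a b p) :
    HasPD (fun q => k * f q) (k * a) (k * b) p :=
  ((hasPD_const k p).mul hf).congr (by ring) (by ring)

lemma HasPD.pow (hf : HasPD f a b p) (n : ℕ) :
    HasPD (fun q => f q ^ n) (n * f p ^ (n - 1) * a) (n * f p ^ (n - 1) * b) p := by
  unfold HasPD at *
  have h := HasFDerivAt.pow hf n
  refine h.congr_fderiv (ContinuousLinearMap.ext fun v => ?_)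
  simp [fstR, sndR]
  ring

lemma HasPD.sq (hf : HasPD f a b p) :
    HasPD (fun q => f q ^ 2) (2 * f p * a) (2 * f p * b) p :=
  (hf.pow 2).congr (by simp) (by simp)

lemma HasPD.inv (hf : HasPD f a b p) (h0 : f p ≠ 0) :
    HasPD (fun q => (f q)⁻¹) (- a / f p ^ 2) (- b / f p ^ 2) p := by
  unfold HasPD at *
  have h := (hasDerivAt_inv h0).comp_hasFDerivAt p hf
  refine h.congr_fderiv (ContinuousLinearMap.ext fun v => ?_)
  simp [fstR, sndR]
  field_simp

lemma HasPD.div (hf : HasPD f a b p) (hg : HasPD g c d p) (h0 : g p ≠ 0) :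
    HasPD (fun q => f q / g q) ((a * g p - f p * c) / g p ^ 2) ((b * g p - f p * d) / g p ^ 2) p := by
  have h := hf.mul (hg.inv h0)
  refine (HasPD.congr h ?_ ?_)
  · field_simp
    ring
  · field_simp
    ring

lemma HasPD.sqrt (hf : HasPD f a b p) (h0 : 0 < f p) :
    HasPD (fun q => Real.sqrt (f q)) (a / (2 * Real.sqrt (f p))) (b / (2 * Real.sqrt (f p))) p := by
  unfold HasPD at *
  have h := HasFDerivAt.sqrt hf h0.ne'
  refine h.congr_fderiv (ContinuousLinearMap.ext fun v => ?_)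
  simp [fstR, sndR]
  field_simp

lemma HasPD.cos (hf : HasPD f a b p) :
    HasPD (fun q => Real.cos (f q)) (- Real.sin (f p) * a) (- Real.sin (f p) * b) p := by
  unfold HasPD at *
  have h := HasFDerivAt.cos hf
  refine h.congr_fderiv (ContinuousLinearMap.ext fun v => ?_)
  simp [fstR, sndR]
  ring

lemma HasPD.sin (hf : HasPD f a b p) :
    HasPD (fun q => Real.sin (f q)) (Real.cos (f p) * a) (Real.cos (f p) * b) p := by
  unfold HasPD at *
  have h := HasFDerivAt.sin hf
  refine h.congr_fderiv (ContinuousLinearMap.ext fun v => ?_)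
  simp [fstR, sndR]
  ring

lemma HasPD.log (hf : HasPD f a b p) (h0 : f p ≠ 0) :
    HasPD (fun q => Real.log (f q)) (a / f p) (b / f p) p := by
  unfold HasPD at *
  have h := HasFDerivAt.log hf h0
  refine h.congr_fderiv (ContinuousLinearMap.ext fun v => ?_)
  simp [fstR, sndR]
  field_simp

lemma HasPD.exp (hf : HasPD f a b p) :
    HasPD (fun q => Real.exp (f q)) (Real.exp (f p) * a) (Real.exp (f p) * b) p := by
  unfold HasPD at *
  have h := HasFDerivAt.exp hf
  refine h.congr_fderiv (ContinuousLinearMap.ext fun v => ?_)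
  simp [fstR, sndR]
  ring

/-- Existence of primitives of closed forms on the plane. -/
theorem exists_primitive {A B : ℝ × ℝ → ℝ} (hA : Sm A) (hB : Sm B)
    (hclosed : ∀ p, dy A p = dx B p) :
    ∃ f : ℝ × ℝ → ℝ, Sm f ∧ f 0 = 0 ∧ ∀ p, HasPD f (A p) (B p) p := by
  set om : ℝ × ℝ → (ℝ × ℝ →L[ℝ] ℝ) := fun p => (A p) • fstR + (B p) • sndR with hom
  have homs : ContDiff ℝ ∞ om := (hA.smul contDiff_const).add (hB.smul contDiff_const)
  have homd : Differentiable ℝ om := homs.differentiable (by simp)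
  have hpa : ∀ p, HasFDerivAt om
      ((fderiv ℝ A p).smulRight fstR + (fderiv ℝ B p).smulRight sndR) p := fun p => by
    have h1 := (hA.differentiable p).hasFDerivAt
    have h2 := (hB.differentiable p).hasFDerivAt
    exact (h1.smul_const fstR).add (h2.smul_const sndR)
  obtain ⟨f, hf⟩ := (convex_univ (𝕜 := ℝ) (E := ℝ × ℝ)).exists_forall_hasFDerivAt_of_fderiv_symmetric
    isOpen_univ homd.differentiableOn (fun p _ x y => by
      rw [(hpa p).fderiv]
      have hA' := (hA.hasPD p).apply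
      have hB' := (hB.hasPD p).apply
      simp [hA', hB', hclosed p, fstR, sndR]
      ring)
  have hf' : ∀ p, HasFDerivAt f (om p) p := fun p => hf p (Set.mem_univ p)
  have hfd : fderiv ℝ f = om := funext (fun p => (hf' p).fderiv)
  have hsm : Sm f := by
    refine contDiff_infty_iff_fderiv.2 ⟨fun p => (hf' p).differentiableAt, ?_⟩
    rw [hfd]
    exact homs
  refine ⟨fun q => f q - f 0, ?_, by simp, fun p => ?_⟩
  · exact hsm.sub contDiff_const
  · have h := (hf' p).sub_const (f 0)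
    exact h

end Vale.Agent.P205
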