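import Vale.Agent.P205.Mult

/-!
# Solving the curvature equation by the inverse function theorem in the weighted algebra
-/

namespace Vale.Agent.P205

open scoped ContDiff ComplexConjugate Real Topology
open Alg Set

section Poly
variable {A : Type*} [CommRing A]

/-- The matrix entry `M₁₁`. -/
def M11E (f z1 z2 z11 U1 U2 U11 : A) : A :=
  f ^ 2 * U11 - f * z11 + 3 * z1 ^ 2 - f * (2 * z1 * U1) + (f * (z1 * U1 + z2 * U2) - (z1 ^ 2 + z2 ^ 2))
/-- The matrix entry `M₁₂`. -/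
def M12E (f z1 z2 z12 U1 U2 U12 : A) : A :=
  f ^ 2 * U12 - f * z12 + 3 * z1 * z2 - f * (z1 * U2 + z2 * U1)
/-- The matrix entry `M₂₂`. -/
def M22E (f z1 z2 z22 U1 U2 U22 : A) : A :=
  f ^ 2 * U22 - f * z22 + 3 * z2 ^ 2 - f * (2 * z2 * U2) + (f * (z1 * U1 + z2 * U2) - (z1 ^ 2 + z2 ^ 2))

/-- The coefficient of `S` in the curvature polynomial. -/
def CE (f z1 z2 z11 z12 z22 U1 U2 U11 U12 U22 : A) : A :=
  M11E f z1 z2 z11 U1 U2 U11 * M22E f z1 z2 z22 U1 U2 U22 - (M12E f z1 z2 z12 U1 U2 U12) ^ 2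
  - (f * (z11 + z22) - (z1 ^ 2 + z2 ^ 2)) * ((f * U1 - z1) ^ 2 + (f * U2 - z2) ^ 2)

/-- The curvature polynomial `Π`. -/
def PiE (S f z1 z2 z11 z12 z22 U1 U2 U11 U12 U22 : A) : A :=
  (f * (z11 + z22) - (z1 ^ 2 + z2 ^ 2)) * f ^ 4 + S * CE f z1 z2 z11 z12 z22 U1 U2 U11 U12 U22

lemma map_PiE {B : Type*} [CommRing B] (φ : A →+* B) (S f z1 z2 z11 z12 z22 U1 U2 U11 U12 U22 : A) :
    φ (PiE S f z1 z2 z11 z12 z22 U1 U2 U11 U12 U22) =
      PiE (φ S) (φ f) (φ z1) (φ z2) (φ z11) (φ z12) (φ z22) (φ U1) (φ U2) (φ U11) (φ U12) (φ U22) := by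
  simp only [PiE, CE, M11E, M12E, M22E, map_add, map_sub, map_mul, map_pow, map_ofNat]

end Poly

namespace Lat
variable (L : Lat) {W : Wt}

/-- The given second-order data of `u`, as elements of the algebra. -/
structure UData (W : Wt) where
  /-- first derivatives -/
  U1 : Herm W
  /-- first derivatives -/
  U2 : Herm W
  /-- second derivatives -/
  U11 : Herm W
  /-- second derivatives -/
  U12 : Herm W
  /-- second derivatives -/
  U22 : Herm W

variable (U : UData W)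

/-- The coefficient `C(y)`. -/
noncomputable def Cq (y : Herm W) : Herm W :=
  CE (1 + mtp L.mZ y) (mtp L.m1 y) (mtp L.m2 y) (mtp L.m11 y) (mtp L.m12 y) (mtp L.m22 y)
    U.U1 U.U2 U.U11 U.U12 U.U22

/-- The equation. -/
noncomputable def Gmap (s : ℝ) (y : Herm W) : Herm W :=
  PiE (s • (1 : Herm W)) (1 + mtp L.mZ y) (mtp L.m1 y) (mtp L.m2 y) (mtp L.m11 y) (mtp L.m12 y)
    (mtp L.m22 y) U.U1 U.U2 U.U11 U.U12 U.U22 + (meanL y) • (1 : Herm W)

/-- The remainder, quadratic in `y`. -/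
noncomputable def Rq (y : Herm W) : Herm W :=
  (mtp L.m11 y + mtp L.m22 y) * ((1 + mtp L.mZ y) ^ 4 - 1)
  + mtp L.mZ y * ((mtp L.m11 y + mtp L.m22 y) * (1 + mtp L.mZ y) ^ 4)
  - mtp L.m1 y * (mtp L.m1 y * (1 + mtp L.mZ y) ^ 4)
  - mtp L.m2 y * (mtp L.m2 y * (1 + mtp L.mZ y) ^ 4)

lemma Gmap_eq (s : ℝ) (y : Herm W) :
    L.Gmap U s y = y + L.Rq y + (s • (1 : Herm W)) * L.Cq U y := by
  have h := L.laplace_rel y
  have h2 : y = (mtp L.m11 y + mtp L.m22 y) + (meanL y) • (1 : Herm W) := by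
    rw [h]; abel
  unfold Gmap PiE Rq Cq
  set m : Herm W := (meanL y) • (1 : Herm W) with hm
  linear_combination (-1 : Herm W) * h2

lemma contDiff_Gmap : ContDiff ℝ 1 (fun q : ℝ × Herm W => L.Gmap U q.1 q.2) := by
  unfold Gmap PiE CE M11E M12E M22E
  fun_prop

lemma mul_hasFDerivAt_zero {E A : Type*} [NormedAddCommGroup E] [NormedSpace ℝ E] [NormedCommRing A]
    [NormedAlgebra ℝ A] {a b : E → A} {x : E} (ha : DifferentiableAt ℝ a x)
    (hb : DifferentiableAt ℝ b x) (ha0 : a x = 0) (hb0 : b x = 0) :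
    HasFDerivAt (fun q => a q * b q) (0 : E →L[ℝ] A) x := by
  have h : HasFDerivAt (fun q => a q * b q) (a x • fderiv ℝ b x + b x • fderiv ℝ a x) x :=
    ha.hasFDerivAt.mul hb.hasFDerivAt
  refine h.congr_fderiv (ContinuousLinearMap.ext fun v => ?_)
  simp [ha0, hb0]

lemma map0 (M : Mtp) : mtp M (0 : Herm W) = 0 := map_zero _

lemma differentiable_of_clm {E : Type*} [NormedAddCommGroup E] [NormedSpace ℝ E]
    (g : Herm W →L[ℝ] E) : Differentiable ℝ (fun q : ℝ × Herm W => g q.2) := by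
  fun_prop

lemma hasFDerivAt_Rq :
    HasFDerivAt (fun q : ℝ × Herm W => L.Rq q.2) (0 : ℝ × Herm W →L[ℝ] Herm W) (0, 0) := by
  unfold Rq
  have d0 : ∀ M : Mtp, DifferentiableAt ℝ (fun q : ℝ × Herm W => mtp M q.2) (0, 0) := fun M =>
    (differentiable_of_clm (mtp M)) _
  have t1 := mul_hasFDerivAt_zero
    (a := fun q : ℝ × Herm W => mtp L.m11 q.2 + mtp L.m22 q.2)
    (b := fun q : ℝ × Herm W => (1 + mtp L.mZ q.2) ^ 4 - 1) (x := (0, 0))
    (by fun_prop) (by fun_prop) (by simp [map0]) (by simp [map0])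
  have t2 := mul_hasFDerivAt_zero
    (a := fun q : ℝ × Herm W => mtp L.mZ q.2)
    (b := fun q : ℝ × Herm W => (mtp L.m11 q.2 + mtp L.m22 q.2) * (1 + mtp L.mZ q.2) ^ 4) (x := (0, 0))
    (by fun_prop) (by fun_prop) (by simp [map0]) (by simp [map0])
  have t3 := mul_hasFDerivAt_zero
    (a := fun q : ℝ × Herm W => mtp L.m1 q.2)
    (b := fun q : ℝ × Herm W => mtp L.m1 q.2 * (1 + mtp L.mZ q.2) ^ 4) (x := (0, 0))
    (by fun_prop) (by fun_prop) (by simp [map0]) (by simp [map0])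
  have t4 := mul_hasFDerivAt_zero
    (a := fun q : ℝ × Herm W => mtp L.m2 q.2)
    (b := fun q : ℝ × Herm W => mtp L.m2 q.2 * (1 + mtp L.mZ q.2) ^ 4) (x := (0, 0))
    (by fun_prop) (by fun_prop) (by simp [map0]) (by simp [map0])
  have := ((t1.add t2).sub t3).sub t4
  have e : ((0 : ℝ × Herm W →L[ℝ] Herm W) + 0 - 0 - 0) = 0 := by simp
  rw [e] at this
  exact this

/-- The constant term of `C`. -/
noncomputable def C0 : Herm W := L.Cq U 0

/-- The derivative at the base point. -/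
noncomputable def Aq : ℝ × Herm W →L[ℝ] Herm W :=
  ContinuousLinearMap.snd ℝ ℝ (Herm W) +
    (ContinuousLinearMap.fst ℝ ℝ (Herm W)).smulRight (L.C0 U)

lemma hasFDerivAt_Gmap :
    HasFDerivAt (fun q : ℝ × Herm W => L.Gmap U q.1 q.2) (L.Aq U) (0, 0) := by
  have e : (fun q : ℝ × Herm W => L.Gmap U q.1 q.2) =
      fun q => q.2 + L.Rq q.2 + (q.1 • (1 : Herm W)) * L.Cq U q.2 :=
    funext (fun q => L.Gmap_eq U q.1 q.2)
  rw [e]
  have h1 : HasFDerivAt (fun q : ℝ × Herm W => q.2) (ContinuousLinearMap.snd ℝ ℝ (Herm W)) (0, 0) :=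
    hasFDerivAt_snd
  have h2 := L.hasFDerivAt_Rq (W := W)
  have h3 : HasFDerivAt (fun q : ℝ × Herm W => q.1 • (1 : Herm W))
      ((ContinuousLinearMap.fst ℝ ℝ (Herm W)).smulRight (1 : Herm W)) (0, 0) :=
    (ContinuousLinearMap.fst ℝ ℝ (Herm W)).smulRight (1 : Herm W) |>.hasFDerivAt
  have h4 : DifferentiableAt ℝ (fun q : ℝ × Herm W => L.Cq U q.2) (0, 0) := by
    unfold Cq CE M11E M12E M22E
    fun_prop
  have h5 := h3.mul h4.hasFDerivAt
  have h6 := (h1.add h2).add h5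
  refine h6.congr_fderiv ?_
  refine ContinuousLinearMap.ext (fun v => ?_)
  simp only [Aq, C0, zero_smul, add_zero]
  simp

/-- The full map. -/
noncomputable def PhiQ (q : ℝ × Herm W) : ℝ × Herm W := (q.1, L.Gmap U q.1 q.2)

/-- Inverse of the linearization. -/
noncomputable def AqEquiv : (ℝ × Herm W) ≃L[ℝ] (ℝ × Herm W) :=
  ContinuousLinearEquiv.equivOfInverse
    ((ContinuousLinearMap.fst ℝ ℝ (Herm W)).prod (L.Aq U))
    ((ContinuousLinearMap.fst ℝ ℝ (Herm W)).prod (ContinuousLinearMap.snd ℝ ℝ (Herm W) -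
      (ContinuousLinearMap.fst ℝ ℝ (Herm W)).smulRight (L.C0 U)))
    (fun q => by
      ext1
      · rfl
      · simp [Aq])
    (fun q => by
      ext1
      · rfl
      · simp [Aq])

lemma coe_AqEquiv : ((L.AqEquiv U : (ℝ × Herm W) ≃L[ℝ] (ℝ × Herm W)) : (ℝ × Herm W) →L[ℝ] (ℝ × Herm W)) =
    (ContinuousLinearMap.fst ℝ ℝ (Herm W)).prod (L.Aq U) := rfl

lemma hasStrict_PhiQ :
    HasStrictFDerivAt (L.PhiQ U)
      ((L.AqEquiv U : (ℝ × Herm W) ≃L[ℝ] (ℝ × Herm W)) : (ℝ × Herm W) →L[ℝ] (ℝ × Herm W)) (0, 0) := by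
  rw [coe_AqEquiv]
  have h1 : ContDiff ℝ 1 (L.PhiQ U) := contDiff_fst.prodMk (L.contDiff_Gmap U)
  refine h1.contDiffAt.hasStrictFDerivAt' ?_ one_ne_zero
  exact hasFDerivAt_fst.prodMk (L.hasFDerivAt_Gmap U)

lemma Gmap_zero : L.Gmap U 0 (0 : Herm W) = 0 := by
  rw [Gmap_eq]
  simp [Rq, map0]

/-- Solvability of the equation for small parameter. -/
theorem solve : ∃ r : ℝ, 0 < r ∧ ∃ y : ℝ → Herm W, y 0 = 0 ∧ ContinuousOn y (Ioo (-r) r) ∧
    ∀ s ∈ Ioo (-r) r, L.Gmap U s (y s) = 0 := by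
  have hs := L.hasStrict_PhiQ U
  set e := hs.toOpenPartialHomeomorph (L.PhiQ U) with he
  have h0 : ((0 : ℝ), (0 : Herm W)) ∈ e.source := hs.mem_toOpenPartialHomeomorph_source
  have h0' : L.PhiQ U (0, 0) = (0, 0) := by
    unfold PhiQ
    simp [Gmap_zero]
  have he0 : e (0, 0) = (0, 0) := h0'
  have ht : ((0 : ℝ), (0 : Herm W)) ∈ e.target := by
    rw [← he0]; exact e.map_source h0
  have htopen : IsOpen e.target := e.open_target
  have hcont : Continuous (fun s : ℝ => (s, (0 : Herm W))) := by fun_prop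
  have hpre : IsOpen ((fun s : ℝ => (s, (0 : Herm W))) ⁻¹' e.target) := htopen.preimage hcont
  obtain ⟨r, hr, hball⟩ := Metric.isOpen_iff.1 hpre 0 ht
  have hI : Ioo (-r) r ⊆ (fun s : ℝ => (s, (0 : Herm W))) ⁻¹' e.target := by
    intro s hs
    apply hball
    rw [Metric.mem_ball, dist_zero_right, Real.norm_eq_abs, abs_lt]
    exact hs
  refine ⟨r, hr, fun s => (e.symm (s, 0)).2, ?_, ?_, ?_⟩
  · have h1 : e.symm (0, 0) = (0, 0) := by
      have := e.left_inv h0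
      rw [he0] at this
      exact this
    simp [h1]
  · have h1 : ContinuousOn (fun s : ℝ => e.symm (s, 0)) (Ioo (-r) r) :=
      e.continuousOn_symm.comp hcont.continuousOn hI
    exact continuous_snd.comp_continuousOn h1
  · intro s hs
    have h1 : e (e.symm (s, 0)) = (s, 0) := e.right_inv (hI hs)
    have h2 : L.PhiQ U (e.symm (s, 0)) = (s, 0) := h1
    unfold PhiQ at h2
    have h3 : (e.symm (s, 0)).1 = s := congrArg Prod.fst h2
    have h4 : L.Gmap U (e.symm (s, 0)).1 (e.symm (s, 0)).2 = 0 := congrArg Prod.snd h2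
    rw [h3] at h4
    exact h4

end Lat

end Vale.Agent.P205
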