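import Vale.Agent.P205.Weights

/-!
# Lattices, exponentials and synthesis of rapidly decaying Fourier series
-/

namespace Vale.Agent.P205

open scoped ContDiff ComplexConjugate
open Real

/-- A lattice in the plane given by a basis. -/
structure Lat where
  a : ℝ × ℝ
  b : ℝ × ℝ
  det_ne : a.1 * b.2 - a.2 * b.1 ≠ 0

/-- Rapid decay of a sequence. -/
def Rapid (c : Z2 → ℂ) : Prop := ∀ k : ℕ, Summable (fun n => ‖c n‖ * (1 + nrm n) ^ k)

namespace Lat
variable (L : Lat)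

/-- determinant -/
noncomputable def D : ℝ := L.a.1 * L.b.2 - L.a.2 * L.b.1

lemma D_ne : L.D ≠ 0 := L.det_ne

/-- first component of the dual frequency -/
noncomputable def xi1 (n : Z2) : ℝ := 2 * π / L.D * ((n.1 : ℝ) * L.b.2 - (n.2 : ℝ) * L.a.2)
/-- second component of the dual frequency -/
noncomputable def xi2 (n : Z2) : ℝ := 2 * π / L.D * (-(n.1 : ℝ) * L.b.1 + (n.2 : ℝ) * L.a.1)

/-- phase -/
noncomputable def ph (n : Z2) (p : ℝ × ℝ) : ℝ := L.xi1 n * p.1 + L.xi2 n * p.2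

/-- exponential -/
noncomputable def ee (n : Z2) (p : ℝ × ℝ) : ℂ := Complex.exp (Complex.I * (L.ph n p : ℝ))

lemma xi1_add (n m : Z2) : L.xi1 (n + m) = L.xi1 n + L.xi1 m := by
  unfold xi1; simp only [Prod.fst_add, Prod.snd_add]; push_cast; ring
lemma xi2_add (n m : Z2) : L.xi2 (n + m) = L.xi2 n + L.xi2 m := by
  unfold xi2; simp only [Prod.fst_add, Prod.snd_add]; push_cast; ring
lemma xi1_neg (n : Z2) : L.xi1 (-n) = - L.xi1 n := by
  unfold xi1; simp only [Prod.fst_neg, Prod.snd_neg]; push_cast; ring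
lemma xi2_neg (n : Z2) : L.xi2 (-n) = - L.xi2 n := by
  unfold xi2; simp only [Prod.fst_neg, Prod.snd_neg]; push_cast; ring

lemma xi1_zero : L.xi1 0 = 0 := by unfold xi1; simp
lemma xi2_zero : L.xi2 0 = 0 := by unfold xi2; simp

lemma ph_a (n : Z2) : L.xi1 n * L.a.1 + L.xi2 n * L.a.2 = 2 * π * n.1 := by
  unfold xi1 xi2
  have h := L.D_ne
  have e : L.a.1 * L.b.2 - L.a.2 * L.b.1 = L.D := rfl
  field_simp
  linear_combination (n.1 : ℝ) * e

lemma ph_b (n : Z2) : L.xi1 n * L.b.1 + L.xi2 n * L.b.2 = 2 * π * n.2 := by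
  unfold xi1 xi2
  have h := L.D_ne
  have e : L.a.1 * L.b.2 - L.a.2 * L.b.1 = L.D := rfl
  field_simp
  linear_combination (n.2 : ℝ) * e

lemma ph_add_left (n m : Z2) (p : ℝ × ℝ) : L.ph (n + m) p = L.ph n p + L.ph m p := by
  unfold ph; rw [xi1_add, xi2_add]; ring

lemma ph_neg_left (n : Z2) (p : ℝ × ℝ) : L.ph (-n) p = - L.ph n p := by
  unfold ph; rw [xi1_neg, xi2_neg]; ring

lemma norm_ee (n : Z2) (p : ℝ × ℝ) : ‖L.ee n p‖ = 1 := by
  unfold ee
  rw [mul_comm]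
  exact Complex.norm_exp_ofReal_mul_I _

lemma ee_add_left (n m : Z2) (p : ℝ × ℝ) : L.ee (n + m) p = L.ee n p * L.ee m p := by
  unfold ee
  rw [← Complex.exp_add, ph_add_left]
  congr 1
  push_cast; ring

lemma ee_neg_left (n : Z2) (p : ℝ × ℝ) : L.ee (-n) p = conj (L.ee n p) := by
  unfold ee
  rw [← Complex.exp_conj, ph_neg_left]
  congr 1
  simp

lemma ee_add_a (n : Z2) (p : ℝ × ℝ) : L.ee n (p + L.a) = L.ee n p := by
  unfold ee
  have h : L.ph n (p + L.a) = L.ph n p + (n.1 : ℝ) * (2 * π) := by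
    unfold ph
    have := L.ph_a n
    simp only [Prod.fst_add, Prod.snd_add]
    linear_combination this
  rw [h]
  push_cast
  have e := Complex.exp_int_mul_two_pi_mul_I n.1
  rw [mul_add, Complex.exp_add]
  have e2 : Complex.I * ((n.1 : ℂ) * (2 * (π : ℂ))) = (n.1 : ℂ) * (2 * π * Complex.I) := by ring
  rw [e2, e, mul_one]

lemma ee_add_b (n : Z2) (p : ℝ × ℝ) : L.ee n (p + L.b) = L.ee n p := by
  unfold ee
  have h : L.ph n (p + L.b) = L.ph n p + (n.2 : ℝ) * (2 * π) := by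
    unfold ph
    have := L.ph_b n
    simp only [Prod.fst_add, Prod.snd_add]
    linear_combination this
  rw [h]
  push_cast
  have e := Complex.exp_int_mul_two_pi_mul_I n.2
  rw [mul_add, Complex.exp_add]
  have e2 : Complex.I * ((n.2 : ℂ) * (2 * (π : ℂ))) = (n.2 : ℂ) * (2 * π * Complex.I) := by ring
  rw [e2, e, mul_one]

/-- The character at a point. -/
noncomputable def chr (p : ℝ × ℝ) : Alg.Chr where
  χ := fun n => L.ee n p
  norm_eq := fun n => L.norm_ee n p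
  map_add := fun n m => L.ee_add_left n m p
  map_neg := fun n => L.ee_neg_left n p

/-- A bound for the frequencies in terms of the index. -/
noncomputable def K : ℝ := 2 * π / |L.D| * (|L.a.1| + |L.a.2| + |L.b.1| + |L.b.2|)

lemma K_nonneg : 0 ≤ L.K := by
  unfold K
  positivity

lemma abs_n1_le (n : Z2) : |(n.1 : ℝ)| ≤ nrm n := by
  unfold nrm; linarith [abs_nonneg (n.2 : ℝ)]
lemma abs_n2_le (n : Z2) : |(n.2 : ℝ)| ≤ nrm n := by
  unfold nrm; linarith [abs_nonneg (n.1 : ℝ)]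

lemma abs_xi1_le (n : Z2) : |L.xi1 n| ≤ L.K * (1 + nrm n) := by
  unfold xi1 K
  have hn := nrm_nonneg n
  rw [abs_mul, abs_div, abs_of_pos (by positivity : (0:ℝ) < 2 * π), mul_assoc]
  have hpos : 0 ≤ 2 * π / |L.D| := by positivity
  refine mul_le_mul_of_nonneg_left ?_ hpos
  have h1 := abs_n1_le n
  have h2 := abs_n2_le n
  have h3 : |(n.1 : ℝ) * L.b.2 - (n.2 : ℝ) * L.a.2| ≤ |(n.1 : ℝ)| * |L.b.2| + |(n.2 : ℝ)| * |L.a.2| := by
    rw [← abs_mul, ← abs_mul]; exact abs_sub _ _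
  have ha1 := abs_nonneg L.a.1
  have ha2 := abs_nonneg L.a.2
  have hb1 := abs_nonneg L.b.1
  have hb2 := abs_nonneg L.b.2
  have h4 : |(n.1 : ℝ)| * |L.b.2| ≤ (1 + nrm n) * |L.b.2| :=
    mul_le_mul_of_nonneg_right (by linarith) hb2
  have h5 : |(n.2 : ℝ)| * |L.a.2| ≤ (1 + nrm n) * |L.a.2| :=
    mul_le_mul_of_nonneg_right (by linarith) ha2
  have h6 : 0 ≤ (1 + nrm n) * (|L.a.1| + |L.b.1|) := by positivity
  nlinarith

lemma abs_xi2_le (n : Z2) : |L.xi2 n| ≤ L.K * (1 + nrm n) := by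
  unfold xi2 K
  have hn := nrm_nonneg n
  rw [abs_mul, abs_div, abs_of_pos (by positivity : (0:ℝ) < 2 * π), mul_assoc]
  have hpos : 0 ≤ 2 * π / |L.D| := by positivity
  refine mul_le_mul_of_nonneg_left ?_ hpos
  have h1 := abs_n1_le n
  have h2 := abs_n2_le n
  have h3 : |-(n.1 : ℝ) * L.b.1 + (n.2 : ℝ) * L.a.1| ≤ |(n.1 : ℝ)| * |L.b.1| + |(n.2 : ℝ)| * |L.a.1| := by
    rw [← abs_mul, ← abs_mul]
    refine le_trans (abs_add_le _ _) ?_
    rw [neg_mul, abs_neg]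
  have ha1 := abs_nonneg L.a.1
  have ha2 := abs_nonneg L.a.2
  have hb1 := abs_nonneg L.b.1
  have hb2 := abs_nonneg L.b.2
  have h4 : |(n.1 : ℝ)| * |L.b.1| ≤ (1 + nrm n) * |L.b.1| :=
    mul_le_mul_of_nonneg_right (by linarith) hb1
  have h5 : |(n.2 : ℝ)| * |L.a.1| ≤ (1 + nrm n) * |L.a.1| :=
    mul_le_mul_of_nonneg_right (by linarith) ha1
  have h6 : 0 ≤ (1 + nrm n) * (|L.a.2| + |L.b.2|) := by positivity
  nlinarith

/-! ### Derivatives of sequences -/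

/-- Multiplication by `i ξ₁`. -/
noncomputable def d1 (c : Z2 → ℂ) (n : Z2) : ℂ := Complex.I * (L.xi1 n : ℝ) * c n
/-- Multiplication by `i ξ₂`. -/
noncomputable def d2 (c : Z2 → ℂ) (n : Z2) : ℂ := Complex.I * (L.xi2 n : ℝ) * c n

variable {L}

lemma norm_d1 (c : Z2 → ℂ) (n : Z2) : ‖L.d1 c n‖ = |L.xi1 n| * ‖c n‖ := by
  unfold d1; simp
lemma norm_d2 (c : Z2 → ℂ) (n : Z2) : ‖L.d2 c n‖ = |L.xi2 n| * ‖c n‖ := by
  unfold d2; simp

lemma rapid_d1 {c : Z2 → ℂ} (hc : Rapid c) : Rapid (L.d1 c) := fun k => by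
  refine Summable.of_nonneg_of_le (fun n => mul_nonneg (norm_nonneg _)
    (pow_nonneg (by linarith [nrm_nonneg n]) _)) (fun n => ?_) ((hc (k + 1)).mul_left L.K)
  rw [norm_d1]
  have h := L.abs_xi1_le n
  have hn := nrm_nonneg n
  have hp : 0 ≤ (1 + nrm n) ^ k := by positivity
  have hc' := norm_nonneg (c n)
  calc |L.xi1 n| * ‖c n‖ * (1 + nrm n) ^ k ≤ (L.K * (1 + nrm n)) * ‖c n‖ * (1 + nrm n) ^ k := by gcongr
    _ = _ := by rw [pow_succ]; ring

lemma rapid_d2 {c : Z2 → ℂ} (hc : Rapid c) : Rapid (L.d2 c) := fun k => by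
  refine Summable.of_nonneg_of_le (fun n => mul_nonneg (norm_nonneg _)
    (pow_nonneg (by linarith [nrm_nonneg n]) _)) (fun n => ?_) ((hc (k + 1)).mul_left L.K)
  rw [norm_d2]
  have h := L.abs_xi2_le n
  have hn := nrm_nonneg n
  have hp : 0 ≤ (1 + nrm n) ^ k := by positivity
  have hc' := norm_nonneg (c n)
  calc |L.xi2 n| * ‖c n‖ * (1 + nrm n) ^ k ≤ (L.K * (1 + nrm n)) * ‖c n‖ * (1 + nrm n) ^ k := by gcongr
    _ = _ := by rw [pow_succ]; ring

lemma summable_norm_of_rapid {c : Z2 → ℂ} (hc : Rapid c) : Summable (fun n => ‖c n‖) := by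
  have := hc 0
  simpa using this

variable (L)

/-- Synthesis. -/
noncomputable def synth (c : Z2 → ℂ) (p : ℝ × ℝ) : ℂ := ∑' n, c n * L.ee n p

variable {L}

lemma summable_synth {c : Z2 → ℂ} (hc : Rapid c) (p : ℝ × ℝ) :
    Summable (fun n => c n * L.ee n p) := by
  apply Summable.of_norm
  simp_rw [norm_mul, L.norm_ee, mul_one]
  exact summable_norm_of_rapid hc

/-- coordinate functionals with values in `ℂ` -/
noncomputable def fstC : ℝ × ℝ →L[ℝ] ℂ := Complex.ofRealCLM.comp (ContinuousLinearMap.fst ℝ ℝ ℝ)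
/-- coordinate functionals with values in `ℂ` -/
noncomputable def sndC : ℝ × ℝ →L[ℝ] ℂ := Complex.ofRealCLM.comp (ContinuousLinearMap.snd ℝ ℝ ℝ)

@[simp] lemma fstC_apply (v : ℝ × ℝ) : fstC v = (v.1 : ℂ) := rfl
@[simp] lemma sndC_apply (v : ℝ × ℝ) : sndC v = (v.2 : ℂ) := rfl

lemma norm_fstC : ‖fstC‖ ≤ 1 := by
  refine ContinuousLinearMap.opNorm_le_bound _ zero_le_one (fun v => ?_)
  simp only [fstC_apply, Complex.norm_real, Real.norm_eq_abs, one_mul]
  exact norm_fst_le v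

lemma norm_sndC : ‖sndC‖ ≤ 1 := by
  refine ContinuousLinearMap.opNorm_le_bound _ zero_le_one (fun v => ?_)
  simp only [sndC_apply, Complex.norm_real, Real.norm_eq_abs, one_mul]
  exact norm_snd_le v

variable (L)

/-- The expected derivative of one term. -/
noncomputable def termD (c : Z2 → ℂ) (n : Z2) (p : ℝ × ℝ) : ℝ × ℝ →L[ℝ] ℂ :=
  (L.d1 c n * L.ee n p) • fstC + (L.d2 c n * L.ee n p) • sndC

variable {L}

lemma hasFDerivAt_ph (n : Z2) (p : ℝ × ℝ) :
    HasFDerivAt (L.ph n) ((L.xi1 n) • ContinuousLinearMap.fst ℝ ℝ ℝ +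
      (L.xi2 n) • ContinuousLinearMap.snd ℝ ℝ ℝ) p := by
  unfold Lat.ph
  have h1 : HasFDerivAt (fun q : ℝ × ℝ => q.1) (ContinuousLinearMap.fst ℝ ℝ ℝ) p := hasFDerivAt_fst
  have h2 : HasFDerivAt (fun q : ℝ × ℝ => q.2) (ContinuousLinearMap.snd ℝ ℝ ℝ) p := hasFDerivAt_snd
  exact (h1.const_smul (L.xi1 n)).add (h2.const_smul (L.xi2 n))

lemma hasFDerivAt_term (c : Z2 → ℂ) (n : Z2) (p : ℝ × ℝ) :
    HasFDerivAt (fun q => c n * L.ee n q) (L.termD c n p) p := by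
  have h0 := hasFDerivAt_ph (L := L) n p
  have h1 : HasFDerivAt (fun q : ℝ × ℝ => ((L.ph n q : ℝ) : ℂ))
      (Complex.ofRealCLM.comp ((L.xi1 n) • ContinuousLinearMap.fst ℝ ℝ ℝ +
      (L.xi2 n) • ContinuousLinearMap.snd ℝ ℝ ℝ)) p :=
    Complex.ofRealCLM.hasFDerivAt.comp p h0
  have h2 : HasFDerivAt (fun q : ℝ × ℝ => Complex.I * ((L.ph n q : ℝ) : ℂ))
      (Complex.I • (Complex.ofRealCLM.comp ((L.xi1 n) • ContinuousLinearMap.fst ℝ ℝ ℝ +
      (L.xi2 n) • ContinuousLinearMap.snd ℝ ℝ ℝ))) p := h1.const_mul Complex.I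
  have h3 := h2.cexp
  have h4 := h3.const_mul (c n)
  refine h4.congr_fderiv (ContinuousLinearMap.ext fun v => ?_)
  simp [Lat.termD, Lat.d1, Lat.d2, Lat.ee]
  ring

lemma norm_termD_le (c : Z2 → ℂ) (n : Z2) (p : ℝ × ℝ) :
    ‖L.termD c n p‖ ≤ ‖L.d1 c n‖ + ‖L.d2 c n‖ := by
  unfold Lat.termD
  refine le_trans (norm_add_le _ _) ?_
  have h1 : ‖(L.d1 c n * L.ee n p) • (fstC : ℝ × ℝ →L[ℝ] ℂ)‖ ≤ ‖L.d1 c n‖ := by
    rw [norm_smul, norm_mul, L.norm_ee, mul_one]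
    exact mul_le_of_le_one_right (norm_nonneg _) norm_fstC
  have h2 : ‖(L.d2 c n * L.ee n p) • (sndC : ℝ × ℝ →L[ℝ] ℂ)‖ ≤ ‖L.d2 c n‖ := by
    rw [norm_smul, norm_mul, L.norm_ee, mul_one]
    exact mul_le_of_le_one_right (norm_nonneg _) norm_sndC
  exact add_le_add h1 h2

/-- Derivative of a synthesized function. -/
theorem hasFDerivAt_synth {c : Z2 → ℂ} (hc : Rapid c) (p : ℝ × ℝ) :
    HasFDerivAt (L.synth c) ((L.synth (L.d1 c) p) • fstC + (L.synth (L.d2 c) p) • sndC) p := by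
  have hu : Summable (fun n => ‖L.d1 c n‖ + ‖L.d2 c n‖) :=
    (summable_norm_of_rapid (rapid_d1 hc)).add (summable_norm_of_rapid (rapid_d2 hc))
  have h := hasFDerivAt_tsum (𝕜 := ℝ) (f := fun n q => c n * L.ee n q) (f' := L.termD c) hu
    (fun n x => hasFDerivAt_term c n x) (fun n x => norm_termD_le c n x)
    (x₀ := p) (summable_synth hc p) p
  have hs1 : HasSum (fun n => (L.d1 c n * L.ee n p) • (fstC : ℝ × ℝ →L[ℝ] ℂ))
      ((L.synth (L.d1 c) p) • fstC) :=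
    (summable_synth (rapid_d1 hc) p).hasSum.smul_const _
  have hs2 : HasSum (fun n => (L.d2 c n * L.ee n p) • (sndC : ℝ × ℝ →L[ℝ] ℂ))
      ((L.synth (L.d2 c) p) • sndC) :=
    (summable_synth (rapid_d2 hc) p).hasSum.smul_const _
  have hs := hs1.add hs2
  have e : ∑' n, L.termD c n p = (L.synth (L.d1 c) p) • fstC + (L.synth (L.d2 c) p) • sndC :=
    hs.tsum_eq
  rw [e] at h
  exact h

lemma differentiable_synth {c : Z2 → ℂ} (hc : Rapid c) : Differentiable ℝ (L.synth c) :=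
  fun p => (hasFDerivAt_synth hc p).differentiableAt

lemma continuous_synth {c : Z2 → ℂ} (hc : Rapid c) : Continuous (L.synth c) :=
  (differentiable_synth hc).continuous

lemma fderiv_synth {c : Z2 → ℂ} (hc : Rapid c) :
    fderiv ℝ (L.synth c) =
      fun p => (L.synth (L.d1 c) p) • fstC + (L.synth (L.d2 c) p) • sndC :=
  funext (fun p => (hasFDerivAt_synth hc p).fderiv)

lemma contDiff_synth_nat (k : ℕ) : ∀ {c : Z2 → ℂ}, Rapid c → ContDiff ℝ k (L.synth c) := by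
  induction k with
  | zero =>
    intro c hc
    simpa using continuous_synth hc
  | succ k ih =>
    intro c hc
    have : ((k + 1 : ℕ) : WithTop ℕ∞) = (k : WithTop ℕ∞) + 1 := by push_cast; rfl
    rw [this, contDiff_succ_iff_fderiv]
    refine ⟨differentiable_synth hc, by simp, ?_⟩
    rw [fderiv_synth hc]
    exact ((ih (rapid_d1 hc)).smul contDiff_const).add ((ih (rapid_d2 hc)).smul contDiff_const)

/-- A rapidly decaying Fourier series is smooth. -/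
theorem contDiff_synth {c : Z2 → ℂ} (hc : Rapid c) : ContDiff ℝ ∞ (L.synth c) :=
  contDiff_infty.2 (fun k => contDiff_synth_nat k hc)

lemma synth_add_a (c : Z2 → ℂ) (p : ℝ × ℝ) : L.synth c (p + L.a) = L.synth c p := by
  unfold Lat.synth
  simp_rw [L.ee_add_a]

lemma synth_add_b (c : Z2 → ℂ) (p : ℝ × ℝ) : L.synth c (p + L.b) = L.synth c p := by
  unfold Lat.synth
  simp_rw [L.ee_add_b]

end Lat

end Vale.Agent.P205
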