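import Mathlib

/-!
# A weighted `ℓ¹` convolution algebra on `ℤ²`

For a submultiplicative weight `w ≥ 1` on `ℤ × ℤ`, `Alg W` is the Banach algebra of complex sequences
`c` with `∑ ‖c n‖ w n < ∞` under convolution.  `Herm W` is the real subalgebra of Hermitian sequences.
-/

namespace Vale.Agent.P205

open scoped ENNReal ComplexConjugate

/-- The index group. -/
abbrev Z2 := ℤ × ℤ

/-- A submultiplicative weight. -/
structure Wt where
  /-- the weight -/
  w : Z2 → ℝ
  one_le : ∀ n, 1 ≤ w n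
  submul : ∀ n m, w (n + m) ≤ w n * w m

namespace Wt
variable (W : Wt)
lemma pos (n : Z2) : 0 < W.w n := lt_of_lt_of_le one_pos (W.one_le n)
lemma ne (n : Z2) : W.w n ≠ 0 := (W.pos n).ne'
lemma nonneg (n : Z2) : 0 ≤ W.w n := (W.pos n).le
end Wt

/-- The underlying Banach space of the algebra: we use `ℓ¹` via `x n = c n * w n`. -/
def Alg (_W : Wt) : Type := lp (fun _ : Z2 => ℂ) 1

namespace Alg

variable {W : Wt}

noncomputable instance : NormedAddCommGroup (Alg W) :=
  inferInstanceAs (NormedAddCommGroup (lp (fun _ : Z2 => ℂ) 1))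
noncomputable instance : NormedSpace ℝ (Alg W) :=
  inferInstanceAs (NormedSpace ℝ (lp (fun _ : Z2 => ℂ) 1))
instance : CompleteSpace (Alg W) :=
  inferInstanceAs (CompleteSpace (lp (fun _ : Z2 => ℂ) 1))

/-- underlying `ℓ¹` element -/
def toLp (x : Alg W) : lp (fun _ : Z2 => ℂ) 1 := x

lemma memlp_iff (f : Z2 → ℂ) : Memℓp f 1 ↔ Summable (fun n => ‖f n‖) := by
  have h : (0 : ℝ) < (1 : ℝ≥0∞).toReal := by simp
  rw [memℓp_gen_iff h]; simp

lemma lp_norm (x : lp (fun _ : Z2 => ℂ) 1) : ‖x‖ = ∑' n, ‖x n‖ := by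
  have h : (0 : ℝ) < (1 : ℝ≥0∞).toReal := by simp
  rw [lp.norm_eq_tsum_rpow h]; simp

/-- The coefficient sequence. -/
noncomputable def c (x : Alg W) (n : Z2) : ℂ := (toLp x) n / W.w n

lemma c_mul_w (x : Alg W) (n : Z2) : c x n * W.w n = (toLp x) n := by
  unfold c
  have : (W.w n : ℂ) ≠ 0 := by exact_mod_cast W.ne n
  field_simp

lemma norm_c_mul_w (x : Alg W) (n : Z2) : ‖c x n‖ * W.w n = ‖(toLp x) n‖ := by
  rw [← c_mul_w, norm_mul]; simp [abs_of_pos (W.pos n)]

lemma summable_c (x : Alg W) : Summable (fun n => ‖c x n‖ * W.w n) := by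
  simp_rw [norm_c_mul_w]
  exact (memlp_iff _).1 (lp.memℓp (toLp x))

lemma norm_eq (x : Alg W) : ‖x‖ = ∑' n, ‖c x n‖ * W.w n := by
  simp_rw [norm_c_mul_w]
  exact lp_norm (toLp x)

lemma norm_c_le (x : Alg W) (n : Z2) : ‖c x n‖ * W.w n ≤ ‖x‖ := by
  rw [norm_eq]
  exact (summable_c x).le_tsum n (fun m _ => mul_nonneg (norm_nonneg _) (W.nonneg m))

lemma norm_c_le' (x : Alg W) (n : Z2) : ‖c x n‖ ≤ ‖x‖ := by
  refine le_trans ?_ (norm_c_le x n)
  exact le_mul_of_one_le_right (norm_nonneg _) (W.one_le n)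

@[ext] lemma ext {x y : Alg W} (h : ∀ n, c x n = c y n) : x = y := by
  apply Subtype.ext
  funext n
  have := h n
  have h2 := c_mul_w x n
  have h3 := c_mul_w y n
  rw [this] at h2
  exact h2.symm.trans h3

/-- Build an element from a weighted summable sequence. -/
noncomputable def mk (f : Z2 → ℂ) (h : Summable (fun n => ‖f n‖ * W.w n)) : Alg W :=
  (⟨fun n => f n * W.w n, (memlp_iff _).2 (by
    simpa [abs_of_pos (W.pos _)] using h)⟩ : lp (fun _ : Z2 => ℂ) 1)

@[simp] lemma c_mk (f : Z2 → ℂ) (h : Summable (fun n => ‖f n‖ * W.w n)) (n : Z2) :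
    c (mk f h) n = f n := by
  have : (W.w n : ℂ) ≠ 0 := by exact_mod_cast W.ne n
  change (f n * W.w n) / W.w n = f n
  field_simp

@[simp] lemma c_add (x y : Alg W) (n : Z2) : c (x + y) n = c x n + c y n := by
  change ((toLp x) n + (toLp y) n) / W.w n = _
  simp [c, add_div]

@[simp] lemma c_zero (n : Z2) : c (0 : Alg W) n = 0 := by
  change ((0 : ℂ)) / W.w n = _
  simp

@[simp] lemma c_neg (x : Alg W) (n : Z2) : c (-x) n = - c x n := by
  change (-(toLp x) n) / W.w n = _
  simp [c, neg_div]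

@[simp] lemma c_sub (x y : Alg W) (n : Z2) : c (x - y) n = c x n - c y n := by
  rw [sub_eq_add_neg, c_add, c_neg, sub_eq_add_neg]

@[simp] lemma c_smul (r : ℝ) (x : Alg W) (n : Z2) : c (r • x) n = r * c x n := by
  change (r • (toLp x) n) / W.w n = _
  simp [c, mul_div_assoc]

/-! ### Convolution -/

/-- Convolution of sequences. -/
noncomputable def conv (f g : Z2 → ℂ) (n : Z2) : ℂ := ∑' m, f m * g (n - m)

/-- Reindexing of pairs. -/
def pairEquiv : Z2 × Z2 ≃ Z2 × Z2 where
  toFun q := (q.2, q.1 - q.2)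
  invFun q := (q.1 + q.2, q.1)
  left_inv q := by ext <;> simp
  right_inv q := by ext <;> simp

section
variable {f g : Z2 → ℂ}

lemma summable_prod_weighted (hf : Summable (fun n => ‖f n‖ * W.w n))
    (hg : Summable (fun n => ‖g n‖ * W.w n)) :
    Summable (fun q : Z2 × Z2 => (‖f q.1‖ * W.w q.1) * (‖g q.2‖ * W.w q.2)) :=
  hf.mul_of_nonneg hg (fun n => mul_nonneg (norm_nonneg _) (W.nonneg n))
    (fun n => mul_nonneg (norm_nonneg _) (W.nonneg n))

/-- the pair family -/
noncomputable def pr (W : Wt) (f g : Z2 → ℂ) (q : Z2 × Z2) : ℝ :=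
  (‖f q.2‖ * W.w q.2) * (‖g (q.1 - q.2)‖ * W.w (q.1 - q.2))

lemma pr_nonneg (q : Z2 × Z2) : 0 ≤ pr W f g q :=
  mul_nonneg (mul_nonneg (norm_nonneg _) (W.nonneg _)) (mul_nonneg (norm_nonneg _) (W.nonneg _))

lemma summable_pr (hf : Summable (fun n => ‖f n‖ * W.w n))
    (hg : Summable (fun n => ‖g n‖ * W.w n)) : Summable (pr W f g) :=
  (pairEquiv.summable_iff (f := fun q : Z2 × Z2 => (‖f q.1‖ * W.w q.1) * (‖g q.2‖ * W.w q.2))).2
    (summable_prod_weighted hf hg)

lemma tsum_pr (hf : Summable (fun n => ‖f n‖ * W.w n))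
    (hg : Summable (fun n => ‖g n‖ * W.w n)) :
    ∑' q, pr W f g q = (∑' n, ‖f n‖ * W.w n) * (∑' n, ‖g n‖ * W.w n) := by
  have h := pairEquiv.tsum_eq (fun q : Z2 × Z2 => (‖f q.1‖ * W.w q.1) * (‖g q.2‖ * W.w q.2))
  have h2 : ∀ q, pr W f g q =
      (fun q : Z2 × Z2 => (‖f q.1‖ * W.w q.1) * (‖g q.2‖ * W.w q.2)) (pairEquiv q) := fun _ => rfl
  simp_rw [h2]
  rw [h]
  exact (hf.tsum_mul_tsum hg (summable_prod_weighted hf hg)).symm

lemma summable_fiber (hf : Summable (fun n => ‖f n‖ * W.w n))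
    (hg : Summable (fun n => ‖g n‖ * W.w n)) (n : Z2) :
    Summable (fun m => pr W f g (n, m)) :=
  (summable_pr hf hg).prod_factor n

lemma summable_conv_norm (hf : Summable (fun n => ‖f n‖ * W.w n))
    (hg : Summable (fun n => ‖g n‖ * W.w n)) (n : Z2) :
    Summable (fun m => f m * g (n - m)) := by
  apply Summable.of_norm
  refine Summable.of_nonneg_of_le (fun _ => norm_nonneg _) (fun m => ?_) (summable_fiber hf hg n)
  rw [norm_mul]
  unfold pr
  simp only
  have h1 := W.one_le m
  have h2 := W.one_le (n - m)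
  have h3 := norm_nonneg (f m)
  have h4 := norm_nonneg (g (n - m))
  calc ‖f m‖ * ‖g (n - m)‖ = (‖f m‖ * 1) * (‖g (n - m)‖ * 1) := by ring
    _ ≤ _ := by gcongr

lemma conv_weight_le (hf : Summable (fun n => ‖f n‖ * W.w n))
    (hg : Summable (fun n => ‖g n‖ * W.w n)) (n : Z2) :
    ‖conv f g n‖ * W.w n ≤ ∑' m, pr W f g (n, m) := by
  have hs := summable_conv_norm hf hg n
  have h1 : ‖conv f g n‖ ≤ ∑' m, ‖f m * g (n - m)‖ := by
    unfold conv
    exact norm_tsum_le_tsum_norm (hs.norm)
  have h2 : (∑' m, ‖f m * g (n - m)‖) * W.w n ≤ ∑' m, pr W f g (n, m) := by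
    rw [← tsum_mul_right]
    refine Summable.tsum_le_tsum (fun m => ?_) (hs.norm.mul_right _) (summable_fiber hf hg n)
    rw [norm_mul]
    unfold pr
    simp only
    have hw : W.w n ≤ W.w m * W.w (n - m) := by
      have := W.submul m (n - m)
      simpa using this
    have h3 := norm_nonneg (f m)
    have h4 := norm_nonneg (g (n - m))
    calc ‖f m‖ * ‖g (n - m)‖ * W.w n ≤ ‖f m‖ * ‖g (n - m)‖ * (W.w m * W.w (n - m)) := by gcongr
      _ = _ := by ring
  exact le_trans (mul_le_mul_of_nonneg_right h1 (W.nonneg n)) h2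

lemma summable_conv (hf : Summable (fun n => ‖f n‖ * W.w n))
    (hg : Summable (fun n => ‖g n‖ * W.w n)) :
    Summable (fun n => ‖conv f g n‖ * W.w n) := by
  have h := (summable_pr hf hg).prod
  exact Summable.of_nonneg_of_le (fun n => mul_nonneg (norm_nonneg _) (W.nonneg n))
    (conv_weight_le hf hg) h

lemma tsum_conv_le (hf : Summable (fun n => ‖f n‖ * W.w n))
    (hg : Summable (fun n => ‖g n‖ * W.w n)) :
    ∑' n, ‖conv f g n‖ * W.w n ≤ (∑' n, ‖f n‖ * W.w n) * (∑' n, ‖g n‖ * W.w n) := by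
  rw [← tsum_pr hf hg, (summable_pr hf hg).tsum_prod]
  exact Summable.tsum_le_tsum (conv_weight_le hf hg) (summable_conv hf hg) (summable_pr hf hg).prod

end


/-! ### Ring structure -/

noncomputable instance : Mul (Alg W) :=
  ⟨fun x y => mk (conv (c x) (c y)) (summable_conv (summable_c x) (summable_c y))⟩

@[simp] lemma c_mul (x y : Alg W) (n : Z2) : c (x * y) n = conv (c x) (c y) n :=
  c_mk _ _ _

/-- The unit sequence. -/
noncomputable def unitSeq (n : Z2) : ℂ := if n = 0 then 1 else 0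

lemma summable_unit : Summable (fun n => ‖unitSeq n‖ * W.w n) := by
  apply summable_of_ne_finset_zero (s := {0})
  intro n hn
  have : n ≠ 0 := by simpa using hn
  simp [unitSeq, this]

noncomputable instance : One (Alg W) := ⟨mk unitSeq summable_unit⟩

lemma c_one (n : Z2) : c (1 : Alg W) n = if n = 0 then 1 else 0 := c_mk _ _ _

lemma conv_comm (f g : Z2 → ℂ) (n : Z2) : conv f g n = conv g f n := by
  unfold conv
  rw [← (Equiv.subLeft n).tsum_eq (fun m => f m * g (n - m))]
  refine tsum_congr (fun m => ?_)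
  simp [mul_comm]

lemma conv_unit (f : Z2 → ℂ) (n : Z2) : conv unitSeq f n = f n := by
  unfold conv
  rw [tsum_eq_single 0]
  · simp [unitSeq]
  · intro m hm
    simp [unitSeq, hm]

lemma conv_zero (f : Z2 → ℂ) (n : Z2) : conv f 0 n = 0 := by
  unfold conv; simp

lemma conv_assoc {f g h : Z2 → ℂ} (hf : Summable (fun n => ‖f n‖ * W.w n))
    (hg : Summable (fun n => ‖g n‖ * W.w n)) (hh : Summable (fun n => ‖h n‖ * W.w n)) (n : Z2) :
    conv (conv f g) h n = conv f (conv g h) n := by
  set T : Z2 × Z2 → ℂ := fun q => f q.1 * g q.2 * h (n - q.1 - q.2) with hT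
  have hhb : ∀ l, ‖h l‖ ≤ ∑' n, ‖h n‖ * W.w n := fun l => by
    have h1 : ‖h l‖ * W.w l ≤ ∑' n, ‖h n‖ * W.w n :=
      hh.le_tsum l (fun m _ => mul_nonneg (norm_nonneg _) (W.nonneg m))
    exact le_trans (le_mul_of_one_le_right (norm_nonneg _) (W.one_le l)) h1
  have hTs : Summable T := by
    apply Summable.of_norm
    refine Summable.of_nonneg_of_le (fun _ => norm_nonneg _) (fun q => ?_)
      ((summable_prod_weighted hf hg).mul_right (∑' n, ‖h n‖ * W.w n))
    rw [hT]
    simp only [norm_mul]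
    have h1 := W.one_le q.1
    have h2 := W.one_le q.2
    have h3 := norm_nonneg (f q.1)
    have h4 := norm_nonneg (g q.2)
    have h5 := hhb (n - q.1 - q.2)
    have h6 : ‖f q.1‖ * ‖g q.2‖ ≤ ‖f q.1‖ * W.w q.1 * (‖g q.2‖ * W.w q.2) := by
      calc ‖f q.1‖ * ‖g q.2‖ = (‖f q.1‖ * 1) * (‖g q.2‖ * 1) := by ring
        _ ≤ _ := by gcongr
    exact mul_le_mul h6 h5 (norm_nonneg _) (mul_nonneg (mul_nonneg h3 (W.nonneg _))
      (mul_nonneg h4 (W.nonneg _)))
  have hL : conv (conv f g) h n = ∑' q, T (pairEquiv q) := by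
    have hTs' : Summable (fun q => T (pairEquiv q)) := pairEquiv.summable_iff.2 hTs
    rw [hTs'.tsum_prod]
    unfold conv
    refine tsum_congr (fun m => ?_)
    rw [← tsum_mul_right]
    refine tsum_congr (fun k => ?_)
    simp only [hT, pairEquiv, Equiv.coe_fn_mk]
    congr 2
    ring
  have hR : conv f (conv g h) n = ∑' q, T q := by
    rw [hTs.tsum_prod]
    unfold conv
    refine tsum_congr (fun k => ?_)
    rw [← tsum_mul_left]
    refine tsum_congr (fun j => ?_)
    simp only [hT]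
    rw [mul_assoc]
  rw [hL, hR]
  exact pairEquiv.tsum_eq T

lemma conv_add {f g h : Z2 → ℂ} (hf : Summable (fun n => ‖f n‖ * W.w n))
    (hg : Summable (fun n => ‖g n‖ * W.w n)) (hh : Summable (fun n => ‖h n‖ * W.w n)) (n : Z2) :
    conv f (g + h) n = conv f g n + conv f h n := by
  unfold conv
  rw [← (summable_conv_norm hf hg n).tsum_add (summable_conv_norm hf hh n)]
  refine tsum_congr (fun m => ?_)
  simp [mul_add]

noncomputable instance : CommRing (Alg W) :=
  { (inferInstance : AddCommGroup (Alg W)), (inferInstance : Mul (Alg W)),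
    (inferInstance : One (Alg W)) with
    mul_assoc := fun x y z => by
      ext n
      have h1 : c (x * y) = conv (c x) (c y) := funext (c_mul x y)
      have h2 : c (y * z) = conv (c y) (c z) := funext (c_mul y z)
      rw [c_mul, c_mul, h1, h2]
      exact conv_assoc (summable_c x) (summable_c y) (summable_c z) n
    one_mul := fun x => by
      ext n
      have h1 : c (1 : Alg W) = unitSeq := funext (fun n => c_one n)
      rw [c_mul, h1, conv_unit]
    mul_one := fun x => by
      ext n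
      have h1 : c (1 : Alg W) = unitSeq := funext (fun n => c_one n)
      rw [c_mul, h1, conv_comm, conv_unit]
    left_distrib := fun x y z => by
      ext n
      have h1 : c (y + z) = c y + c z := funext (c_add y z)
      rw [c_mul, c_add, c_mul, c_mul, h1]
      exact conv_add (summable_c x) (summable_c y) (summable_c z) n
    right_distrib := fun x y z => by
      ext n
      have h1 : c (x + y) = c x + c y := funext (c_add x y)
      rw [c_mul, c_add, c_mul, c_mul, h1, conv_comm, conv_comm (c x), conv_comm (c y)]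
      exact conv_add (summable_c z) (summable_c x) (summable_c y) n
    zero_mul := fun x => by
      ext n
      have h1 : c (0 : Alg W) = 0 := funext c_zero
      rw [c_mul, h1, conv_comm, conv_zero]; rfl
    mul_zero := fun x => by
      ext n
      have h1 : c (0 : Alg W) = 0 := funext c_zero
      rw [c_mul, h1, conv_zero]; rfl
    mul_comm := fun x y => by
      ext n
      rw [c_mul, c_mul, conv_comm] }

lemma norm_mul_le' (x y : Alg W) : ‖x * y‖ ≤ ‖x‖ * ‖y‖ := by
  rw [norm_eq, norm_eq x, norm_eq y]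
  simp_rw [c_mul]
  exact tsum_conv_le (summable_c x) (summable_c y)

noncomputable instance : NormedCommRing (Alg W) :=
  { (inferInstance : CommRing (Alg W)), (inferInstance : NormedAddCommGroup (Alg W)) with
    dist_eq := fun x y => by rw [dist_comm, dist_eq_norm, sub_eq_add_neg, add_comm]
    norm_mul_le := norm_mul_le'
    mul_comm := mul_comm }

lemma smul_mul (r : ℝ) (x y : Alg W) : (r • x) * y = r • (x * y) := by
  ext n
  rw [c_mul, c_smul, c_mul]
  have h1 : c (r • x) = fun m => (r : ℂ) * c x m := funext (c_smul r x)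
  rw [h1]
  unfold conv
  rw [← tsum_mul_left]
  refine tsum_congr (fun m => ?_)
  ring

noncomputable instance : Algebra ℝ (Alg W) :=
  Algebra.ofModule (fun r x y => smul_mul r x y)
    (fun r x y => by rw [mul_comm, smul_mul, mul_comm])

noncomputable instance : NormedAlgebra ℝ (Alg W) where
  norm_smul_le := fun r x => norm_smul_le r x


/-! ### Hermitian subalgebra -/

lemma c_neg_mul_mem {x y : Alg W} (hx : ∀ n, c x (-n) = conj (c x n))
    (hy : ∀ n, c y (-n) = conj (c y n)) (n : Z2) : c (x * y) (-n) = conj (c (x * y) n) := by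
  rw [c_mul, c_mul]
  unfold conv
  rw [Complex.conj_tsum, ← (Equiv.neg Z2).tsum_eq (fun m => c x m * c y (-n - m))]
  refine tsum_congr (fun m => ?_)
  simp only [Equiv.neg_apply, map_mul]
  rw [hx m, ← hy (n - m)]
  congr 2
  abel

end Alg

/-- The real subalgebra of Hermitian sequences. -/
noncomputable def herm (W : Wt) : Subalgebra ℝ (Alg W) where
  carrier := {x | ∀ n, Alg.c x (-n) = conj (Alg.c x n)}
  mul_mem' := fun hx hy n => Alg.c_neg_mul_mem hx hy n
  add_mem' := fun {x y} hx hy n => by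
    rw [Alg.c_add, Alg.c_add, hx n, hy n, map_add]
  algebraMap_mem' := fun r n => by
    rw [Algebra.algebraMap_eq_smul_one, Alg.c_smul, Alg.c_smul, Alg.c_one, Alg.c_one]
    by_cases h : n = 0
    · simp [h]
    · have h2 : -n ≠ 0 := neg_ne_zero.2 h
      simp [h, h2]

/-- The real Banach algebra of Hermitian sequences. -/
abbrev Herm (W : Wt) : Type := ↥(herm W)

namespace Alg
variable {W : Wt}

lemma continuous_c (n : Z2) : Continuous (fun x : Alg W => c x n) := by
  have hb : ∀ x y : Alg W, ‖c x n - c y n‖ ≤ ‖x - y‖ := fun x y => by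
    rw [← c_sub]; exact norm_c_le' _ _
  refine Metric.continuous_iff.2 (fun x ε hε => ⟨ε, hε, fun y hy => ?_⟩)
  rw [dist_eq_norm] at hy ⊢
  exact lt_of_le_of_lt (hb y x) hy

lemma isClosed_herm : IsClosed ((herm W : Subalgebra ℝ (Alg W)) : Set (Alg W)) := by
  have : ((herm W : Subalgebra ℝ (Alg W)) : Set (Alg W)) =
      ⋂ n, {x | c x (-n) = conj (c x n)} := by
    ext x; simp [herm]
  rw [this]
  refine isClosed_iInter (fun n => isClosed_eq (continuous_c _) ?_)
  exact Complex.continuous_conj.comp (continuous_c n)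

instance : CompleteSpace (Herm W) := isClosed_herm.completeSpace_coe

/-! ### Multipliers -/

/-- A bounded Hermitian Fourier multiplier. -/
structure Mtp where
  /-- the symbol -/
  μ : Z2 → ℂ
  /-- a bound -/
  C : ℝ
  bound : ∀ n, ‖μ n‖ ≤ C
  herm : ∀ n, μ (-n) = conj (μ n)

lemma Mtp.C_nonneg (M : Mtp) : 0 ≤ M.C := le_trans (norm_nonneg _) (M.bound 0)

lemma mtp_summable (M : Mtp) (x : Alg W) : Summable (fun n => ‖M.μ n * c x n‖ * W.w n) := by
  refine Summable.of_nonneg_of_le (fun n => mul_nonneg (norm_nonneg _) (W.nonneg n)) (fun n => ?_)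
    ((summable_c x).mul_left M.C)
  rw [norm_mul, mul_assoc]
  exact mul_le_mul_of_nonneg_right (M.bound n) (mul_nonneg (norm_nonneg _) (W.nonneg n))

/-- Action of a multiplier on the algebra. -/
noncomputable def mtpA (M : Mtp) (x : Alg W) : Alg W := mk (fun n => M.μ n * c x n) (mtp_summable M x)

@[simp] lemma c_mtpA (M : Mtp) (x : Alg W) (n : Z2) : c (mtpA M x) n = M.μ n * c x n := c_mk _ _ _

lemma norm_mtpA_le (M : Mtp) (x : Alg W) : ‖mtpA M x‖ ≤ M.C * ‖x‖ := by
  rw [norm_eq, norm_eq x, ← tsum_mul_left]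
  simp_rw [c_mtpA]
  refine Summable.tsum_le_tsum (fun n => ?_) (mtp_summable M x) ((summable_c x).mul_left M.C)
  rw [norm_mul, mul_assoc]
  exact mul_le_mul_of_nonneg_right (M.bound n) (mul_nonneg (norm_nonneg _) (W.nonneg n))

lemma mtpA_mem (M : Mtp) {x : Alg W} (hx : x ∈ herm W) : mtpA M x ∈ herm W := by
  intro n
  rw [c_mtpA, c_mtpA, M.herm n, hx n, map_mul]

/-- A multiplier as a continuous linear map of the Hermitian algebra. -/
noncomputable def mtp (M : Mtp) : Herm W →L[ℝ] Herm W :=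
  LinearMap.mkContinuous
    { toFun := fun x => ⟨mtpA M x.1, mtpA_mem M x.2⟩
      map_add' := fun x y => by
        apply Subtype.ext; ext n
        simp [mul_add]
      map_smul' := fun r x => by
        apply Subtype.ext; ext n
        simp [mul_left_comm] }
    M.C (fun x => norm_mtpA_le M x.1)

@[simp] lemma c_mtp (M : Mtp) (x : Herm W) (n : Z2) : c (mtp M x).1 n = M.μ n * c x.1 n :=
  c_mtpA _ _ _

/-! ### Characters and evaluation -/

/-- A unitary character of `ℤ²`. -/
structure Chr where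
  /-- the values -/
  χ : Z2 → ℂ
  norm_eq : ∀ n, ‖χ n‖ = 1
  map_add : ∀ n m, χ (n + m) = χ n * χ m
  map_neg : ∀ n, χ (-n) = conj (χ n)

lemma summable_c_norm (x : Alg W) : Summable (fun n => ‖c x n‖) :=
  Summable.of_nonneg_of_le (fun _ => norm_nonneg _)
    (fun n => le_mul_of_one_le_right (norm_nonneg _) (W.one_le n)) (summable_c x)

lemma summable_ev (X : Chr) (x : Alg W) : Summable (fun n => ‖c x n * X.χ n‖) := by
  simp_rw [norm_mul, X.norm_eq, mul_one]
  exact summable_c_norm x

/-- Complex evaluation at a character. -/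
noncomputable def evC (X : Chr) (x : Alg W) : ℂ := ∑' n, c x n * X.χ n

lemma norm_evC_le (X : Chr) (x : Alg W) : ‖evC X x‖ ≤ ‖x‖ := by
  refine le_trans (norm_tsum_le_tsum_norm (summable_ev X x)) ?_
  rw [norm_eq]
  refine Summable.tsum_le_tsum (fun n => ?_) (summable_ev X x) (summable_c x)
  rw [norm_mul, X.norm_eq, mul_one]
  exact le_mul_of_one_le_right (norm_nonneg _) (W.one_le n)

lemma evC_add (X : Chr) (x y : Alg W) : evC X (x + y) = evC X x + evC X y := by
  unfold evC
  rw [← (Summable.of_norm (summable_ev X x)).tsum_add (Summable.of_norm (summable_ev X y))]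
  refine tsum_congr (fun n => ?_)
  simp [add_mul]

lemma evC_smul (X : Chr) (r : ℝ) (x : Alg W) : evC X (r • x) = r * evC X x := by
  unfold evC
  rw [← tsum_mul_left]
  refine tsum_congr (fun n => ?_)
  simp [mul_assoc]

lemma evC_one (X : Chr) : evC X (1 : Alg W) = 1 := by
  have h0 : X.χ 0 = 1 := by
    have h1 := X.map_add 0 0
    have h2 : ‖X.χ 0‖ = 1 := X.norm_eq 0
    have h3 : X.χ 0 ≠ 0 := by
      intro h; rw [h] at h2; simp at h2
    simp only [add_zero] at h1
    exact (mul_eq_left₀ h3).1 h1.symm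
  unfold evC
  rw [tsum_eq_single 0]
  · simp [c_one, h0]
  · intro m hm
    simp [c_one, hm]

lemma evC_mul (X : Chr) (x y : Alg W) : evC X (x * y) = evC X x * evC X y := by
  have hQ : Summable (fun q : Z2 × Z2 => (c x q.1 * X.χ q.1) * (c y q.2 * X.χ q.2)) :=
    summable_mul_of_summable_norm (f := fun n => c x n * X.χ n) (g := fun n => c y n * X.χ n)
      (summable_ev X x) (summable_ev X y)
  have hQ' : Summable (fun q : Z2 × Z2 => c x (pairEquiv q).1 * X.χ (pairEquiv q).1 *
      (c y (pairEquiv q).2 * X.χ (pairEquiv q).2)) := (pairEquiv.summable_iff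
    (f := fun q : Z2 × Z2 => (c x q.1 * X.χ q.1) * (c y q.2 * X.χ q.2))).2 hQ
  have h1 := tsum_mul_tsum_of_summable_norm (f := fun n => c x n * X.χ n)
    (g := fun n => c y n * X.χ n) (summable_ev X x) (summable_ev X y)
  have h3 := pairEquiv.tsum_eq
    (fun q : Z2 × Z2 => (c x q.1 * X.χ q.1) * (c y q.2 * X.χ q.2))
  unfold evC
  rw [h1, ← h3, hQ'.tsum_prod]
  refine tsum_congr (fun n => ?_)
  rw [c_mul]
  unfold conv
  rw [← tsum_mul_right]
  refine tsum_congr (fun m => ?_)
  have h2 : X.χ n = X.χ m * X.χ (n - m) := by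
    rw [← X.map_add]; congr 1; abel
  rw [h2]
  change _ = c x m * X.χ m * (c y (n - m) * X.χ (n - m))
  ring

lemma evC_conj (X : Chr) {x : Alg W} (hx : x ∈ herm W) : conj (evC X x) = evC X x := by
  unfold evC
  rw [Complex.conj_tsum, ← (Equiv.neg Z2).tsum_eq (fun n => c x n * X.χ n)]
  refine tsum_congr (fun n => ?_)
  simp only [Equiv.neg_apply, map_mul]
  rw [hx n, X.map_neg]

/-- Real evaluation at a character. -/
noncomputable def ev (X : Chr) (x : Herm W) : ℝ := (evC X x.1).re

lemma ev_coe (X : Chr) (x : Herm W) : ((ev X x : ℝ) : ℂ) = evC X x.1 := by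
  have h := Complex.conj_eq_iff_im.1 (evC_conj X x.2)
  apply Complex.ext
  · simp [ev]
  · simp [h]

lemma abs_ev_le (X : Chr) (x : Herm W) : |ev X x| ≤ ‖x‖ :=
  le_trans (Complex.abs_re_le_norm _) (norm_evC_le X x.1)

lemma ev_add (X : Chr) (x y : Herm W) : ev X (x + y) = ev X x + ev X y := by
  simp [ev, evC_add]

lemma ev_smul (X : Chr) (r : ℝ) (x : Herm W) : ev X (r • x) = r * ev X x := by
  simp [ev, evC_smul]

lemma ev_one (X : Chr) : ev X (1 : Herm W) = 1 := by
  simp [ev, evC_one]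

lemma ev_mul (X : Chr) (x y : Herm W) : ev X (x * y) = ev X x * ev X y := by
  have h : ((ev X (x * y) : ℝ) : ℂ) = ((ev X x * ev X y : ℝ) : ℂ) := by
    rw [ev_coe]
    push_cast
    rw [ev_coe, ev_coe]
    exact evC_mul X x.1 y.1
  exact_mod_cast h

/-- Evaluation as a ring homomorphism. -/
noncomputable def evHom (X : Chr) : Herm W →+* ℝ where
  toFun := ev X
  map_one' := ev_one X
  map_mul' := ev_mul X
  map_zero' := by
    have := ev_smul X 0 (1 : Herm W)
    simpa using this
  map_add' := ev_add X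

@[simp] lemma evHom_apply (X : Chr) (x : Herm W) : evHom X x = ev X x := rfl

end Alg

end Vale.Agent.P205
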