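import Vale.Agent.P205.WA

/-!
# Superpolynomial submultiplicative weights adapted to a rapidly decaying sequence
-/

namespace Vale.Agent.P205

/-- `ℓ¹` norm on `ℤ²`. -/
noncomputable def nrm (n : Z2) : ℝ := |(n.1 : ℝ)| + |(n.2 : ℝ)|

lemma nrm_nonneg (n : Z2) : 0 ≤ nrm n := add_nonneg (abs_nonneg _) (abs_nonneg _)

lemma nrm_add (n m : Z2) : nrm (n + m) ≤ nrm n + nrm m := by
  unfold nrm
  have h1 := abs_add_le (n.1 : ℝ) m.1
  have h2 := abs_add_le (n.2 : ℝ) m.2
  simp only [Prod.fst_add, Prod.snd_add, Int.cast_add]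
  linarith

/-- bound for powers -/
lemma one_add_pow_le (κ t : ℝ) (hκ0 : 0 ≤ κ) (hκ1 : κ ≤ 1) (ht : 0 ≤ t) (L : ℕ) :
    (1 + κ * t) ^ L ≤ 1 + κ * L * (1 + t) ^ L := by
  induction L with
  | zero => simp
  | succ L ih =>
    have h1 : 0 ≤ κ * t := mul_nonneg hκ0 ht
    have h2 : 1 + κ * t ≤ 1 + t := by nlinarith
    have h3 : 1 ≤ (1 + t) ^ L := one_le_pow₀ (by linarith)
    rw [pow_succ, pow_succ]
    have h4 : (1 + κ * t) ^ L * (1 + κ * t) ≤ (1 + κ * L * (1 + t) ^ L) * (1 + κ * t) :=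
      mul_le_mul_of_nonneg_right ih (by linarith)
    have h5 : κ * L * (1 + t) ^ L * (1 + κ * t) ≤ κ * L * (1 + t) ^ L * (1 + t) :=
      mul_le_mul_of_nonneg_left h2 (by positivity)
    have h6 : κ * t * 1 ≤ κ * (1 + t) ^ L * (1 + t) := by
      have : (1:ℝ) * t ≤ (1 + t) ^ L * (1 + t) := mul_le_mul h3 (by linarith) ht (by positivity)
      nlinarith
    push_cast
    nlinarith

section
variable (a : Z2 → ℝ)

/-- moments -/
noncomputable def mom (L : ℕ) : ℝ := ∑' n, a n * (1 + nrm n) ^ L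

/-- the scale parameter -/
noncomputable def wkap (L : ℕ) : ℝ := 1 / (2 ^ L * (1 + L) * (1 + mom a L))

variable {a}
variable (ha0 : ∀ n, 0 ≤ a n) (ha : ∀ L : ℕ, Summable (fun n => a n * (1 + nrm n) ^ L))
include ha0 ha

lemma mom_nonneg (L : ℕ) : 0 ≤ mom a L :=
  tsum_nonneg (fun n => mul_nonneg (ha0 n) (pow_nonneg (by linarith [nrm_nonneg n]) _))

lemma wkap_pos (L : ℕ) : 0 < wkap a L := by
  unfold wkap
  have := mom_nonneg ha0 ha L
  positivity

lemma wkap_mul_den (L : ℕ) : wkap a L * (2 ^ L * (1 + L) * (1 + mom a L)) = 1 := by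
  unfold wkap
  have := mom_nonneg ha0 ha L
  field_simp

lemma wkap_mul_succ_le (L : ℕ) : wkap a L * (1 + L) ≤ 1 := by
  have h := wkap_mul_den ha0 ha L
  have h1 := wkap_pos ha0 ha L
  have h2 := mom_nonneg ha0 ha L
  have h3 : (1:ℝ) ≤ 2 ^ L := one_le_pow₀ (by norm_num)
  have h4 : (1:ℝ) ≤ 2 ^ L * (1 + mom a L) := by nlinarith
  have h5 : (0:ℝ) ≤ wkap a L * (1 + L) := by positivity
  calc wkap a L * (1 + L) = wkap a L * (1 + L) * 1 := by ring
    _ ≤ wkap a L * (1 + L) * (2 ^ L * (1 + mom a L)) := mul_le_mul_of_nonneg_left h4 h5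
    _ = wkap a L * (2 ^ L * (1 + L) * (1 + mom a L)) := by ring
    _ = 1 := h

lemma wkap_le_one (L : ℕ) : wkap a L ≤ 1 := by
  have h := wkap_mul_succ_le ha0 ha L
  have h1 := wkap_pos ha0 ha L
  have : (0:ℝ) ≤ L := Nat.cast_nonneg L
  nlinarith

end

/-- The weight: supremum of the `(1 + κ_L |n|)^L`. -/
noncomputable def omegaW (a : Z2 → ℝ) (n : Z2) : ℝ := ⨆ L : ℕ, (1 + wkap a L * nrm n) ^ L

section
variable {a : Z2 → ℝ}
variable (ha0 : ∀ n, 0 ≤ a n) (ha : ∀ L : ℕ, Summable (fun n => a n * (1 + nrm n) ^ L))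
include ha0 ha

lemma omega_term_le_exp (L : ℕ) (n : Z2) : (1 + wkap a L * nrm n) ^ L ≤ Real.exp (nrm n) := by
  have hk := wkap_pos ha0 ha L
  have hn := nrm_nonneg n
  have h1 : 1 + wkap a L * nrm n ≤ Real.exp (wkap a L * nrm n) := by
    linarith [Real.add_one_le_exp (wkap a L * nrm n)]
  have h0 : 0 ≤ 1 + wkap a L * nrm n := by positivity
  calc (1 + wkap a L * nrm n) ^ L ≤ (Real.exp (wkap a L * nrm n)) ^ L := pow_le_pow_left₀ h0 h1 L
    _ = Real.exp (L * (wkap a L * nrm n)) := by rw [Real.exp_nat_mul]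
    _ ≤ Real.exp (nrm n) := by
        apply Real.exp_le_exp.2
        have h2 := wkap_mul_succ_le ha0 ha L
        have h3 : L * wkap a L ≤ 1 := by nlinarith
        calc L * (wkap a L * nrm n) = (L * wkap a L) * nrm n := by ring
          _ ≤ 1 * nrm n := mul_le_mul_of_nonneg_right h3 hn
          _ = nrm n := one_mul _

lemma omega_bdd (n : Z2) : BddAbove (Set.range (fun L : ℕ => (1 + wkap a L * nrm n) ^ L)) :=
  ⟨Real.exp (nrm n), by rintro _ ⟨L, rfl⟩; exact omega_term_le_exp ha0 ha L n⟩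

lemma omega_term_le (L : ℕ) (n : Z2) : (1 + wkap a L * nrm n) ^ L ≤ omegaW a n :=
  le_ciSup (omega_bdd ha0 ha n) L

lemma omega_one_le (n : Z2) : 1 ≤ omegaW a n := by
  have := omega_term_le ha0 ha 0 n
  simpa using this

lemma omega_submul (n m : Z2) : omegaW a (n + m) ≤ omegaW a n * omegaW a m := by
  apply ciSup_le
  intro L
  have hk := wkap_pos ha0 ha L
  have hn := nrm_nonneg n
  have hm := nrm_nonneg m
  have h1 := omega_term_le ha0 ha L n
  have h2 := omega_term_le ha0 ha L m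
  have h3 : 1 + wkap a L * nrm (n + m) ≤ (1 + wkap a L * nrm n) * (1 + wkap a L * nrm m) := by
    have h4 := nrm_add n m
    have h5 := nrm_nonneg (n + m)
    have h6 : wkap a L * nrm (n + m) ≤ wkap a L * (nrm n + nrm m) :=
      mul_le_mul_of_nonneg_left h4 hk.le
    have h7 : 0 ≤ wkap a L * nrm n * (wkap a L * nrm m) := by positivity
    nlinarith
  have h8 : 0 ≤ 1 + wkap a L * nrm (n + m) := by
    have h5 := nrm_nonneg (n + m)
    positivity
  calc (1 + wkap a L * nrm (n + m)) ^ L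
      ≤ ((1 + wkap a L * nrm n) * (1 + wkap a L * nrm m)) ^ L := pow_le_pow_left₀ h8 h3 L
    _ = (1 + wkap a L * nrm n) ^ L * (1 + wkap a L * nrm m) ^ L := mul_pow _ _ _
    _ ≤ omegaW a n * omegaW a m := by
        apply mul_le_mul h1 h2 (by positivity)
        exact le_trans (by norm_num) (omega_one_le ha0 ha n)

/-- family dominating the excess -/
noncomputable def dBound (a : Z2 → ℝ) (q : ℕ × Z2) : ℝ :=
  (1 / 2 : ℝ) ^ q.1 * (a q.2 * (1 + nrm q.2) ^ q.1 / (1 + mom a q.1))

lemma dBound_nonneg (q : ℕ × Z2) : 0 ≤ dBound a q := by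
  unfold dBound
  have h1 := mom_nonneg ha0 ha q.1
  have h2 := ha0 q.2
  have h3 := nrm_nonneg q.2
  positivity

lemma summable_dBound : Summable (dBound a) := by
  rw [summable_prod_of_nonneg (dBound_nonneg ha0 ha)]
  have hfib : ∀ L : ℕ, Summable (fun n => dBound a (L, n)) := fun L => by
    unfold dBound
    show Summable (fun n => (1 / 2 : ℝ) ^ L * (a n * (1 + nrm n) ^ L / (1 + mom a L)))
    exact ((ha L).div_const _).mul_left _
  refine ⟨hfib, ?_⟩
  have hle : ∀ L : ℕ, ∑' n, dBound a (L, n) ≤ (1 / 2 : ℝ) ^ L := fun L => by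
    unfold dBound
    simp only
    rw [tsum_mul_left, tsum_div_const]
    have h1 := mom_nonneg ha0 ha L
    have h2 : mom a L / (1 + mom a L) ≤ 1 := by
      rw [div_le_one (by linarith)]; linarith
    have h3 : (0:ℝ) ≤ (1 / 2) ^ L := by positivity
    calc (1 / 2 : ℝ) ^ L * ((∑' n, a n * (1 + nrm n) ^ L) / (1 + mom a L))
        = (1 / 2 : ℝ) ^ L * (mom a L / (1 + mom a L)) := rfl
      _ ≤ (1 / 2 : ℝ) ^ L * 1 := mul_le_mul_of_nonneg_left h2 h3
      _ = (1 / 2 : ℝ) ^ L := mul_one _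
  exact Summable.of_nonneg_of_le (fun L => tsum_nonneg (fun n => dBound_nonneg ha0 ha (L, n))) hle
    (summable_geometric_two)

lemma term_excess (L : ℕ) (n : Z2) :
    a n * (1 + wkap a L * nrm n) ^ L ≤ a n + dBound a (L, n) := by
  have hk := wkap_pos ha0 ha L
  have hk1 := wkap_le_one ha0 ha L
  have hn := nrm_nonneg n
  have h1 := one_add_pow_le (wkap a L) (nrm n) hk.le hk1 hn L
  have h2 : wkap a L * L * (1 + nrm n) ^ L * a n ≤ dBound a (L, n) := by
    unfold dBound
    simp only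
    have hm := mom_nonneg ha0 ha L
    have hd := wkap_mul_den ha0 ha L
    have hk2 := wkap_mul_succ_le ha0 ha L
    have e1 : wkap a L = (1 / 2) ^ L / (1 + L) / (1 + mom a L) := by
      unfold wkap
      rw [one_div_pow]
      field_simp
    have h3 := ha0 n
    have h4 : (L : ℝ) / (1 + L) ≤ 1 := by
      rw [div_le_one (by positivity)]; linarith
    have h5 : 0 ≤ (1 / 2 : ℝ) ^ L * (a n * (1 + nrm n) ^ L / (1 + mom a L)) := by positivity
    calc wkap a L * L * (1 + nrm n) ^ L * a n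
        = (L / (1 + L)) * ((1 / 2 : ℝ) ^ L * (a n * (1 + nrm n) ^ L / (1 + mom a L))) := by
          rw [e1]; field_simp
      _ ≤ 1 * ((1 / 2 : ℝ) ^ L * (a n * (1 + nrm n) ^ L / (1 + mom a L))) :=
          mul_le_mul_of_nonneg_right h4 h5
      _ = _ := one_mul _
  have h3 := ha0 n
  calc a n * (1 + wkap a L * nrm n) ^ L ≤ a n * (1 + wkap a L * L * (1 + nrm n) ^ L) :=
        mul_le_mul_of_nonneg_left h1 h3
    _ = a n + wkap a L * L * (1 + nrm n) ^ L * a n := by ring
    _ ≤ _ := by linarith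

lemma summable_omega : Summable (fun n => a n * omegaW a n) := by
  have hB : Summable (fun n => ∑' L, dBound a (L, n)) := by
    have h := (summable_dBound ha0 ha).prod_symm
    exact h.prod
  have hfib : ∀ n, Summable (fun L => dBound a (L, n)) := fun n => by
    have h := (summable_dBound ha0 ha).prod_symm
    exact h.prod_factor n
  have ha1 : Summable a := by
    have := ha 0
    simpa using this
  refine Summable.of_nonneg_of_le (fun n => mul_nonneg (ha0 n)
    (le_trans zero_le_one (omega_one_le ha0 ha n))) (fun n => ?_) (ha1.add hB)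
  by_cases h : a n = 0
  · simp only [h, zero_mul]
    exact add_nonneg le_rfl (tsum_nonneg (fun L => dBound_nonneg ha0 ha (L, n)))
  · have hpos : 0 < a n := lt_of_le_of_ne (ha0 n) (Ne.symm h)
    have : omegaW a n ≤ (a n + ∑' L, dBound a (L, n)) / a n := by
      apply ciSup_le
      intro L
      rw [le_div_iff₀ hpos]
      have h1 := term_excess ha0 ha L n
      have h2 : dBound a (L, n) ≤ ∑' L, dBound a (L, n) :=
        (hfib n).le_tsum L (fun K _ => dBound_nonneg ha0 ha (K, n))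
      linarith
    rw [le_div_iff₀ hpos] at this
    linarith

lemma pow_le_omega (L : ℕ) (n : Z2) :
    (1 + nrm n) ^ L ≤ ((wkap a L)⁻¹) ^ L * omegaW a n := by
  have hk := wkap_pos ha0 ha L
  have hk1 := wkap_le_one ha0 ha L
  have hn := nrm_nonneg n
  have h1 := omega_term_le ha0 ha L n
  have h2 : wkap a L * (1 + nrm n) ≤ 1 + wkap a L * nrm n := by nlinarith
  have h3 : (wkap a L) ^ L * (1 + nrm n) ^ L ≤ omegaW a n := by
    rw [← mul_pow]
    exact le_trans (pow_le_pow_left₀ (by positivity) h2 L) h1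
  have hk2 : ((wkap a L)⁻¹) ^ L * (wkap a L) ^ L = 1 := by
    rw [← mul_pow, inv_mul_cancel₀ hk.ne', one_pow]
  calc (1 + nrm n) ^ L = ((wkap a L)⁻¹) ^ L * ((wkap a L) ^ L * (1 + nrm n) ^ L) := by
        rw [← mul_assoc, hk2, one_mul]
    _ ≤ _ := mul_le_mul_of_nonneg_left h3 (by positivity)

/-- The weight as a structure. -/
noncomputable def adaptedWt : Wt where
  w := omegaW a
  one_le := omega_one_le ha0 ha
  submul := omega_submul ha0 ha

end

/-- Main output: for a rapidly decaying nonnegative sequence there is a submultiplicative weight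
which grows faster than any polynomial and against which the sequence is still summable. -/
theorem exists_weight (a : Z2 → ℝ) (ha0 : ∀ n, 0 ≤ a n)
    (ha : ∀ L : ℕ, Summable (fun n => a n * (1 + nrm n) ^ L)) :
    ∃ W : Wt, Summable (fun n => a n * W.w n) ∧
      ∀ L : ℕ, ∃ C : ℝ, 0 < C ∧ ∀ n, (1 + nrm n) ^ L ≤ C * W.w n :=
  ⟨adaptedWt ha0 ha, summable_omega ha0 ha, fun L =>
    ⟨((wkap a L)⁻¹) ^ L, by have := wkap_pos ha0 ha L; positivity, pow_le_omega ha0 ha L⟩⟩

end Vale.Agent.P205
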